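import Vale.Agent.P122.Stmt
import Vale.Agent.P117.Plan
import Vale.Agent.P117.Schur
import Vale.Agent.P117.CylB

/-! Internal definitions for P122. FROZEN. See skeleton/P122/GUIDE.md. -/

open MeasureTheory Set Real
open scoped FourierTransform ENNReal ComplexConjugate

noncomputable section

namespace Vale.Agent.P122

open Vale.Agent.P117 (Np pt rho)

/-- the unimodular exponential -/
def ex (x : ℝ) : ℂ := Complex.exp ((x : ℂ) * Complex.I)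

/-- the Bessel integral -/
def bJ (k : ℤ) (y : ℝ) : ℂ := ∫ θ in (-π)..π, ex (y * sin θ - k * θ)

/-- its derivative -/
def dJ (k : ℤ) (y : ℝ) : ℂ := (bJ (k - 1) y - bJ (k + 1) y) / 2

/-- the Bessel kernel -/
def kJ (k : ℤ) (r s : ℝ) : ℂ := bJ k (r * √s)

/-- the operator of a kernel -/
def TT (κ : ℝ → ℝ → ℂ) (g : ℝ → ℂ) (z : ℝ × ℝ) : ℂ := 𝓕⁻ (fun s => κ z.1 s * g s) z.2

/-- bounded measurable kernels -/
structure Kr (κ : ℝ → ℝ → ℂ) : Prop where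
  meas : Measurable (Function.uncurry κ)
  bdd : ∃ B, ∀ r s, ‖κ r s‖ ≤ B

/-- data bounded by the indicator of `E` -/
structure Dat (g : ℝ → ℂ) (E : Set ℝ) : Prop where
  meas : Measurable g
  mE : MeasurableSet E
  sub : E ⊆ Icc 0 1
  le : ∀ s, ‖g s‖ ≤ 1
  van : ∀ s, s ∉ E → g s = 0

/-- restricted bound for the `p`-th power of the norm -/
def Bnd (p : ℝ) (κ : ℝ → ℝ → ℂ) (b : ℝ) : Prop :=
  ∀ g E, Dat g E → Np volume p (TT κ g) ≤ ENNReal.ofReal b * volume E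

/-- the kernel of the quadrilinear form -/
def KK (κ : ℝ → ℝ → ℂ) (τ s s' : ℝ) : ℂ :=
  ∫ r, κ r s * κ r (τ - s) * conj (κ r s' * κ r (τ - s'))

/-- the momentum -/
def ww (ν y : ℝ) : ℝ := √(y ^ 2 - ν ^ 2)

/-- the phase -/
def ph (ν y : ℝ) : ℝ := ww ν y + ν * arctan (ν / ww ν y)

/-- the oscillating wave -/
def mm (ν y : ℝ) : ℂ := (((√(ww ν y))⁻¹ : ℝ) : ℂ) * ex (ph ν y)

/-- its logarithmic derivative times `y` -/
def ld (ν y : ℝ) : ℂ := (ww ν y : ℂ) * Complex.I - ((y ^ 2 / (2 * ww ν y ^ 2) : ℝ) : ℂ)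

/-- the defect in the equation -/
def qq (ν y : ℝ) : ℝ := y ^ 2 * (y ^ 2 + 4 * ν ^ 2) / (4 * ww ν y ^ 4)

/-- the oscillatory region -/
def Reg (ν y : ℝ) : Prop := ν < y ∧ 8 * y ^ 2 ≤ ww ν y ^ 3

/-- the radial momentum -/
def uu (ν r s : ℝ) : ℝ := √(s - ν ^ 2 / r ^ 2)

/-- the support of a main piece -/
def Pc (ν R μ r s : ℝ) : Prop :=
  R ≤ r ∧ r < 2 * R ∧ μ ≤ uu ν r s ∧ uu ν r s < 2 * μ ∧ Reg ν (r * √s)

open Classical in
/-- a main piece -/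
def km (ν R μ r s : ℝ) : ℂ := if Pc ν R μ r s then mm ν (r * √s) else 0

open Classical in
/-- the remainder -/
def er (k : ℕ) (α β : ℂ) (y : ℝ) : ℂ :=
  bJ k y - if Reg k y then α * mm k y + β * conj (mm k y) else 0

/-- small functions -/
structure Sml (C ν Y : ℝ) (N : ℝ → ℂ) : Prop where
  meas : Measurable N
  b0 : ∀ y, 0 ≤ y → y ≤ Y → ‖N y‖ ≤ C
  b1 : ∀ y, 0 ≤ y → y ≤ Y → ‖N y‖ ^ 3 * y ≤ C ^ 3
  b2 : ∀ y, 0 ≤ y → y ≤ Y → ‖N y‖ * |y - ν| ≤ C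

/-- a piece of a function of `r * √s` -/
def kn (N : ℝ → ℂ) (A B a b r s : ℝ) : ℂ :=
  if A ≤ r ∧ r < B ∧ a < s ∧ s ≤ b then N (r * √s) else 0

/-- the radial profile in the variable `s` -/
def gg (f : E3 → ℂ) : ℝ → ℂ :=
  (Icc (0 : ℝ) 1).indicator fun s => f (pt (√s) 0 s) * ((√(1 + 4 * s) / 2 : ℝ) : ℂ)

/-- equivariance on the surface, in polar form -/
def Eqv (k : ℤ) (f : E3 → ℂ) : Prop :=
  ∀ θ ρ : ℝ, 0 ≤ ρ → ρ ≤ 1 → f (par (ρ * cos θ, ρ * sin θ)) = ex (k * θ) * f (pt ρ 0 (ρ ^ 2))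

/-- the closed unit disc -/
def disc : Set (ℝ × ℝ) := {u | u.1 ^ 2 + u.2 ^ 2 ≤ 1}

theorem norm_ex (x : ℝ) : ‖ex x‖ = 1 := Complex.norm_exp_ofReal_mul_I x

theorem ex_add (x y : ℝ) : ex (x + y) = ex x * ex y := by
  simp [ex, add_mul, Complex.exp_add]

theorem conj_ex (x : ℝ) : conj (ex x) = ex (-x) := by
  simp [ex, ← Complex.exp_conj]

theorem continuous_ex : Continuous ex := by
  unfold ex
  fun_prop

theorem hasDerivAt_ex {f : ℝ → ℝ} {f' x : ℝ} (h : HasDerivAt f f' x) :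
    HasDerivAt (fun x => ex (f x)) ((f' : ℂ) * Complex.I * ex (f x)) x := by
  have := (h.ofReal_comp.mul_const Complex.I).cexp
  simpa [ex, mul_comm] using this

theorem rot_eq_rot : rot = Vale.Agent.P117.rot := rfl

end Vale.Agent.P122
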