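import Vale.Agent.P122.Base

/-!
Op: basic facts on `TT`, `Kr`, `Bnd`.  `Real.fourierInv_eq'` (or `fourierInv_eq`) unfolds `𝓕⁻`.
`measurable_TT`: `StronglyMeasurable.integral_prod_right`.  Linearity: `P117.inv_add`, `inv_sum`,
`inv_const_mul`; `P117.Np_add_le'`, `Np_const_mul`.  `Bnd.sum`: pointwise
`‖∑ a i‖ ≤ card * max ‖a i‖`, so `‖∑ a i‖ₑ ^ p ≤ card ^ p * ∑ ‖a i‖ₑ ^ p`
(`Finset.exists_max_image`), `lintegral_finset_sum`.
-/

open MeasureTheory Set Real Filter
open scoped FourierTransform ENNReal ComplexConjugate Topology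

namespace Vale.Agent.P122

open Vale.Agent.P117 (Np pt rho)

variable {κ κ' : ℝ → ℝ → ℂ} {g : ℝ → ℂ} {E : Set ℝ} {p b b' : ℝ}

theorem TT_eq (κ : ℝ → ℝ → ℂ) (g : ℝ → ℂ) (z : ℝ × ℝ) :
    TT κ g z = ∫ s, ex (2 * π * (s * z.2)) * (κ z.1 s * g s) := by
  rw [TT, Real.fourierInv_eq']
  refine integral_congr_ae (Eventually.of_forall fun s => ?_)
  simp only [ex, smul_eq_mul, RCLike.inner_apply, conj_trivial, mul_comm z.2 s]

theorem measurable_TT (hκ : Measurable (Function.uncurry κ)) (hg : Measurable g) :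
    Measurable (TT κ g) := by
  rw [funext (TT_eq κ g)]
  have h1 : Measurable (Function.uncurry fun (z : ℝ × ℝ) (s : ℝ) =>
      ex (2 * π * (s * z.2)) * (κ z.1 s * g s)) :=
    (continuous_ex.measurable.comp ((measurable_snd.mul measurable_fst.snd).const_mul _)).mul
      ((hκ.comp (measurable_fst.fst.prodMk measurable_snd)).mul (hg.comp measurable_snd))
  exact h1.stronglyMeasurable.integral_prod_right.measurable

theorem Dat.int (hg : Dat g E) : Integrable g := by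
  refine ((integrableOn_const (C := (1 : ℝ)) (measure_Icc_lt_top (a := (0 : ℝ))
    (b := 1)).ne).integrable_indicator measurableSet_Icc).mono' hg.meas.aestronglyMeasurable
    (Eventually.of_forall fun s => ?_)
  by_cases h : s ∈ Icc (0 : ℝ) 1
  · rw [indicator_of_mem h]
    exact hg.le s
  · rw [indicator_of_notMem h, hg.van s fun e => h (hg.sub e), norm_zero]

theorem Kr.int (hκ : Kr κ) (hg : Integrable g) (r : ℝ) : Integrable fun s => κ r s * g s := by
  obtain ⟨B, hB⟩ := hκ.bdd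
  exact hg.bdd_mul (hκ.meas.of_uncurry_left (x := r)).aestronglyMeasurable
    (Eventually.of_forall (hB r))

theorem Kr.add (h : Kr κ) (h' : Kr κ') : Kr fun r s => κ r s + κ' r s := by
  obtain ⟨B, hB⟩ := h.bdd
  obtain ⟨B', hB'⟩ := h'.bdd
  exact ⟨h.meas.add h'.meas, B + B', fun r s =>
    (norm_add_le _ _).trans (add_le_add (hB r s) (hB' r s))⟩

theorem Kr.const_mul (h : Kr κ) (c : ℂ) : Kr fun r s => c * κ r s := by
  obtain ⟨B, hB⟩ := h.bdd
  exact ⟨h.meas.const_mul c, ‖c‖ * B, fun r s =>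
    (norm_mul_le _ _).trans (mul_le_mul_of_nonneg_left (hB r s) (norm_nonneg c))⟩

theorem Kr.conj (h : Kr κ) : Kr fun r s => conj (κ r s) := by
  obtain ⟨B, hB⟩ := h.bdd
  exact ⟨Complex.continuous_conj.measurable.comp h.meas, B, fun r s =>
    (Complex.norm_conj _).trans_le (hB r s)⟩

theorem Kr.sum {ι : Type} (A : Finset ι) {K : ι → ℝ → ℝ → ℂ} (h : ∀ i ∈ A, Kr (K i)) :
    Kr fun r s => ∑ i ∈ A, K i r s := by
  classical
  induction A using Finset.induction_on with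
  | empty => exact ⟨measurable_const (a := 0), 0, fun r s => by simp⟩
  | insert a A ha ih =>
    simp only [Finset.sum_insert ha]
    exact (h a (Finset.mem_insert_self a A)).add
      (ih fun i hi => h i (Finset.mem_insert_of_mem hi))

theorem Bnd.mono (h : Bnd p κ b) (hb : b ≤ b') : Bnd p κ b' := fun g E hg =>
  (h g E hg).trans (mul_le_mul_left (ENNReal.ofReal_le_ofReal hb) _)

theorem Bnd.congr (h : Bnd p κ b) (e : ∀ r, ∀ s ∈ Icc (0 : ℝ) 1, κ' r s = κ r s) :
    Bnd p κ' b := by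
  intro g E hg
  have h1 : TT κ' g = TT κ g := by
    funext z
    refine congrArg (fun f : ℝ → ℂ => 𝓕⁻ f z.2) (funext fun s => ?_)
    by_cases hs : s ∈ E
    · rw [e _ _ (hg.sub hs)]
    · rw [hg.van s hs, mul_zero, mul_zero]
  rw [h1]
  exact h g E hg

theorem Bnd.add (hp : 0 ≤ p) (hκ : Kr κ) (hκ' : Kr κ') (h : Bnd p κ b) (h' : Bnd p κ' b')
    (hb : 0 ≤ b) (hb' : 0 ≤ b') : Bnd p (fun r s => κ r s + κ' r s) (2 ^ p * (b + b')) := by
  intro g E hg
  have h1 : TT (fun r s => κ r s + κ' r s) g = fun z => TT κ g z + TT κ' g z := by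
    funext z
    simp only [TT, add_mul]
    exact P117.inv_add (hκ.int hg.int _) (hκ'.int hg.int _) _
  rw [h1, ENNReal.ofReal_mul (by positivity), ENNReal.ofReal_add hb hb', mul_assoc, add_mul,
    ← ENNReal.ofReal_rpow_of_nonneg zero_le_two hp, ENNReal.ofReal_ofNat]
  exact (P117.Np_add_le' hp (measurable_TT hκ.meas hg.meas) _).trans
    (mul_le_mul_right (add_le_add (h g E hg) (h' g E hg)) _)

theorem Bnd.const_mul (hp : 0 ≤ p) (h : Bnd p κ b) {c : ℂ} {C : ℝ} (hc : ‖c‖ ≤ C) :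
    Bnd p (fun r s => c * κ r s) (C ^ p * b) := by
  intro g E hg
  have hC : 0 ≤ C := (norm_nonneg c).trans hc
  have h1 : TT (fun r s => c * κ r s) g = fun z => c * TT κ g z := by
    funext z
    simp only [TT, mul_assoc]
    exact P117.inv_const_mul _ _ _
  rw [h1, P117.Np_const_mul hp, ENNReal.ofReal_mul (by positivity), mul_assoc,
    ← ENNReal.ofReal_rpow_of_nonneg hC hp, ← ofReal_norm]
  exact mul_le_mul' (ENNReal.rpow_le_rpow (ENNReal.ofReal_le_ofReal hc) hp) (h g E hg)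

theorem op_sum {ι : Type} (hp : 0 < p) (A : Finset ι) (a : ι → ℂ) :
    ‖∑ i ∈ A, a i‖ₑ ^ p ≤ (A.card : ℝ≥0∞) ^ p * ∑ i ∈ A, ‖a i‖ₑ ^ p := by
  rcases A.eq_empty_or_nonempty with rfl | hA
  · simp [hp]
  · obtain ⟨j, hj, h1⟩ := A.exists_max_image (fun i => ‖a i‖ₑ) hA
    have h2 : ‖∑ i ∈ A, a i‖ₑ ≤ A.card * ‖a j‖ₑ := by
      refine (enorm_sum_le A a).trans ((Finset.sum_le_card_nsmul A _ _ h1).trans_eq ?_)
      rw [nsmul_eq_mul]
    refine (ENNReal.rpow_le_rpow h2 hp.le).trans ?_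
    rw [ENNReal.mul_rpow_of_nonneg _ _ hp.le]
    exact mul_le_mul_right
      (Finset.single_le_sum (f := fun i => ‖a i‖ₑ ^ p) (fun _ _ => zero_le) hj) _

theorem Bnd.sum {ι : Type} (hp : 0 < p) (A : Finset ι) {K : ι → ℝ → ℝ → ℂ}
    (hK : ∀ i ∈ A, Kr (K i)) (h : ∀ i ∈ A, Bnd p (K i) b) :
    Bnd p (fun r s => ∑ i ∈ A, K i r s) ((A.card : ℝ) ^ (p + 1) * b) := by
  intro g E hg
  have h1 : TT (fun r s => ∑ i ∈ A, K i r s) g = fun z => ∑ i ∈ A, TT (K i) g z := by
    funext z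
    simp only [TT, Finset.sum_mul]
    exact P117.inv_sum A (fun i hi => (hK i hi).int hg.int _) _
  have h2 : (A.card : ℝ≥0∞) ^ p ≠ ⊤ :=
    ENNReal.rpow_ne_top_of_nonneg hp.le (ENNReal.natCast_ne_top _)
  rw [h1, Np]
  refine (lintegral_mono fun z => op_sum hp A _).trans ?_
  rw [lintegral_const_mul' _ _ h2, lintegral_finsetSum A fun i hi =>
    (measurable_TT (hK i hi).meas hg.meas).enorm.pow_const p,
    ENNReal.ofReal_mul (by positivity),
    ← ENNReal.ofReal_rpow_of_nonneg (Nat.cast_nonneg _) (by positivity), ENNReal.ofReal_natCast,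
    ENNReal.rpow_add_of_nonneg _ _ hp.le zero_le_one, ENNReal.rpow_one, mul_assoc, mul_assoc,
    ← nsmul_eq_mul]
  exact mul_le_mul_right (Finset.sum_le_card_nsmul A _ _ fun i hi => h i hi g E hg) _

end Vale.Agent.P122
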