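import Vale.Agent.P122.Base

/-!
WkbA: calculus of the wave `mm`.  With `w = ww ν y`, `w ^ 2 = y ^ 2 - ν ^ 2`, `w' = y / w`,
`(arctan (ν / w))' = -ν w' / y ^ 2`.  `b = y ^ 2 / (2 w ^ 2)` has `y b' = -y ^ 2 ν ^ 2 / w ^ 4`.
Substitute `ν ^ 2 = y ^ 2 - w ^ 2` (or write `w = v ^ 2`, `v = √w`), `field_simp`,
`ring`.  `Reg.mono`: `w ^ 3 / y ^ 2` increases: square it, `(1 - ν ^ 2 / y ^ 2) ^ 3 * y ^ 2`.
-/

open MeasureTheory Set Real Filter
open scoped FourierTransform ENNReal ComplexConjugate Topology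

namespace Vale.Agent.P122

open Vale.Agent.P117 (Np pt rho)

variable {ν y : ℝ}

theorem ww_pos (hν : 0 ≤ ν) (h : ν < y) : 0 < ww ν y := by
  exact Real.sqrt_pos.2 (by nlinarith)

theorem ww_sq (hν : 0 ≤ ν) (h : ν < y) : ww ν y ^ 2 = y ^ 2 - ν ^ 2 := by
  exact Real.sq_sqrt (by nlinarith)

theorem ww_le (hy : 0 ≤ y) : ww ν y ≤ y := by
  exact Real.sqrt_le_iff.2 ⟨hy, by nlinarith [sq_nonneg ν]⟩

theorem ww_mul {r s : ℝ} (hr : 0 < r) (hs : 0 ≤ s) : ww ν (r * √s) = r * uu ν r s := by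
  have e : (r * √s) ^ 2 - ν ^ 2 = r ^ 2 * (s - ν ^ 2 / r ^ 2) := by
    rw [mul_pow, Real.sq_sqrt hs]
    field_simp
  rw [ww, uu, e, Real.sqrt_mul (sq_nonneg r), Real.sqrt_sq hr.le]

theorem norm_mm (ν y : ℝ) : ‖mm ν y‖ = (√(ww ν y))⁻¹ := by
  rw [mm, norm_mul, norm_ex, mul_one, Complex.norm_real, Real.norm_eq_abs,
    abs_of_nonneg (inv_nonneg.2 (Real.sqrt_nonneg _))]

theorem measurable_mm (ν : ℝ) : Measurable (mm ν) := by
  have h1 : Measurable (ww ν) := by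
    unfold ww
    fun_prop
  have h2 : Measurable (ph ν) :=
    h1.add ((continuous_arctan.measurable.comp (measurable_const.div h1)).const_mul ν)
  exact (Complex.measurable_ofReal.comp h1.sqrt.inv).mul (continuous_ex.measurable.comp h2)

theorem measurableSet_reg (ν : ℝ) : MeasurableSet {y | Reg ν y} := by
  have h1 : Measurable (ww ν) := by
    unfold ww
    fun_prop
  exact (measurableSet_lt measurable_const measurable_id).inter
    (measurableSet_le ((measurable_id.pow_const 2).const_mul 8) (h1.pow_const 3))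

theorem Reg.eight (hν : 0 ≤ ν) (h : Reg ν y) : 8 ≤ ww ν y := by
  have h1 := ww_pos hν h.1
  have h2 := ww_sq hν h.1
  have h3 : 8 * ww ν y ^ 2 ≤ ww ν y * ww ν y ^ 2 := by nlinarith [h.2, sq_nonneg ν]
  exact le_of_mul_le_mul_right h3 (by positivity)

theorem Reg.mono (hν : 0 ≤ ν) (h : Reg ν y) {y' : ℝ} (hy : y ≤ y') : Reg ν y' := by
  have h' : ν < y' := h.1.trans_le hy
  have h0 : 0 < y := hν.trans_lt h.1
  have h1 := ww_pos hν h.1
  have h2 := ww_sq hν h.1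
  have h4 := ww_sq hν h'
  have h5 : y ^ 2 ≤ y' ^ 2 := by gcongr
  have h6 : ww ν y ≤ ww ν y' := Real.sqrt_le_sqrt (by linarith)
  have h7 : ww ν y ^ 2 * y' ^ 2 ≤ ww ν y' ^ 2 * y ^ 2 := by
    rw [h2, h4]
    nlinarith [mul_le_mul_of_nonneg_left h5 (sq_nonneg ν)]
  refine ⟨h', le_of_mul_le_mul_right ?_ (show 0 < y ^ 2 by positivity)⟩
  calc 8 * y' ^ 2 * y ^ 2 = 8 * y ^ 2 * y' ^ 2 := by ring
    _ ≤ ww ν y ^ 3 * y' ^ 2 := by gcongr; exact h.2
    _ = ww ν y * (ww ν y ^ 2 * y' ^ 2) := by ring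
    _ ≤ ww ν y' * (ww ν y' ^ 2 * y ^ 2) := mul_le_mul h6 h7 (by positivity) (h1.le.trans h6)
    _ = _ := by ring

theorem hasDerivAt_ww (hν : 0 ≤ ν) (h : ν < y) : HasDerivAt (ww ν) (y / ww ν y) y := by
  have h1 : HasDerivAt (fun y : ℝ => y ^ 2 - ν ^ 2) (2 * y) y := by
    simpa using (hasDerivAt_pow 2 y).sub_const (ν ^ 2)
  have h2 := ww_pos hν h
  refine (h1.sqrt (by nlinarith)).congr_deriv ?_
  change 2 * y / (2 * ww ν y) = _
  field_simp

theorem hasDerivAt_ph (hν : 0 ≤ ν) (h : ν < y) : HasDerivAt (ph ν) (ww ν y / y) y := by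
  have h0 : 0 < y := hν.trans_lt h
  have h1 := hasDerivAt_ww hν h
  have h2 := ww_pos hν h
  have h3 := ww_sq hν h
  have h4 := ((hasDerivAt_const y ν).fun_div h1 h2.ne').arctan.const_mul ν
  refine (h1.add h4).congr_deriv ?_
  have e : 1 + (ν / ww ν y) ^ 2 = y ^ 2 / ww ν y ^ 2 := by
    field_simp
    linarith
  rw [e]
  field_simp
  linear_combination (-y) * h3

theorem hasDerivAt_mm (hν : 0 ≤ ν) (h : ν < y) :
    HasDerivAt (mm ν) (ld ν y * mm ν y / y) y := by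
  have h0 : 0 < y := hν.trans_lt h
  have h2 := ww_pos hν h
  have h5 : 0 < √(ww ν y) := Real.sqrt_pos.2 h2
  have h6 : √(ww ν y) ^ 2 = ww ν y := Real.sq_sqrt h2.le
  have h1 : HasDerivAt (fun y => (√(ww ν y))⁻¹) (-(y / (2 * ww ν y ^ 2)) * (√(ww ν y))⁻¹) y := by
    refine (((hasDerivAt_ww hν h).sqrt h2.ne').fun_inv h5.ne').congr_deriv ?_
    rw [h6]
    field_simp
  refine (h1.ofReal_comp.mul (hasDerivAt_ex (hasDerivAt_ph hν h))).congr_deriv ?_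
  have h7 : (y : ℂ) ≠ 0 := by exact_mod_cast h0.ne'
  simp only [ld, mm]
  push_cast
  field_simp
  ring

theorem hasDerivAt_ld (hν : 0 ≤ ν) (h : ν < y) : HasDerivAt (fun y => ld ν y * mm ν y)
    ((((qq ν y - ww ν y ^ 2) / y : ℝ) : ℂ) * mm ν y) y := by
  have h0 : 0 < y := hν.trans_lt h
  have h1 := hasDerivAt_ww hν h
  have h2 := ww_pos hν h
  have h3 := ww_sq hν h
  have h4 : HasDerivAt (fun y => y ^ 2 / (2 * ww ν y ^ 2)) (-(y * ν ^ 2 / ww ν y ^ 4)) y := by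
    refine ((hasDerivAt_pow 2 y).fun_div ((h1.fun_pow 2).const_mul 2)
      (by positivity)).congr_deriv ?_
    have e : ν ^ 2 = y ^ 2 - ww ν y ^ 2 := by linarith
    rw [e]
    field_simp
    norm_num
    ring
  have h5 : HasDerivAt (ld ν) (((y / ww ν y : ℝ) : ℂ) * Complex.I -
      ((-(y * ν ^ 2 / ww ν y ^ 4) : ℝ) : ℂ)) y :=
    (h1.ofReal_comp.mul_const Complex.I).sub h4.ofReal_comp
  refine (h5.mul (hasDerivAt_mm hν h)).congr_deriv ?_
  have h7 : (y : ℂ) ≠ 0 := by exact_mod_cast h0.ne'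
  have h8 : (ww ν y : ℂ) ≠ 0 := by exact_mod_cast h2.ne'
  simp only [ld, qq]
  push_cast
  field_simp
  linear_combination (16 * (ww ν y : ℂ) ^ 6 * mm ν y) * Complex.I_mul_I

theorem hasDerivAt_gam (hν : 0 ≤ ν) (h : ν < y) : ∃ G : ℝ,
    HasDerivAt (fun y => 5 / 4 * (y ^ 2 / ww ν y ^ 3)) G y ∧ 0 ≤ qq ν y ∧
      qq ν y / (ww ν y * y) ≤ -G := by
  have h0 : 0 < y := hν.trans_lt h
  have h1 := hasDerivAt_ww hν h
  have h2 := ww_pos hν h
  have h3 := ww_sq hν h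
  refine ⟨5 / 4 * -(y * (y ^ 2 + 2 * ν ^ 2) / ww ν y ^ 5), HasDerivAt.const_mul _ ?_,
    by unfold qq; positivity, ?_⟩
  · refine ((hasDerivAt_pow 2 y).fun_div (h1.fun_pow 3) (by positivity)).congr_deriv ?_
    have e : ν ^ 2 = y ^ 2 - ww ν y ^ 2 := by linarith
    rw [e]
    field_simp
    norm_num
    ring
  · have e : -(5 / 4 * -(y * (y ^ 2 + 2 * ν ^ 2) / ww ν y ^ 5)) - qq ν y / (ww ν y * y) =
        y * (4 * y ^ 2 + 6 * ν ^ 2) / (4 * ww ν y ^ 5) := by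
      unfold qq
      field_simp
      ring
    have : 0 ≤ y * (4 * y ^ 2 + 6 * ν ^ 2) / (4 * ww ν y ^ 5) := by positivity
    linarith

end Vale.Agent.P122
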