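import Vale.Agent.P122.VdC
import Vale.Agent.P122.WkbA
import Vale.Agent.P122.Op

/-!
Ker: the kernel of a main piece.  On `Pc` one has `0 < s`, `ww ν (r √s) = r * uu ≥ R μ` (`ww_mul`).
`kk_km`: let `s1 = s`, `s2 = τ - s`, `s3 = s'`, `s4 = τ - s'`, `u i r = uu ν r (s i)` and
`S = {r | ∀ i, Pc ν R μ r (s i)}`; it is order connected (`uu` increases in `r > 0`, `Reg.mono`), the
integrand is the indicator of `S` times `H1 r * ex (ψ r)` with `H1 = ∏ (√(r * u i r))⁻¹` antitone and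
at most `(R μ)⁻¹ ^ 2`, `ψ r = ph ν (r √s1) + ph ν (r √s2) - ph ν (r √s3) - ph ν (r √s4)`,
`ψ' = u1 + u2 - u3 - u4` (`hasDerivAt_ph`).  On `closure S`: `R ≤ r ≤ 2 R`, `μ ≤ u i ≤ 2 μ` (closed
conditions; they give `ν < r √(s i)`).  With `Δ = (s - s') (τ - s - s') ≠ 0` and
`D = (u1 + u2 + u3 + u4) (u1 u2 + u3 u4) ≤ 64 μ ^ 3` (monotone) one has `ψ' * D = 2 Δ`, because
`u i ^ 2 = s i - ν ^ 2 / r ^ 2`, `u1 ^ 2 + u2 ^ 2 = u3 ^ 2 + u4 ^ 2`.  `ord_int`, then `vdc` with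
`H2 = D / (2 Δ)`.
-/

open MeasureTheory Set Real Filter
open scoped FourierTransform ENNReal ComplexConjugate Topology

namespace Vale.Agent.P122

open Vale.Agent.P117 (Np pt rho)

variable {ν R μ : ℝ}

theorem ker_pos (hμ : 0 < μ) {r s : ℝ} (h : μ ≤ uu ν r s) : ν ^ 2 / r ^ 2 < s := by
  have h1 : 0 < s - ν ^ 2 / r ^ 2 := Real.sqrt_pos.1 (hμ.trans_le h)
  linarith

theorem ker_spos {r s : ℝ} (h : ν ^ 2 / r ^ 2 < s) : 0 < s := lt_of_le_of_lt (by positivity) h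

theorem ker_usq {r s : ℝ} (h : ν ^ 2 / r ^ 2 < s) : uu ν r s ^ 2 = s - ν ^ 2 / r ^ 2 :=
  Real.sq_sqrt (by linarith)

theorem ker_lt {r s : ℝ} (hr : 0 < r) (h : ν ^ 2 / r ^ 2 < s) : ν < r * √s := by
  have hs := ker_spos h
  refine lt_of_pow_lt_pow_left₀ 2 (by positivity) ?_
  rw [mul_pow, Real.sq_sqrt hs.le]
  rw [div_lt_iff₀ (by positivity)] at h
  linarith

theorem ker_umono (s : ℝ) {r r' : ℝ} (hr : 0 < r) (h : r ≤ r') : uu ν r s ≤ uu ν r' s := by
  have h1 : ν ^ 2 / r' ^ 2 ≤ ν ^ 2 / r ^ 2 := by gcongr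
  exact Real.sqrt_le_sqrt (by linarith)

theorem ker_in (s : ℝ) {r : ℝ} (hr : 0 < r) :
    ContDiffAt ℝ 1 (fun r : ℝ => s - ν ^ 2 / r ^ 2) r :=
  contDiffAt_const.sub (contDiffAt_const.div (contDiffAt_id.pow 2) (by positivity))

theorem ker_ucont (s : ℝ) {r : ℝ} (hr : 0 < r) : ContinuousAt (fun r => uu ν r s) r :=
  (ker_in s hr).continuousAt.sqrt

theorem ker_udiff {r s : ℝ} (hr : 0 < r) (h : ν ^ 2 / r ^ 2 < s) :
    ContDiffAt ℝ 1 (fun r => uu ν r s) r :=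
  (ker_in s hr).sqrt (by linarith)

theorem ker_ph (hν : 0 ≤ ν) {r s : ℝ} (hr : 0 < r) (h : ν ^ 2 / r ^ 2 < s) :
    HasDerivAt (fun r => ph ν (r * √s)) (uu ν r s) r := by
  have hs := ker_spos h
  have h1 := (hasDerivAt_ph hν (ker_lt hr h)).comp r ((hasDerivAt_id r).mul_const √s)
  have h2 : 0 < √s := Real.sqrt_pos.2 hs
  refine HasDerivAt.congr_deriv h1 ?_
  rw [ww_mul hr hs.le]
  field_simp

/-- the amplitude -/
noncomputable def kerA (ν s r : ℝ) : ℝ := (√(r * uu ν r s))⁻¹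

theorem ker_mm {r s : ℝ} (hr : 0 < r) (hs : 0 ≤ s) :
    mm ν (r * √s) = (kerA ν s r : ℂ) * ex (ph ν (r * √s)) := by
  rw [mm, ww_mul hr hs, kerA]

theorem ker_A0 (ν s r : ℝ) : 0 ≤ kerA ν s r := by
  unfold kerA
  positivity

theorem ker_Ale (hR : 0 < R) (hμ : 0 < μ) {r s : ℝ} (hr : R ≤ r) (h : μ ≤ uu ν r s) :
    kerA ν s r ≤ (√(R * μ))⁻¹ := by
  unfold kerA
  have h1 : R * μ ≤ r * uu ν r s := mul_le_mul hr h hμ.le (by linarith)
  exact inv_anti₀ (Real.sqrt_pos.2 (by positivity)) (Real.sqrt_le_sqrt h1)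

theorem ker_Adiff (hμ : 0 < μ) {r s : ℝ} (hr : 0 < r) (h : μ ≤ uu ν r s) :
    ContDiffAt ℝ 1 (kerA ν s) r := by
  have h1 : 0 < r * uu ν r s := mul_pos hr (hμ.trans_le h)
  exact ((contDiffAt_id.mul (ker_udiff hr (ker_pos hμ h))).sqrt h1.ne').inv
    (Real.sqrt_pos.2 h1).ne'

theorem ker_Aanti (hμ : 0 < μ) {r r' s : ℝ} (hr : 0 < r) (h : μ ≤ uu ν r s) (hrr : r ≤ r') :
    kerA ν s r' ≤ kerA ν s r := by
  unfold kerA
  have h0 := hμ.trans_le h
  have h1 : r * uu ν r s ≤ r' * uu ν r' s :=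
    mul_le_mul hrr (ker_umono s hr hrr) h0.le (by linarith)
  exact inv_anti₀ (Real.sqrt_pos.2 (by positivity)) (Real.sqrt_le_sqrt h1)

theorem ker_core (hν : 0 ≤ ν) (hR : 0 < R) (hμ : 0 < μ) {a b s1 s2 s3 s4 : ℝ} (hab : a ≤ b)
    (he : s1 + s2 = s3 + s4) (hΔ : s1 * s2 - s3 * s4 ≠ 0) (hr : ∀ r ∈ Icc a b, R ≤ r)
    (h1 : ∀ r ∈ Icc a b, μ ≤ uu ν r s1 ∧ uu ν r s1 ≤ 2 * μ)
    (h2 : ∀ r ∈ Icc a b, μ ≤ uu ν r s2 ∧ uu ν r s2 ≤ 2 * μ)
    (h3 : ∀ r ∈ Icc a b, μ ≤ uu ν r s3 ∧ uu ν r s3 ≤ 2 * μ)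
    (h4 : ∀ r ∈ Icc a b, μ ≤ uu ν r s4 ∧ uu ν r s4 ≤ 2 * μ) :
    ‖∫ r in a..b, mm ν (r * √s1) * mm ν (r * √s2) * conj (mm ν (r * √s3) * mm ν (r * √s4))‖ *
      |s1 * s2 - s3 * s4| ≤ 192 * μ / R ^ 2 := by
  have hp : ∀ r ∈ Icc a b, 0 < r := fun r h => hR.trans_le (hr r h)
  obtain ⟨D, hD⟩ : ∃ D : ℝ → ℝ, D = fun r => (uu ν r s1 + uu ν r s2 + uu ν r s3 + uu ν r s4) *
      (uu ν r s1 * uu ν r s2 + uu ν r s3 * uu ν r s4) := ⟨_, rfl⟩
  obtain ⟨Δ, hΔe⟩ : ∃ Δ, Δ = s1 * s2 - s3 * s4 := ⟨_, rfl⟩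
  rw [← hΔe] at hΔ ⊢
  have hu0 : ∀ r s, 0 ≤ uu ν r s := fun r s => Real.sqrt_nonneg _
  have hDm : MonotoneOn D (Icc a b) := fun r h r' _ hrr => by
    have := ker_umono (ν := ν) s1 (hp r h) hrr
    have := ker_umono (ν := ν) s2 (hp r h) hrr
    have := ker_umono (ν := ν) s3 (hp r h) hrr
    have := ker_umono (ν := ν) s4 (hp r h) hrr
    have := hu0 r s1
    have := hu0 r s2
    have := hu0 r s3
    have := hu0 r s4
    have := hu0 r' s1
    have := hu0 r' s3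
    simp only [hD]
    gcongr
    linarith
  have hA := vdc (B1 := ((√(R * μ))⁻¹) ^ 4) (B2 := 32 * μ ^ 3 / |Δ|)
    (ψ := fun r => ph ν (r * √s1) + ph ν (r * √s2) - ph ν (r * √s3) - ph ν (r * √s4))
    (ψ' := fun r => uu ν r s1 + uu ν r s2 - uu ν r s3 - uu ν r s4)
    (H1 := fun r => kerA ν s1 r * kerA ν s2 r * (kerA ν s3 r * kerA ν s4 r))
    (H2 := fun r => D r / (2 * Δ)) hab
    (fun r h => (((ker_ph hν (hp r h) (ker_pos hμ (h1 r h).1)).add
      (ker_ph hν (hp r h) (ker_pos hμ (h2 r h).1))).sub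
      (ker_ph hν (hp r h) (ker_pos hμ (h3 r h).1))).sub
      (ker_ph hν (hp r h) (ker_pos hμ (h4 r h).1)))
    (fun r h => ((((ker_ucont s1 (hp r h)).add (ker_ucont s2 (hp r h))).sub
      (ker_ucont s3 (hp r h))).sub (ker_ucont s4 (hp r h))).continuousWithinAt)
    (fun r h => ((ker_Adiff hμ (hp r h) (h1 r h).1).mul (ker_Adiff hμ (hp r h) (h2 r h).1)).mul
      ((ker_Adiff hμ (hp r h) (h3 r h).1).mul (ker_Adiff hμ (hp r h) (h4 r h).1)))
    (fun r h => by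
      have d1 := ker_udiff (hp r h) (ker_pos hμ (h1 r h).1)
      have d2 := ker_udiff (hp r h) (ker_pos hμ (h2 r h).1)
      have d3 := ker_udiff (hp r h) (ker_pos hμ (h3 r h).1)
      have d4 := ker_udiff (hp r h) (ker_pos hμ (h4 r h).1)
      rw [hD]
      exact ((((d1.add d2).add d3).add d4).mul ((d1.mul d2).add (d3.mul d4))).div_const _)
    (Or.inr fun r h r' _ hrr => by
      have := ker_Aanti hμ (hp r h) (h1 r h).1 hrr
      have := ker_Aanti hμ (hp r h) (h2 r h).1 hrr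
      have := ker_Aanti hμ (hp r h) (h3 r h).1 hrr
      have := ker_Aanti hμ (hp r h) (h4 r h).1 hrr
      have := ker_A0 ν s1 r
      have := ker_A0 ν s2 r
      have := ker_A0 ν s3 r
      have := ker_A0 ν s2 r'
      have := ker_A0 ν s3 r'
      have := ker_A0 ν s4 r'
      show _ * _ * (_ * _) ≤ _ * _ * (_ * _)
      gcongr)
    (by
      rcases lt_or_gt_of_ne hΔ with h | h
      · exact Or.inr fun r hr r' hr' hrr =>
          div_le_div_of_nonpos_of_le (by linarith) (hDm hr hr' hrr)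
      · exact Or.inl fun r hr r' hr' hrr =>
          div_le_div_of_nonneg_right (hDm hr hr' hrr) (by linarith))
    (fun r h => by
      have := ker_Ale hR hμ (hr r h) (h1 r h).1
      have := ker_Ale hR hμ (hr r h) (h2 r h).1
      have := ker_Ale hR hμ (hr r h) (h3 r h).1
      have := ker_Ale hR hμ (hr r h) (h4 r h).1
      have := ker_A0 ν s1 r
      have := ker_A0 ν s2 r
      have := ker_A0 ν s3 r
      have := ker_A0 ν s4 r
      rw [abs_of_nonneg (by positivity), show ∀ x : ℝ, x ^ 4 = x * x * (x * x) from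
        fun x => by ring]
      gcongr)
    (fun r h => by
      have := (h1 r h).2
      have := (h2 r h).2
      have := (h3 r h).2
      have := (h4 r h).2
      have := hu0 r s1
      have := hu0 r s2
      have := hu0 r s3
      have := hu0 r s4
      have e1 : D r ≤ (2 * μ + 2 * μ + 2 * μ + 2 * μ) * (2 * μ * (2 * μ) + 2 * μ * (2 * μ)) := by
        simp only [hD]
        gcongr
      have e2 : 0 ≤ D r := by
        simp only [hD]
        positivity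
      have e3 := abs_pos.2 hΔ
      rw [abs_div, abs_of_nonneg e2, abs_mul, abs_two, div_le_div_iff₀ (by positivity) e3]
      nlinarith)
  have hI : ∫ r in a..b, mm ν (r * √s1) * mm ν (r * √s2) *
      conj (mm ν (r * √s3) * mm ν (r * √s4)) = ∫ r in a..b,
      ((kerA ν s1 r * kerA ν s2 r * (kerA ν s3 r * kerA ν s4 r) * (D r / (2 * Δ)) *
        (uu ν r s1 + uu ν r s2 - uu ν r s3 - uu ν r s4) : ℝ) : ℂ) *
      ex (ph ν (r * √s1) + ph ν (r * √s2) - ph ν (r * √s3) - ph ν (r * √s4)) := by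
    refine intervalIntegral.integral_congr fun r h => ?_
    rw [uIcc_of_le hab] at h
    have p1 := ker_pos hμ (h1 r h).1
    have p2 := ker_pos hμ (h2 r h).1
    have p3 := ker_pos hμ (h3 r h).1
    have p4 := ker_pos hμ (h4 r h).1
    have e : D r / (2 * Δ) * (uu ν r s1 + uu ν r s2 - uu ν r s3 - uu ν r s4) = 1 := by
      have q1 := ker_usq p1
      have q2 := ker_usq p2
      have q3 := ker_usq p3
      have q4 := ker_usq p4
      rw [div_mul_eq_mul_div, div_eq_one_iff_eq (by simpa using hΔ), hΔe]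
      simp only [hD]
      generalize uu ν r s1 = u1 at *
      generalize uu ν r s2 = u2 at *
      generalize uu ν r s3 = u3 at *
      generalize uu ν r s4 = u4 at *
      generalize ν ^ 2 / r ^ 2 = c at *
      obtain rfl : s1 = u1 ^ 2 + c := by linarith
      obtain rfl : s2 = u2 ^ 2 + c := by linarith
      obtain rfl : s3 = u3 ^ 2 + c := by linarith
      obtain rfl : s4 = u4 ^ 2 + c := by linarith
      linear_combination (u1 * u2 + u3 * u4 - 2 * c) * he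
    rw [mul_assoc (_ * _ * (_ * _)), e, mul_one, ker_mm (hp r h) (ker_spos p1).le,
      ker_mm (hp r h) (ker_spos p2).le, ker_mm (hp r h) (ker_spos p3).le,
      ker_mm (hp r h) (ker_spos p4).le, sub_eq_add_neg, sub_eq_add_neg, ex_add, ex_add, ex_add]
    simp only [map_mul, Complex.conj_ofReal, conj_ex]
    push_cast
    ring
  rw [hI]
  have e3 := abs_pos.2 hΔ
  have e4 : (√(R * μ))⁻¹ ^ 4 = ((R * μ) ^ 2)⁻¹ := by
    rw [inv_pow, show 4 = 2 * 2 from rfl, pow_mul, Real.sq_sqrt (by positivity)]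
  refine (mul_le_mul_of_nonneg_right hA e3.le).trans (le_of_eq ?_)
  rw [e4]
  field_simp
  norm_num

theorem ker_ord (hν : 0 ≤ ν) (hR : 0 < R) (s : ℝ) : {r | Pc ν R μ r s}.OrdConnected :=
  ⟨fun x hx y hy z hz => ⟨hx.1.trans hz.1, hz.2.trans_lt hy.2.1,
    hx.2.2.1.trans (ker_umono s (hR.trans_le hx.1) hz.1),
    (ker_umono s (hR.trans_le (hx.1.trans hz.1)) hz.2).trans_lt hy.2.2.2.1,
    hx.2.2.2.2.mono hν (mul_le_mul_of_nonneg_right hz.1 (Real.sqrt_nonneg _))⟩⟩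

theorem ker_clos (hR : 0 < R) {S : Set ℝ} {s r : ℝ} (hS : ∀ r ∈ S, Pc ν R μ r s)
    (hr : r ∈ closure S) : R ≤ r ∧ μ ≤ uu ν r s ∧ uu ν r s ≤ 2 * μ := by
  have h1 : R ≤ r := closure_minimal (t := Ici R) (fun r h => (hS r h).1) isClosed_Ici hr
  have h2 := (ker_ucont (ν := ν) s (hR.trans_le h1)).continuousWithinAt (s := S)
  exact ⟨h1, ContinuousWithinAt.closure_le hr continuousWithinAt_const h2
    fun r h => (hS r h).2.2.1, ContinuousWithinAt.closure_le hr h2 continuousWithinAt_const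
    fun r h => (hS r h).2.2.2.1.le⟩

theorem norm_km (hR : 0 < R) (hμ : 0 < μ) (r s : ℝ) : ‖km ν R μ r s‖ ^ 2 ≤ (R * μ)⁻¹ := by
  unfold km
  split_ifs with h
  · have hr := hR.trans_le h.1
    have h1 := ker_Ale hR hμ h.1 h.2.2.1
    rw [ker_mm hr (ker_spos (ker_pos hμ h.2.2.1)).le, norm_mul, norm_ex, mul_one, Complex.norm_real,
      Real.norm_of_nonneg (ker_A0 _ _ _)]
    refine (pow_le_pow_left₀ (ker_A0 _ _ _) h1 2).trans (le_of_eq ?_)
    rw [inv_pow, Real.sq_sqrt (by positivity)]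
  · simp only [norm_zero, ne_eq, OfNat.ofNat_ne_zero, not_false_eq_true, zero_pow]
    positivity

theorem kr_km (hR : 0 < R) (hμ : 0 < μ) : Kr (km ν R μ) := by
  refine ⟨?_, √((R * μ)⁻¹), fun r s => Real.le_sqrt_of_sq_le (norm_km hR hμ r s)⟩
  have h0 : Measurable fun z : ℝ × ℝ => z.1 * √z.2 := by fun_prop
  have h1 : Measurable fun z : ℝ × ℝ => uu ν z.1 z.2 := by
    unfold uu
    fun_prop
  refine Measurable.ite (p := fun z : ℝ × ℝ => Pc ν R μ z.1 z.2) ?_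
    ((measurable_mm ν).comp h0) measurable_const
  exact (measurableSet_le measurable_const measurable_fst).inter
    ((measurableSet_lt measurable_fst measurable_const).inter
      ((measurableSet_le measurable_const h1).inter
        ((measurableSet_lt h1 measurable_const).inter (h0 (measurableSet_reg ν)))))

theorem km_van {r : ℝ} (s : ℝ) (h : r ∉ Icc R (2 * R)) : km ν R μ r s = 0 := by
  unfold km
  exact if_neg fun hp => h ⟨hp.1, hp.2.1.le⟩

theorem kk_km (hν : 0 ≤ ν) (hR : 0 < R) (hμ : 0 < μ) (τ s s' : ℝ) :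
    ‖KK (km ν R μ) τ s s'‖ * |(s - s') * (s + s' - τ)| ≤ 192 * μ / R ^ 2 := by
  have e0 : |(s - s') * (s + s' - τ)| = |s * (τ - s) - s' * (τ - s')| := by
    rw [← abs_neg]
    congr 1
    ring
  rw [e0]
  by_cases hΔ : s * (τ - s) - s' * (τ - s') = 0
  · rw [hΔ, abs_zero, mul_zero]
    positivity
  obtain ⟨S, hS⟩ : ∃ S : Set ℝ, S = ({r | Pc ν R μ r s} ∩ {r | Pc ν R μ r (τ - s)}) ∩
      ({r | Pc ν R μ r s'} ∩ {r | Pc ν R μ r (τ - s')}) := ⟨_, rfl⟩
  have hO : S.OrdConnected := by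
    rw [hS]
    exact ((ker_ord hν hR _).inter (ker_ord hν hR _)).inter
      ((ker_ord hν hR _).inter (ker_ord hν hR _))
  have hm : ∀ r ∈ S, (Pc ν R μ r s ∧ Pc ν R μ r (τ - s)) ∧ Pc ν R μ r s' ∧ Pc ν R μ r (τ - s') :=
    fun r h => by rwa [hS] at h
  have e1 : KK (km ν R μ) τ s s' = ∫ r in S, mm ν (r * √s) * mm ν (r * √(τ - s)) *
      conj (mm ν (r * √s') * mm ν (r * √(τ - s'))) := by
    rw [← integral_indicator hO.measurableSet, KK]
    refine integral_congr_ae (Eventually.of_forall fun r => ?_)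
    by_cases h : r ∈ S
    · simp only [indicator_of_mem h, km, (hm r h).1.1, (hm r h).1.2, (hm r h).2.1, (hm r h).2.2,
        if_true]
    · rw [indicator_of_notMem h]
      simp only [hS, mem_inter_iff, mem_setOf_eq] at h
      simp only [km]
      split_ifs <;> simp_all
  rw [e1]
  rcases S.eq_empty_or_nonempty with h | h
  · rw [h, setIntegral_empty, norm_zero, zero_mul]
    positivity
  obtain ⟨a, b, hab, hc, hI⟩ := ord_int hO h
    (fun r hr => (⟨(hm r hr).1.1.1, (hm r hr).1.1.2.1.le⟩ : r ∈ Icc R (2 * R)))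
  rw [hI]
  exact ker_core hν hR hμ hab (by ring) hΔ
    (fun r hr => (ker_clos hR (fun r h => (hm r h).1.1) (hc hr)).1)
    (fun r hr => (ker_clos hR (fun r h => (hm r h).1.1) (hc hr)).2)
    (fun r hr => (ker_clos hR (fun r h => (hm r h).1.2) (hc hr)).2)
    (fun r hr => (ker_clos hR (fun r h => (hm r h).2.1) (hc hr)).2)
    (fun r hr => (ker_clos hR (fun r h => (hm r h).2.2) (hc hr)).2)

end Vale.Agent.P122
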