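import Vale.Agent.P122.Op

/-!
OpB: the elementary bounds.  `bnd_two`: `lintegral_prod`, `P117.planch_inv` for each `r`,
`lintegral_lintegral_swap`, `‖g s‖ ≤ E.indicator 1 s`.  `bnd_inf`: `‖TT κ g z‖ₑ ≤ ofReal D`
(`TT_eq`, `enorm_integral_le_lintegral_enorm`), `x ^ p = x ^ (p - 2) * x ^ 2`.  `bnd_mid`:
`x ^ p = (x ^ 2) ^ ((4 - p) / 2) * (x ^ 4) ^ ((p - 2) / 2)` and
`ENNReal.lintegral_mul_norm_pow_le`.
-/

open MeasureTheory Set Real Filter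
open scoped FourierTransform ENNReal ComplexConjugate Topology

namespace Vale.Agent.P122

open Vale.Agent.P117 (Np pt rho)

variable {κ : ℝ → ℝ → ℂ} {p A B D : ℝ}

theorem opb_le {g : ℝ → ℂ} {E : Set ℝ} (hg : Dat g E) (s : ℝ) : ‖g s‖ₑ ≤ 1 := by
  rw [← ofReal_norm]
  exact ENNReal.ofReal_le_one.2 (hg.le s)

theorem bnd_two (hκ : Kr κ)
    (h : ∀ s ∈ Icc (0 : ℝ) 1, ∫⁻ r, ‖κ r s‖ₑ ^ (2 : ℝ) ≤ ENNReal.ofReal A) : Bnd 2 κ A := by
  intro g E hg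
  have hm0 : Measurable fun z : ℝ × ℝ => κ z.1 z.2 * g z.2 :=
    hκ.meas.mul (hg.meas.comp measurable_snd)
  have hm : Measurable (Function.uncurry fun r s : ℝ => ‖κ r s * g s‖ₑ ^ (2 : ℝ)) :=
    hm0.enorm.pow_const (2 : ℝ)
  have hm' : Measurable fun z : ℝ × ℝ => ‖TT κ g z‖ₑ ^ (2 : ℝ) :=
    (measurable_TT hκ.meas hg.meas).enorm.pow_const (2 : ℝ)
  have e1 : Np volume 2 (TT κ g) = ∫⁻ r, ∫⁻ t, ‖TT κ g (r, t)‖ₑ ^ (2 : ℝ) := by
    unfold Np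
    rw [Measure.volume_eq_prod, lintegral_prod _ hm'.aemeasurable]
  have e2 : ∀ r, ∫⁻ t, ‖TT κ g (r, t)‖ₑ ^ (2 : ℝ) ≤ ∫⁻ s, ‖κ r s * g s‖ₑ ^ (2 : ℝ) := by
    intro r
    have h1 := P117.planch_inv (hκ.int hg.int r)
    unfold Np at h1
    simpa only [TT] using h1
  have e3 : ∫⁻ r, ∫⁻ s, ‖κ r s * g s‖ₑ ^ (2 : ℝ) = ∫⁻ s, ∫⁻ r, ‖κ r s * g s‖ₑ ^ (2 : ℝ) :=
    lintegral_lintegral_swap hm.aemeasurable
  rw [e1, ← lintegral_indicator_const hg.mE]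
  refine ((lintegral_mono e2).trans_eq e3).trans (lintegral_mono fun s => ?_)
  by_cases hs : s ∈ E
  · rw [indicator_of_mem hs]
    refine (lintegral_mono fun r => ?_).trans (h s (hg.sub hs))
    refine ENNReal.rpow_le_rpow ?_ zero_le_two
    rw [enorm_mul]
    exact mul_le_of_le_one_right' (opb_le hg s)
  · simp [hg.van s hs]

theorem bnd_inf (hp : 2 ≤ p) (hD : 0 ≤ D) (h2 : Bnd 2 κ A)
    (h : ∀ r, ∫⁻ s in Icc (0 : ℝ) 1, ‖κ r s‖ₑ ≤ ENNReal.ofReal D) :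
    Bnd p κ (D ^ (p - 2) * A) := by
  intro g E hg
  have h1 : ∀ z, ‖TT κ g z‖ₑ ≤ ENNReal.ofReal D := by
    intro z
    rw [TT_eq]
    refine (enorm_integral_le_lintegral_enorm _).trans (le_trans ?_ (h z.1))
    rw [← lintegral_indicator measurableSet_Icc]
    refine lintegral_mono fun s => ?_
    by_cases hs : s ∈ E
    · rw [indicator_of_mem (hg.sub hs), enorm_mul, enorm_mul, ← ofReal_norm (ex _),
        norm_ex, ENNReal.ofReal_one, one_mul]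
      exact mul_le_of_le_one_right' (opb_le hg s)
    · simp [hg.van s hs]
  have hp2 : 0 ≤ p - 2 := sub_nonneg.2 hp
  rw [ENNReal.ofReal_mul (rpow_nonneg hD _), mul_assoc, ← ENNReal.ofReal_rpow_of_nonneg hD hp2]
  refine le_trans ?_ (mul_le_mul_right (h2 g E hg) _)
  unfold Np
  rw [← lintegral_const_mul' _ _ (ENNReal.rpow_ne_top_of_nonneg hp2 ENNReal.ofReal_ne_top)]
  refine lintegral_mono fun z => ?_
  have e : ‖TT κ g z‖ₑ ^ p = ‖TT κ g z‖ₑ ^ (p - 2) * ‖TT κ g z‖ₑ ^ (2 : ℝ) := by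
    rw [← ENNReal.rpow_add_of_nonneg _ _ hp2 zero_le_two, sub_add_cancel]
  rw [e]
  exact mul_le_mul_left (ENNReal.rpow_le_rpow (h1 z) hp2) _

theorem bnd_mid (hκ : Kr κ) (hp : 2 ≤ p) (hp' : p ≤ 4) (hA : 0 ≤ A) (hB : 0 ≤ B) (h2 : Bnd 2 κ A)
    (h4 : Bnd 4 κ B) : Bnd p κ (A ^ ((4 - p) / 2) * B ^ ((p - 2) / 2)) := by
  intro g E hg
  have ha : 0 ≤ (4 - p) / 2 := by linarith
  have hb : 0 ≤ (p - 2) / 2 := by linarith
  have hab : (4 - p) / 2 + (p - 2) / 2 = 1 := by ring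
  have hm := (measurable_TT hκ.meas hg.meas).enorm
  have h1 := ENNReal.lintegral_mul_norm_pow_le (μ := volume) (hm.pow_const (2 : ℝ)).aemeasurable
    (hm.pow_const (4 : ℝ)).aemeasurable ha hb hab
  calc Np volume p (TT κ g) = ∫⁻ z, (‖TT κ g z‖ₑ ^ (2 : ℝ)) ^ ((4 - p) / 2) *
        (‖TT κ g z‖ₑ ^ (4 : ℝ)) ^ ((p - 2) / 2) := by
        refine lintegral_congr fun z => ?_
        rw [← ENNReal.rpow_mul, ← ENNReal.rpow_mul,
          ← ENNReal.rpow_add_of_nonneg _ _ (by positivity) (by positivity)]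
        congr 1
        ring
    _ ≤ (ENNReal.ofReal A * volume E) ^ ((4 - p) / 2) *
        (ENNReal.ofReal B * volume E) ^ ((p - 2) / 2) :=
        h1.trans (mul_le_mul' (ENNReal.rpow_le_rpow (h2 g E hg) ha)
          (ENNReal.rpow_le_rpow (h4 g E hg) hb))
    _ = _ := by
        rw [ENNReal.mul_rpow_of_nonneg _ _ ha, ENNReal.mul_rpow_of_nonneg _ _ hb, mul_mul_mul_comm,
          ← ENNReal.rpow_add_of_nonneg _ _ ha hb, hab, ENNReal.rpow_one,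
          ENNReal.ofReal_rpow_of_nonneg hA ha, ENNReal.ofReal_rpow_of_nonneg hB hb,
          ENNReal.ofReal_mul (rpow_nonneg hA _)]

end Vale.Agent.P122
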