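import Vale.Agent.P122.Base

/-!
BesS: symmetries of the Bessel integral.  `bJ_half`: split at `0`, `θ ↦ -θ` turns the left half into
the conjugate of the right half (`intervalIntegral.integral_comp_neg`, `conj_ex`,
`intervalIntegral` and `integral_conj`).  `bJ_neg`: `θ ↦ π - θ` and `2 π` periodicity of the
integrand (`Function.Periodic.intervalIntegral_add_eq`), `c = ex (k * π)`.  `circ`:
`φ = θ - α + π / 2`, `sin φ = cos (θ - α)`, `c = ex (k * (α - π / 2))`.
-/

open MeasureTheory Set Real Filter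
open scoped FourierTransform ENNReal ComplexConjugate Topology

namespace Vale.Agent.P122

open Vale.Agent.P117 (Np pt rho)

theorem bess_shift (k : ℤ) (y a : ℝ) :
    ∫ θ in a..a + 2 * π, ex (y * sin θ - k * θ) = bJ k y := by
  have hp : Function.Periodic (fun θ : ℝ => ex (y * sin θ - k * θ)) (2 * π) := fun θ => by
    have h1 : ex ((-k : ℤ) * (2 * π)) = 1 := by
      rw [ex, ← Complex.exp_int_mul_two_pi_mul_I (-k)]
      congr 1
      push_cast
      ring
    simp only
    rw [sin_add_two_pi, ← mul_one (ex (y * sin θ - k * θ)), ← h1, ← ex_add]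
    congr 1
    push_cast
    ring
  rw [hp.intervalIntegral_add_eq a (-π), show -π + 2 * π = π by ring, bJ]

theorem bJ_half (k : ℤ) (y : ℝ) :
    ‖bJ k y‖ ≤ 2 * ‖∫ θ in (0 : ℝ)..π, ex (y * sin θ - k * θ)‖ := by
  have hc : Continuous fun θ : ℝ => ex (y * sin θ - k * θ) := continuous_ex.comp (by fun_prop)
  have h1 : ∫ θ in (-π)..0, ex (y * sin θ - k * θ) =
      conj (∫ θ in (0 : ℝ)..π, ex (y * sin θ - k * θ)) := by
    have h := intervalIntegral.integral_comp_neg (a := 0) (b := π)
      (fun θ : ℝ => ex (y * sin θ - k * θ))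
    rw [neg_zero] at h
    rw [← h, intervalIntegral.integral_of_le pi_pos.le, intervalIntegral.integral_of_le pi_pos.le,
      ← integral_conj]
    refine integral_congr_ae (Eventually.of_forall fun θ => ?_)
    simp only
    rw [conj_ex, sin_neg]
    congr 1
    ring
  rw [bJ, ← intervalIntegral.integral_add_adjacent_intervals (hc.intervalIntegrable (-π) 0)
    (hc.intervalIntegrable 0 π), h1, two_mul]
  refine (norm_add_le _ _).trans_eq ?_
  rw [RCLike.norm_conj]

theorem bJ_neg (k : ℤ) : ∃ c : ℂ, ‖c‖ = 1 ∧ ∀ y, bJ (-k) y = c * bJ k y := by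
  refine ⟨ex (k * π), norm_ex _, fun y => ?_⟩
  have h := intervalIntegral.integral_comp_sub_left (a := -π) (b := π)
    (fun θ : ℝ => ex (y * sin θ - k * θ)) π
  rw [show π - -π = π - π + 2 * π by ring, bess_shift] at h
  rw [← h, bJ, ← intervalIntegral.integral_const_mul]
  refine intervalIntegral.integral_congr fun θ _ => ?_
  rw [← ex_add, sin_pi_sub]
  congr 1
  push_cast
  ring

theorem circ (k : ℤ) (α : ℝ) : ∃ c : ℂ, ‖c‖ = 1 ∧ ∀ y : ℝ,
    ∫ θ in (-π)..π, ex (k * θ) * ex (y * cos (θ - α)) = c * bJ (-k) y := by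
  refine ⟨ex (k * (α - π / 2)), norm_ex _, fun y => ?_⟩
  have h := intervalIntegral.integral_comp_add_right (a := -π) (b := π)
    (fun θ : ℝ => ex (y * sin θ - (-k : ℤ) * θ)) (π / 2 - α)
  rw [show π + (π / 2 - α) = -π + (π / 2 - α) + 2 * π by ring, bess_shift] at h
  rw [← h, ← intervalIntegral.integral_const_mul]
  refine intervalIntegral.integral_congr fun θ _ => ?_
  rw [← ex_add, ← ex_add, show θ + (π / 2 - α) = θ - α + π / 2 by ring, sin_add_pi_div_two]
  congr 1
  push_cast
  ring

end Vale.Agent.P122
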