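import Vale.Agent.P122.Wkb

/-!
Err: the remainder is small.  Off `Reg`: `norm_bJ_le`, `bJ_tr`.  On `Reg` let `w = ww k y = v ^ 2`,
`v = √w ≥ 1`, `8 y ^ 2 ≤ v ^ 6` so `y ≤ v ^ 3`, and `e = y ^ 2 / v ^ 7`: `e ≤ 1`, `e ^ 3 * y ≤ 1`,
and `(y - k) * y ≤ w ^ 2` gives `e * (y - k) ≤ y / v ^ 3 ≤ 1`.  Take the maximum of the constants.
-/

open MeasureTheory Set Real Filter
open scoped FourierTransform ENNReal ComplexConjugate Topology

namespace Vale.Agent.P122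

open Vale.Agent.P117 (Np pt rho)

theorem err_e {ν y : ℝ} (hν : 0 ≤ ν) (h : Reg ν y) :
    y ^ 2 / ww ν y ^ 3 * (√(ww ν y))⁻¹ ≤ 1 ∧ (y ^ 2 / ww ν y ^ 3 * (√(ww ν y))⁻¹) ^ 3 * y ≤ 1 ∧
      y ^ 2 / ww ν y ^ 3 * (√(ww ν y))⁻¹ * |y - ν| ≤ 1 := by
  have h0 : 0 < y := hν.trans_lt h.1
  have h8 := h.eight hν
  have hs := ww_sq hν h.1
  have h2 := h.2
  have hv : 1 ≤ √(ww ν y) := Real.one_le_sqrt.2 (by linarith)
  have hw : ww ν y = √(ww ν y) ^ 2 := (Real.sq_sqrt (by linarith)).symm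
  generalize √(ww ν y) = v at hv hw
  rw [hw] at hs h2 ⊢
  have hv0 : 0 < v := by linarith
  have h3 : y ^ 2 ≤ (v ^ 3) ^ 2 := by nlinarith [sq_nonneg y]
  have h4 : y ≤ v ^ 3 := (pow_le_pow_iff_left₀ h0.le (by positivity) two_ne_zero).1 h3
  have e : y ^ 2 / (v ^ 2) ^ 3 * v⁻¹ = y ^ 2 / v ^ 7 := by field_simp
  rw [e, abs_of_pos (sub_pos.2 h.1)]
  refine ⟨?_, ?_, ?_⟩
  · rw [div_le_one (by positivity)]
    calc y ^ 2 ≤ v ^ 6 := h3.trans_eq (by ring)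
      _ ≤ v ^ 7 := pow_le_pow_right₀ hv (by norm_num)
  · rw [div_pow, div_mul_eq_mul_div, div_le_one (by positivity)]
    calc (y ^ 2) ^ 3 * y = y ^ 7 := by ring
      _ ≤ (v ^ 3) ^ 7 := pow_le_pow_left₀ h0.le h4 7
      _ = _ := by ring
  · rw [div_mul_eq_mul_div, div_le_one (by positivity)]
    have h5 : y * (y - ν) ≤ v ^ 4 := by nlinarith [mul_nonneg hν (sub_pos.2 h.1).le]
    calc y ^ 2 * (y - ν) = y * (y * (y - ν)) := by ring
      _ ≤ v ^ 3 * v ^ 4 :=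
        mul_le_mul h4 h5 (mul_pos h0 (sub_pos.2 h.1)).le (by positivity)
      _ = _ := by ring

theorem small : ∃ C : ℝ, 0 < C ∧ ∀ (k : ℕ) (Y : ℝ), ∃ α β : ℂ, ‖α‖ ≤ C ∧ ‖β‖ ≤ C ∧
    Sml C k Y (er k α β) := by
  classical
  obtain ⟨C₁, h₁⟩ := wkb
  obtain ⟨C₂, h₂⟩ := bJ_tr
  have hC : ∃ C : ℝ, 7 ≤ C ∧ C₁ ≤ C ∧ |C₂| ≤ C :=
    ⟨max 7 (max C₁ |C₂|), le_max_left _ _, le_max_of_le_right (le_max_left _ _),
      le_max_of_le_right (le_max_right _ _)⟩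
  obtain ⟨C, h7, hC₁, hC₂⟩ := hC
  have hC0 : 0 < C := by linarith
  refine ⟨C, hC0, fun k Y => ?_⟩
  obtain ⟨α, β, ha, hb, h⟩ := h₁ k Y
  have hk : (0 : ℝ) ≤ k := Nat.cast_nonneg k
  have hon : ∀ y ≤ Y, Reg k y →
      ‖er k α β y‖ ≤ C * (y ^ 2 / ww k y ^ 3 * (√(ww k y))⁻¹) := fun y hy hr => by
    have := ww_pos hk hr.1
    rw [er, if_pos hr]
    exact (h y hy hr).trans (mul_le_mul_of_nonneg_right hC₁ (by positivity))
  have hoff : ∀ y, ¬ Reg k y → er k α β y = bJ k y := fun y hr => by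
    rw [er, if_neg hr, sub_zero]
  refine ⟨α, β, ha.trans hC₁, hb.trans hC₁, ?_, fun y h0 hy => ?_, fun y h0 hy => ?_,
    fun y h0 hy => ?_⟩
  · exact (continuous_bJ k).measurable.sub (Measurable.ite (measurableSet_reg k)
      (((measurable_mm k).const_mul α).add
        ((Complex.continuous_conj.measurable.comp (measurable_mm k)).const_mul β))
      measurable_const)
  · by_cases hr : Reg k y
    · exact (hon y hy hr).trans (mul_le_of_le_one_right hC0.le (err_e hk hr).1)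
    · rw [hoff y hr]
      exact (norm_bJ_le k y).trans h7
  · by_cases hr : Reg k y
    · refine (mul_le_mul_of_nonneg_right
        (pow_le_pow_left₀ (norm_nonneg _) (hon y hy hr) 3) h0).trans ?_
      rw [mul_pow, mul_assoc]
      exact mul_le_of_le_one_right (by positivity) (err_e hk hr).2.1
    · rw [hoff y hr]
      refine (h₂ k y h0 hr).1.trans ((le_abs_self _).trans ?_)
      rw [abs_pow]
      exact pow_le_pow_left₀ (abs_nonneg _) hC₂ 3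
  · by_cases hr : Reg k y
    · refine (mul_le_mul_of_nonneg_right (hon y hy hr) (abs_nonneg _)).trans ?_
      rw [mul_assoc]
      exact mul_le_of_le_one_right hC0.le (err_e hk hr).2.2
    · rw [hoff y hr]
      exact (h₂ k y h0 hr).2.trans ((le_abs_self _).trans hC₂)

end Vale.Agent.P122
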