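import Vale.Agent.P122.OpB

/-!
PcE: pieces of the remainder.  `piece_err`: `L ^ 3 = R σ`; on the support `y = r √s ∈ [R σ, 2 R]`, so
`‖N y‖ ≤ C / L` and `‖N y‖ ^ 2 ≤ 2 C ^ 2 / (L ^ 2 + (y - ν) ^ 2)`.  `bnd_two` with
`A = 2 π C ^ 2 / (L σ)`: `∫ r, (L ^ 2 + (r c - ν) ^ 2)⁻¹ = π / (L c)` with `c = √s ≥ σ`
(`integral_univ_inv_one_add_sq`, `integral_comp_mul_left`, `integral_sub_right_eq_self`).
`bnd_inf` with `D = 19 C L σ / R`: for fixed `r` the set of `s ∈ (σ ^ 2, 4 σ ^ 2]` with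
`|r √s - ν| ≤ L ^ 2` has diameter at most `8 L ^ 2 σ / R` (`s - s' = (√s - √s') (√s + √s')`,
`Real.volume_le_diam` or an interval about one of its points); off it `‖N‖ ≤ C / L ^ 2` on a set of
measure `3 σ ^ 2`.  Then `D * A = 38 π C ^ 3 / R`, `D ≤ 19 C R ^ (-1 / 2)` (`L ^ 2 ≤ R`),
`D ^ (p - 2) = D ^ (p - 3) * D`.
-/

open MeasureTheory Set Real Filter
open scoped FourierTransform ENNReal ComplexConjugate Topology

namespace Vale.Agent.P122

open Vale.Agent.P117 (Np pt rho)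

theorem kr_kn {C ν Y A B a b : ℝ} {N : ℝ → ℂ} (hN : Sml C ν Y N) (hA : 0 ≤ A) (hB : B ≤ Y)
    (hb : b ≤ 1) : Kr (kn N A B a b) := by

  refine ⟨?_, |C|, fun r s => ?_⟩
  · refine Measurable.ite ?_ (hN.meas.comp (measurable_fst.mul measurable_snd.sqrt))
      measurable_const
    exact (measurableSet_le measurable_const measurable_fst).inter
      ((measurableSet_lt measurable_fst measurable_const).inter
        ((measurableSet_lt measurable_const measurable_snd).inter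
          (measurableSet_le measurable_snd measurable_const)))
  · unfold kn
    split_ifs with h
    · have h0 : 0 ≤ r := hA.trans h.1
      have h1 : √s ≤ 1 := Real.sqrt_le_one.2 (h.2.2.2.trans hb)
      refine (hN.b0 _ (by positivity) ?_).trans (le_abs_self C)
      have := mul_le_mul_of_nonneg_left h1 h0
      linarith [h.2.1]
    · simp

theorem pce_int {L c K : ℝ} (hL : 0 < L) (hc : 0 < c) (hK : 0 ≤ K) (ν : ℝ) :
    ∫⁻ r : ℝ, ENNReal.ofReal (K * (L ^ 2 + (r * c - ν) ^ 2)⁻¹) =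
      ENNReal.ofReal (K * (π / (L * c))) := by
  have e : ∀ r : ℝ, (L ^ 2 + (r * c - ν) ^ 2)⁻¹ =
      (L ^ 2)⁻¹ * (1 + (c / L * r - ν / L) ^ 2)⁻¹ := fun r => by
    rw [← mul_inv]; congr 1; field_simp
  have hi : Integrable fun r : ℝ => (1 + (c / L * r - ν / L) ^ 2)⁻¹ :=
    (integrable_inv_one_add_sq.comp_sub_right (ν / L)).comp_mul_left' (by positivity)
  have hv : ∫ r : ℝ, (1 + (c / L * r - ν / L) ^ 2)⁻¹ = L / c * π := by
    have h := Measure.integral_comp_mul_left (fun x : ℝ => (1 + (x - ν / L) ^ 2)⁻¹) (c / L)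
    rw [h, integral_sub_right_eq_self (fun x : ℝ => (1 + x ^ 2)⁻¹), integral_univ_inv_one_add_sq,
      inv_div, abs_of_pos (by positivity), smul_eq_mul]
  simp_rw [e]
  rw [← ofReal_integral_eq_lintegral_ofReal ((hi.const_mul _).const_mul _)
    (ae_of_all _ fun r => by positivity), integral_const_mul, integral_const_mul, hv]
  congr 2
  field_simp

theorem pce_sqrt {σ s : ℝ} (hσ : 0 < σ) (h1 : σ ^ 2 < s) (h2 : s ≤ 4 * σ ^ 2) :
    σ ≤ √s ∧ √s ≤ 2 * σ :=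
  ⟨Real.le_sqrt_of_sq_le h1.le, Real.sqrt_le_iff.2 ⟨by positivity, by linarith⟩⟩

theorem pce_pt {C ν R σ L r s : ℝ} {N : ℝ → ℂ} (hC : 0 < C) (hR : 0 < R) (hσ : 0 < σ)
    (h2 : 2 * σ ≤ 1) (hL3 : L ^ 3 = R * σ) (hN : Sml C ν (2 * R) N)
    (h : R ≤ r ∧ r < 2 * R ∧ σ ^ 2 < s ∧ s ≤ 4 * σ ^ 2) :
    ‖N (r * √s)‖ * L ≤ C ∧ ‖N (r * √s)‖ * |r * √s - ν| ≤ C := by
  obtain ⟨h3, h4⟩ := pce_sqrt hσ h.2.2.1 h.2.2.2
  have hr : 0 ≤ r := hR.le.trans h.1
  have y0 : 0 ≤ r * √s := by positivity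
  have y1 : r * √s ≤ 2 * R := by
    have := mul_le_mul_of_nonneg_left (h4.trans h2) hr
    linarith [h.2.1]
  have y2 : R * σ ≤ r * √s := mul_le_mul h.1 h3 hσ.le hr
  refine ⟨le_of_pow_le_pow_left₀ (n := 3) (by norm_num) hC.le ?_, hN.b2 _ y0 y1⟩
  rw [mul_pow, hL3]
  exact (mul_le_mul_of_nonneg_left y2 (by positivity)).trans (hN.b1 _ y0 y1)

theorem pce_two {C ν R σ L : ℝ} {N : ℝ → ℂ} (hC : 0 < C) (hR : 0 < R) (hσ : 0 < σ)
    (h2 : 2 * σ ≤ 1) (hL : 0 < L) (hL3 : L ^ 3 = R * σ) (hN : Sml C ν (2 * R) N) (s : ℝ) :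
    ∫⁻ r, ‖kn N R (2 * R) (σ ^ 2) (4 * σ ^ 2) r s‖ₑ ^ (2 : ℝ) ≤
      ENNReal.ofReal (2 * C ^ 2 * (π / (L * σ))) := by
  by_cases hs : σ ^ 2 < s ∧ s ≤ 4 * σ ^ 2
  · obtain ⟨h3, -⟩ := pce_sqrt hσ hs.1 hs.2
    have hq : 0 < √s := hσ.trans_le h3
    refine (lintegral_mono fun r => ?_).trans
      ((pce_int (K := 2 * C ^ 2) hL hq (by positivity) ν).le.trans
        (ENNReal.ofReal_le_ofReal (by gcongr)))
    unfold kn
    split_ifs with h
    · obtain ⟨h5, h6⟩ := pce_pt hC hR hσ h2 hL3 hN h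
      rw [← ofReal_norm, ENNReal.ofReal_rpow_of_nonneg (norm_nonneg _) (by norm_num),
        Real.rpow_two]
      refine ENNReal.ofReal_le_ofReal ?_
      rw [← div_eq_mul_inv, le_div_iff₀ (by positivity)]
      have h7 := pow_le_pow_left₀ (by positivity) h5 2
      have h8 := pow_le_pow_left₀ (by positivity) h6 2
      rw [mul_pow] at h7 h8
      rw [sq_abs] at h8
      linarith
    · simp
  · have e : ∀ r, kn N R (2 * R) (σ ^ 2) (4 * σ ^ 2) r s = 0 := fun r => by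
      unfold kn
      rw [if_neg fun h => hs h.2.2]
    simp [e]

theorem pce_vol {ν R σ L r : ℝ} (hR : 0 < R) (hσ : 0 < σ) (hr : R ≤ r) :
    volume {s : ℝ | (σ ^ 2 < s ∧ s ≤ 4 * σ ^ 2) ∧ |r * √s - ν| ≤ L ^ 2} ≤
      ENNReal.ofReal (8 * L ^ 2 * σ / R) := by
  refine (Real.volume_le_diam _).trans (Metric.ediam_le_of_forall_dist_le ?_)
  rintro s ⟨h1, h2⟩ s' ⟨h3, h4⟩
  obtain ⟨a1, a2⟩ := pce_sqrt hσ h1.1 h1.2
  obtain ⟨b1, b2⟩ := pce_sqrt hσ h3.1 h3.2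
  have s0 : 0 ≤ s := le_trans (by positivity) h1.1.le
  have s1 : 0 ≤ s' := le_trans (by positivity) h3.1.le
  have e : s - s' = (√s - √s') * (√s + √s') := by
    have := Real.mul_self_sqrt s0
    have := Real.mul_self_sqrt s1
    linarith
  have h5 : r * |√s - √s'| ≤ 2 * L ^ 2 := by
    have : r * |√s - √s'| = |(r * √s - ν) - (r * √s' - ν)| := by
      rw [← abs_of_pos (hR.trans_le hr), ← abs_mul, abs_of_pos (hR.trans_le hr)]
      congr 1; ring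
    rw [this]
    linarith [abs_sub (r * √s - ν) (r * √s' - ν)]
  have h6 : R * |√s - √s'| ≤ 2 * L ^ 2 :=
    (mul_le_mul_of_nonneg_right hr (abs_nonneg _)).trans h5
  rw [Real.dist_eq, e, abs_mul, abs_of_nonneg (by positivity : 0 ≤ √s + √s'), le_div_iff₀ hR]
  have h7 : √s + √s' ≤ 4 * σ := by linarith
  have := mul_le_mul h6 h7 (by positivity) (by positivity)
  linarith

theorem pce_inf {C ν R σ L : ℝ} {N : ℝ → ℂ} (hC : 0 < C) (hR : 0 < R) (hσ : 0 < σ)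
    (h2 : 2 * σ ≤ 1) (hL : 0 < L) (hL3 : L ^ 3 = R * σ) (hN : Sml C ν (2 * R) N) (r : ℝ) :
    ∫⁻ s, ‖kn N R (2 * R) (σ ^ 2) (4 * σ ^ 2) r s‖ₑ ≤
      ENNReal.ofReal (11 * C * (L * σ / R)) := by
  by_cases hr : R ≤ r
  swap
  · have e : ∀ s, kn N R (2 * R) (σ ^ 2) (4 * σ ^ 2) r s = 0 := fun s => by
      unfold kn
      rw [if_neg fun h => hr h.1]
    simp [e]
  set S := {s : ℝ | (σ ^ 2 < s ∧ s ≤ 4 * σ ^ 2) ∧ |r * √s - ν| ≤ L ^ 2} with hS
  have key : ∀ s, ‖kn N R (2 * R) (σ ^ 2) (4 * σ ^ 2) r s‖ₑ ≤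
      S.indicator (fun _ => ENNReal.ofReal (C / L)) s +
        (Ioc (σ ^ 2) (4 * σ ^ 2)).indicator (fun _ => ENNReal.ofReal (C / L ^ 2)) s := fun s => by
    unfold kn
    split_ifs with h
    · obtain ⟨h5, h6⟩ := pce_pt hC hR hσ h2 hL3 hN h
      rw [← ofReal_norm]
      by_cases hm : |r * √s - ν| ≤ L ^ 2
      · rw [indicator_of_mem (show s ∈ S from ⟨h.2.2, hm⟩)]
        exact le_add_right (ENNReal.ofReal_le_ofReal ((le_div_iff₀ hL).2 h5))
      · rw [indicator_of_mem (show s ∈ Ioc (σ ^ 2) (4 * σ ^ 2) from h.2.2)]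
        refine le_add_left (ENNReal.ofReal_le_ofReal ((le_div_iff₀ (by positivity)).2 ?_))
        exact (mul_le_mul_of_nonneg_left (not_le.1 hm).le (norm_nonneg _)).trans h6
    · simp
  refine (lintegral_mono key).trans ?_
  rw [lintegral_add_right _ (measurable_const.indicator measurableSet_Ioc),
    lintegral_indicator_const measurableSet_Ioc, Real.volume_Ioc]
  refine (add_le_add ((lintegral_indicator_const_le _ _).trans
    (mul_le_mul_right (pce_vol hR hσ hr) _)) le_rfl).trans ?_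
  rw [← ENNReal.ofReal_mul (by positivity), ← ENNReal.ofReal_mul (by positivity),
    ← ENNReal.ofReal_add (by positivity) (by
      have : 0 ≤ 4 * σ ^ 2 - σ ^ 2 := by nlinarith
      positivity)]
  refine ENNReal.ofReal_le_ofReal (le_of_eq ?_)
  have e : R = L ^ 3 / σ := by rw [hL3]; field_simp
  rw [e]
  field_simp
  norm_num

theorem piece_err {p C : ℝ} (h3 : 3 < p) (hC : 0 < C) : ∃ C' : ℝ, 0 ≤ C' ∧
    ∀ (ν R σ : ℝ) (N : ℝ → ℂ), 1 ≤ R → 0 < σ → 2 * σ ≤ 1 → Sml C ν (2 * R) N →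
      Bnd p (kn N R (2 * R) (σ ^ 2) (4 * σ ^ 2)) (C' * R ^ (-((p - 1) / 2))) := by

  refine ⟨(11 * C) ^ (p - 3) * (22 * π * C ^ 3), by positivity, fun ν R σ N hR hσ h2 hN => ?_⟩
  have hR0 : 0 < R := one_pos.trans_le hR
  obtain ⟨L, hL, hL3⟩ : ∃ L : ℝ, 0 < L ∧ L ^ 3 = R * σ :=
    ⟨(R * σ) ^ ((3 : ℕ) : ℝ)⁻¹, by positivity,
      Real.rpow_inv_natCast_pow (by positivity) (by norm_num)⟩
  have hκ : Kr (kn N R (2 * R) (σ ^ 2) (4 * σ ^ 2)) := kr_kn hN hR0.le le_rfl (by nlinarith)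
  have hb2 := bnd_two hκ fun s _ => pce_two hC hR0 hσ h2 hL hL3 hN s
  have hD : 0 ≤ 11 * C * (L * σ / R) := by positivity
  refine (bnd_inf (by linarith) hD hb2 fun r =>
    (setLIntegral_le_lintegral _ _).trans (pce_inf hC hR0 hσ h2 hL hL3 hN r)).mono ?_
  have hL2 : L ^ 2 ≤ R := by
    rcases le_total L 1 with h | h
    · nlinarith
    · have : L ^ 2 * 1 ≤ L ^ 2 * L := by gcongr
      nlinarith
  have h1 : L * σ / R ≤ R ^ (-(1 / 2 : ℝ)) := by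
    have hs : L ≤ √R := Real.le_sqrt_of_sq_le hL2
    have hq : 0 < √R := Real.sqrt_pos.2 hR0
    rw [Real.rpow_neg hR0.le, ← Real.sqrt_eq_rpow, div_le_iff₀ hR0,
      inv_mul_eq_div, Real.div_sqrt]
    nlinarith
  have hDp : 0 < 11 * C * (L * σ / R) := by positivity
  have e1 : (11 * C * (L * σ / R)) ^ (p - 2) =
      (11 * C * (L * σ / R)) ^ (p - 3) * (11 * C * (L * σ / R)) := by
    rw [← Real.rpow_add_one hDp.ne']; congr 1; ring
  have h4 : (11 * C * (L * σ / R)) ^ (p - 3) ≤ (11 * C) ^ (p - 3) * R ^ (-((p - 3) / 2)) := by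
    refine (Real.rpow_le_rpow hD (mul_le_mul_of_nonneg_left h1 (by positivity))
      (by linarith)).trans (le_of_eq ?_)
    rw [Real.mul_rpow (by positivity) (by positivity), ← Real.rpow_mul hR0.le]
    congr 2; ring
  have e2 : R ^ (-((p - 1) / 2)) = R ^ (-((p - 3) / 2)) * R⁻¹ := by
    rw [← Real.rpow_neg_one, ← Real.rpow_add hR0]; congr 1; ring
  have e3 : 11 * C * (L * σ / R) * (2 * C ^ 2 * (π / (L * σ))) = 22 * π * C ^ 3 * R⁻¹ := by
    field_simp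
    norm_num
  rw [e1, e2, mul_assoc, e3]
  calc _ ≤ (11 * C) ^ (p - 3) * R ^ (-((p - 3) / 2)) * (22 * π * C ^ 3 * R⁻¹) := by gcongr
    _ = _ := by ring

end Vale.Agent.P122
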