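import Vale.Agent.P122.Op

/-!
Quad: the fourth power as a quadrilinear form.  For fixed `r` let `h = fun s => κ r s * g s`
(`Kr.int`); `(𝓕⁻ h t) ^ 2 = 𝓕⁻ (cv h h) t` (`P117.fourier_cv`, `Real.fourierInv_eq_fourier_neg`),
`P117.planch_inv` (`cv h h` is integrable: `P117.cv_nice`), so `Np 4` is at most
`∫⁻ r, ∫⁻ τ, ‖c r τ‖ₑ ^ 2` with `c r τ = ∫ s, h (τ - s) * h s`.  Swap.  For fixed `τ`:
`∫ r, c * conj c = ∫ s, ∫ s', KK κ τ s s' * (g s * g (τ - s) * conj (g s' * g (τ - s')))` by Fubini
(everything is bounded, measurable and supported in `[A, B] × [0, 1] × [0, 1]`; `integral_mul_integral`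
as `integral_prod_mul`, `integral_integral_swap`), then `enorm_integral_le_lintegral_enorm`.
-/

open MeasureTheory Set Real Filter
open scoped FourierTransform ENNReal ComplexConjugate Topology

namespace Vale.Agent.P122

open Vale.Agent.P117 (Np pt rho)

theorem quad_sq {c : ℝ → ℂ} (h : Integrable fun r => c r * conj (c r)) :
    ∫⁻ r, ‖c r‖ₑ ^ 2 = ‖∫ r, c r * conj (c r)‖ₑ := by
  have h1 : ∀ r, c r * conj (c r) = ((‖c r‖ ^ 2 : ℝ) : ℂ) := fun r => by
    rw [Complex.mul_conj, Complex.normSq_eq_norm_sq]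
  have h2 : Integrable fun r => ‖c r‖ ^ 2 := by
    simpa only [norm_mul, Complex.norm_conj, sq] using h.norm
  simp only [h1]
  rw [integral_complex_ofReal, ← ofReal_norm, Complex.norm_real,
    Real.norm_of_nonneg (integral_nonneg fun r => sq_nonneg _),
    ofReal_integral_eq_lintegral_ofReal h2 (Eventually.of_forall fun r => sq_nonneg _)]
  refine lintegral_congr fun r => ?_
  rw [ENNReal.ofReal_pow (norm_nonneg _), ofReal_norm]

theorem quad_line {h : ℝ → ℂ} (hh : Integrable h) :
    ∫⁻ t, ‖𝓕⁻ h t‖ₑ ^ 4 ≤ ∫⁻ τ, ‖∫ s, h s * h (τ - s)‖ₑ ^ 2 := by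
  have h1 : Integrable (P117.cv h h) := by
    rw [P117.four_cv]
    exact hh.integrable_convolution _ hh
  have h2 := P117.planch_inv h1
  rw [P117.Np_two, P117.Np_two] at h2
  simp only [P117.cv_comm] at h2
  refine le_trans (le_of_eq (lintegral_congr fun t => ?_)) h2
  rw [Real.fourierInv_eq_fourier_neg, Real.fourierInv_eq_fourier_neg, P117.fourier_cv hh hh,
    enorm_mul]
  ring

theorem quad_ind {g : ℝ → ℂ} {E : Set ℝ} (hg : Dat g E) (s : ℝ) : ‖g s‖ₑ ≤ E.indicator 1 s := by
  by_cases h : s ∈ E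
  · rw [indicator_of_mem h, ← ofReal_norm]
    exact ENNReal.ofReal_le_one.2 (hg.le s)
  · rw [hg.van s h, enorm_zero]
    exact zero_le

theorem quad_tau {κ : ℝ → ℝ → ℂ} {g : ℝ → ℂ} {E : Set ℝ} {A B : ℝ} (hκ : Kr κ)
    (hs : ∀ r s, r ∉ Icc A B → κ r s = 0) (hg : Dat g E) (τ : ℝ) :
    ∫⁻ r, ‖∫ s, κ r s * g s * (κ r (τ - s) * g (τ - s))‖ₑ ^ 2 ≤ ∫⁻ s, ∫⁻ s', ‖KK κ τ s s'‖ₑ *
      (E.indicator 1 s * E.indicator 1 (τ - s) * E.indicator 1 s' * E.indicator 1 (τ - s')) := by
  obtain ⟨M, hM⟩ := hκ.bdd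
  have hM0 : 0 ≤ M := (norm_nonneg _).trans (hM 0 0)
  set U : ℝ → ℝ → ℂ := fun r s => κ r s * g s * (κ r (τ - s) * g (τ - s)) with hU
  have m1 : Measurable (Function.uncurry U) :=
    (hκ.meas.mul (hg.meas.comp measurable_snd)).mul
      ((hκ.meas.comp (measurable_fst.prodMk (measurable_const.sub measurable_snd))).mul
        (hg.meas.comp (measurable_const.sub measurable_snd)))
  have b1 : ∀ r s, ‖U r s‖ ≤ M * M * ‖g s‖ := fun r s => by
    simp only [hU, norm_mul]
    have h1 := mul_le_mul_of_nonneg_right (hM r s) (norm_nonneg (g s))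
    have h2 := mul_le_mul (hM r (τ - s)) (hg.le (τ - s)) (norm_nonneg _) hM0
    refine (mul_le_mul h1 h2 (by positivity) (by positivity)).trans_eq (by ring)
  have i1 : Integrable ((Icc A B).indicator fun _ : ℝ => (1 : ℝ)) :=
    (integrableOn_const measure_Icc_lt_top.ne).integrable_indicator measurableSet_Icc
  have i2 := i1.mul_prod ((hg.int.norm.const_mul (M * M)).mul_prod (hg.int.norm.const_mul (M * M)))
  have i3 : Integrable (Function.uncurry fun (r : ℝ) (p : ℝ × ℝ) => U r p.1 * conj (U r p.2))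
      (volume.prod (volume.prod volume)) := by
    refine i2.mono' (Measurable.aestronglyMeasurable ?_) (Eventually.of_forall fun q => ?_)
    · exact (m1.comp (measurable_fst.prodMk measurable_snd.fst)).mul
        (Complex.continuous_conj.measurable.comp
          (m1.comp (measurable_fst.prodMk measurable_snd.snd)))
    · by_cases hq : q.1 ∈ Icc A B
      · rw [indicator_of_mem hq, one_mul]
        refine (norm_mul_le _ _).trans ?_
        rw [Complex.norm_conj]
        exact mul_le_mul (b1 _ _) (b1 _ _) (norm_nonneg _) (by positivity)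
      · rw [indicator_of_notMem hq, zero_mul]
        simp [Function.uncurry, hU, hs _ _ hq]
  have e1 : ∀ r, ∫ p : ℝ × ℝ, U r p.1 * conj (U r p.2) ∂(volume.prod volume) =
      (∫ s, U r s) * conj (∫ s, U r s) := fun r => by
    rw [integral_prod_mul (U r) fun s => conj (U r s), integral_conj]
  have i4 := i3.integral_prod_left
  simp only [Function.uncurry, e1] at i4
  have e2 := integral_integral_swap i3
  simp only [e1] at e2
  rw [quad_sq i4, e2]
  refine (enorm_integral_le_lintegral_enorm _).trans ((lintegral_prod_le _).trans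
    (lintegral_mono fun s => lintegral_mono fun s' => ?_))
  have e3 : ∫ r, U r s * conj (U r s') =
      KK κ τ s s' * (g s * g (τ - s) * conj (g s') * conj (g (τ - s'))) := by
    rw [KK, ← integral_mul_const]
    refine integral_congr_ae (Eventually.of_forall fun r => ?_)
    simp only [hU, map_mul]
    ring
  have e4 : ∀ z : ℂ, ‖conj z‖ₑ = ‖z‖ₑ := fun z => by
    rw [← ofReal_norm, Complex.norm_conj, ofReal_norm]
  simp only
  rw [e3, enorm_mul, enorm_mul, enorm_mul, enorm_mul, e4, e4]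
  exact mul_le_mul_right (mul_le_mul' (mul_le_mul' (mul_le_mul' (quad_ind hg _) (quad_ind hg _))
    (quad_ind hg _)) (quad_ind hg _)) _

theorem tt_four {κ : ℝ → ℝ → ℂ} {g : ℝ → ℂ} {E : Set ℝ} {A B : ℝ} (hκ : Kr κ)
    (hs : ∀ r s, r ∉ Icc A B → κ r s = 0) (hg : Dat g E) :
    Np volume 4 (TT κ g) ≤ ∫⁻ τ, ∫⁻ s, ∫⁻ s', ‖KK κ τ s s'‖ₑ *
      (E.indicator 1 s * E.indicator 1 (τ - s) * E.indicator 1 s' * E.indicator 1 (τ - s')) := by
  have m1 : Measurable (Function.uncurry fun (q : ℝ × ℝ) (s : ℝ) =>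
      κ q.1 s * g s * (κ q.1 (q.2 - s) * g (q.2 - s))) :=
    ((hκ.meas.comp (measurable_fst.fst.prodMk measurable_snd)).mul
      (hg.meas.comp measurable_snd)).mul
      ((hκ.meas.comp (measurable_fst.fst.prodMk (measurable_fst.snd.sub measurable_snd))).mul
        (hg.meas.comp (measurable_fst.snd.sub measurable_snd)))
  have m2 := (m1.stronglyMeasurable.integral_prod_right (ν := volume)).measurable.enorm.pow_const 2
  rw [P117.Np_four, Measure.volume_eq_prod]
  refine (lintegral_prod_le _).trans ((lintegral_mono fun r => quad_line (hκ.int hg.int r)).trans ?_)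
  rw [lintegral_lintegral_swap m2.aemeasurable]
  exact lintegral_mono fun τ => quad_tau hκ hs hg τ

end Vale.Agent.P122
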