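import Vale.Agent.P122.Base

/-!
BesA: Bessel equation.  `hasDerivAt_bJ`: differentiate under the integral
(`intervalIntegral.hasDerivAt_integral_of_dominated_loc_of_deriv_le`, bound `1`), and
`sin θ * I = (ex θ - ex (-θ)) / 2`.  `bJ_rec`: FTC for `θ ↦ ex (y * sin θ - k * θ)` on `[-π, π]`
(equal boundary values), `cos θ = (ex θ + ex (-θ)) / 2`.  `bJ_ode`: from `bJ_rec`,
`y J_k' = y J_(k-1) - k J_k` and (index `k - 1`) `y J_(k-1)' = (k - 1) J_(k-1) - y J_k`; differentiate
the first identity (it holds for all `y`).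
-/

open MeasureTheory Set Real Filter
open scoped FourierTransform ENNReal ComplexConjugate Topology

namespace Vale.Agent.P122

open Vale.Agent.P117 (Np pt rho)

theorem besa_cont (k : ℤ) (y : ℝ) : Continuous fun θ : ℝ => ex (y * sin θ - k * θ) :=
  continuous_ex.comp (by fun_prop)

theorem besa_ex (θ : ℝ) : ex θ = (cos θ : ℝ) + (sin θ : ℝ) * Complex.I := by
  rw [ex, Complex.exp_mul_I, Complex.ofReal_cos, Complex.ofReal_sin]

theorem besa_pred (k : ℤ) (a θ : ℝ) :
    ex (a - ((k - 1 : ℤ) : ℝ) * θ) = ex θ * ex (a - k * θ) := by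
  rw [← ex_add]
  congr 1
  push_cast
  ring

theorem besa_succ (k : ℤ) (a θ : ℝ) :
    ex (a - ((k + 1 : ℤ) : ℝ) * θ) = ex (-θ) * ex (a - k * θ) := by
  rw [← ex_add]
  congr 1
  push_cast
  ring

theorem besa_sin (k : ℤ) (y : ℝ) :
    ∫ θ in (-π)..π, ((sin θ : ℝ) : ℂ) * Complex.I * ex (y * sin θ - k * θ) = dJ k y := by
  rw [dJ, bJ, bJ, ← intervalIntegral.integral_sub ((besa_cont _ _).intervalIntegrable _ _)
    ((besa_cont _ _).intervalIntegrable _ _), ← intervalIntegral.integral_div]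
  refine intervalIntegral.integral_congr fun θ _ => ?_
  rw [besa_pred, besa_succ, besa_ex θ, besa_ex (-θ), cos_neg, sin_neg]
  push_cast
  ring

theorem besa_cos (k : ℤ) (y : ℝ) :
    ∫ θ in (-π)..π, ((cos θ : ℝ) : ℂ) * ex (y * sin θ - k * θ) =
      (bJ (k - 1) y + bJ (k + 1) y) / 2 := by
  rw [bJ, bJ, ← intervalIntegral.integral_add ((besa_cont _ _).intervalIntegrable _ _)
    ((besa_cont _ _).intervalIntegrable _ _), ← intervalIntegral.integral_div]
  refine intervalIntegral.integral_congr fun θ _ => ?_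
  rw [besa_pred, besa_succ, besa_ex θ, besa_ex (-θ), cos_neg, sin_neg]
  push_cast
  ring

theorem hasDerivAt_bJ (k : ℤ) (y : ℝ) : HasDerivAt (bJ k) (dJ k y) y := by
  have h := intervalIntegral.hasDerivAt_integral_of_dominated_loc_of_deriv_le (μ := volume)
    (a := -π) (b := π) (F := fun (x θ : ℝ) => ex (x * sin θ - k * θ))
    (F' := fun (x θ : ℝ) => ((sin θ : ℝ) : ℂ) * Complex.I * ex (x * sin θ - k * θ))
    (bound := fun _ => 1) (x₀ := y) (s := univ) univ_mem
    (Eventually.of_forall fun x => (besa_cont k x).aestronglyMeasurable)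
    ((besa_cont k y).intervalIntegrable _ _)
    (Continuous.aestronglyMeasurable (Continuous.mul (by fun_prop) (besa_cont k y)))
    (Eventually.of_forall fun θ _ x _ => by
      rw [norm_mul, norm_mul, norm_ex, Complex.norm_I, Complex.norm_real, mul_one, mul_one]
      exact abs_sin_le_one θ)
    intervalIntegrable_const
    (Eventually.of_forall fun θ _ x _ => by
      have h1 : HasDerivAt (fun x : ℝ => x * sin θ - k * θ) (sin θ) x := by
        simpa using ((hasDerivAt_id x).mul_const (sin θ)).sub_const ((k : ℝ) * θ)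
      exact hasDerivAt_ex h1)
  rw [← besa_sin]
  exact h.2

theorem continuous_bJ (k : ℤ) : Continuous (bJ k) :=
  continuous_iff_continuousAt.2 fun y => (hasDerivAt_bJ k y).continuousAt

theorem norm_bJ_le (k : ℤ) (y : ℝ) : ‖bJ k y‖ ≤ 7 := by
  have h := intervalIntegral.norm_integral_le_of_norm_le_const (a := -π) (b := π) (C := 1)
    (f := fun θ : ℝ => ex (y * sin θ - k * θ)) fun θ _ => (norm_ex _).le
  have h1 := pi_lt_d2
  have h2 := pi_pos
  rw [abs_of_pos (by linarith)] at h
  exact h.trans (by linarith)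

theorem bJ_rec (k : ℤ) (y : ℝ) :
    (y : ℂ) * (bJ (k - 1) y + bJ (k + 1) y) = 2 * k * bJ k y := by
  have h1 : ∀ θ ∈ uIcc (-π) π, HasDerivAt (fun θ : ℝ => ex (y * sin θ - k * θ))
      (((y * cos θ - k : ℝ) : ℂ) * Complex.I * ex (y * sin θ - k * θ)) θ := fun θ _ => by
    have h2 : HasDerivAt (fun θ : ℝ => y * sin θ - k * θ) (y * cos θ - k) θ := by
      have h := ((hasDerivAt_sin θ).const_mul y).sub ((hasDerivAt_id θ).const_mul (k : ℝ))
      rw [mul_one] at h
      exact h
    exact hasDerivAt_ex h2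
  have h3 := intervalIntegral.integral_eq_sub_of_hasDerivAt h1
    ((Continuous.mul (by fun_prop) (besa_cont k y)).intervalIntegrable _ _)
  have h4 : ex (y * sin π - k * π) = ex (y * sin (-π) - k * (-π)) := by
    rw [sin_neg, sin_pi, ex, ex, Complex.exp_eq_exp_iff_exists_int]
    refine ⟨-k, ?_⟩
    push_cast
    ring
  rw [h4, sub_self] at h3
  have h5 : ∫ θ in (-π)..π, ((y * cos θ - k : ℝ) : ℂ) * Complex.I * ex (y * sin θ - k * θ) =
      Complex.I * ((y : ℂ) * ((bJ (k - 1) y + bJ (k + 1) y) / 2) - k * bJ k y) := by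
    have c0 := besa_cont k y
    have c1 : Continuous fun θ : ℝ => (y : ℂ) * (((cos θ : ℝ) : ℂ) * ex (y * sin θ - k * θ)) :=
      continuous_const.mul (Continuous.mul (by fun_prop) c0)
    have c2 : Continuous fun θ : ℝ => (k : ℂ) * ex (y * sin θ - k * θ) := continuous_const.mul c0
    rw [← besa_cos, bJ, ← intervalIntegral.integral_const_mul,
      ← intervalIntegral.integral_const_mul, ← intervalIntegral.integral_sub
        (c1.intervalIntegrable _ _) (c2.intervalIntegrable _ _),
      ← intervalIntegral.integral_const_mul]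
    refine intervalIntegral.integral_congr fun θ _ => ?_
    push_cast
    ring
  rw [h5] at h3
  have h6 := (mul_eq_zero.1 h3).resolve_left Complex.I_ne_zero
  linear_combination 2 * h6

theorem bJ_ode (k : ℤ) {y : ℝ} (hy : y ≠ 0) : HasDerivAt (fun y : ℝ => (y : ℂ) * dJ k y)
    (-(((y ^ 2 - (k : ℝ) ^ 2) / y : ℝ) : ℂ) * bJ k y) y := by
  have h1 : ∀ x : ℝ, (x : ℂ) * dJ k x = x * bJ (k - 1) x - k * bJ k x := fun x => by
    have := bJ_rec k x
    rw [dJ]
    linear_combination (-1 / 2 : ℂ) * this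
  have h2 : (y : ℂ) * dJ (k - 1) y = (k - 1) * bJ (k - 1) y - y * bJ k y := by
    have := bJ_rec (k - 1) y
    rw [sub_add_cancel] at this
    rw [dJ, sub_add_cancel]
    push_cast at this
    linear_combination (1 / 2 : ℂ) * this
  have h3 := (((hasDerivAt_id y).ofReal_comp.mul (hasDerivAt_bJ (k - 1) y)).sub
    ((hasDerivAt_bJ k y).const_mul (k : ℂ)))
  have hy' : (y : ℂ) ≠ 0 := Complex.ofReal_ne_zero.2 hy
  have h4 : (fun x : ℝ => (x : ℂ) * dJ k x) =
      fun x : ℝ => (x : ℂ) * bJ (k - 1) x - k * bJ k x := funext h1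
  rw [h4]
  refine h3.congr_deriv ?_
  have h5 := h1 y
  simp only [id]
  push_cast
  field_simp
  linear_combination y * h2 - (k : ℂ) * h5

end Vale.Agent.P122
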