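import Vale.Agent.P122.PcE
import Vale.Agent.P122.BesA

/-!
PcB: the trivial pieces.  `bnd_two` and `bnd_inf` with the sup bound only: for `piece_bot`
`A = C ^ 2 R`, `D = C / R ^ 2`; for `piece_zero` `A = 49`, `D = 7` (`norm_bJ_le`).
-/

open MeasureTheory Set Real Filter
open scoped FourierTransform ENNReal ComplexConjugate Topology

namespace Vale.Agent.P122

open Vale.Agent.P117 (Np pt rho)

theorem pcb_gen {p C A B a b : ℝ} {N : ℝ → ℂ} (hp : 2 ≤ p) (hC : 0 ≤ C) (hb : 0 ≤ b)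
    (hκ : Kr (kn N A B a b))
    (h : ∀ r s, A ≤ r → r < B → s ∈ Icc (0 : ℝ) 1 → ‖N (r * √s)‖ ≤ C) :
    Bnd p (kn N A B a b) ((C * b) ^ (p - 2) * (C ^ 2 * (B - A))) := by
  have k : ∀ r s, s ∈ Icc (0 : ℝ) 1 → kn N A B a b r s = 0 ∨
      (r ∈ Ico A B ∧ s ∈ Icc 0 b ∧ ‖kn N A B a b r s‖ₑ ≤ ENNReal.ofReal C) := fun r s hs => by
    unfold kn
    split_ifs with hc
    · refine Or.inr ⟨⟨hc.1, hc.2.1⟩, ⟨hs.1, hc.2.2.2⟩, ?_⟩
      rw [← ofReal_norm]
      exact ENNReal.ofReal_le_ofReal (h r s hc.1 hc.2.1 hs)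
    · exact Or.inl rfl
  refine bnd_inf hp (mul_nonneg hC hb) (bnd_two hκ fun s hs => ?_) fun r => ?_
  · have h1 : ∀ r, ‖kn N A B a b r s‖ₑ ^ (2 : ℝ) ≤
        (Ico A B).indicator (fun _ => ENNReal.ofReal (C ^ 2)) r := fun r => by
      rcases k r s hs with e | ⟨e1, -, e2⟩
      · simp [e]
      · rw [indicator_of_mem e1, ENNReal.rpow_two, ENNReal.ofReal_pow hC]
        exact pow_le_pow_left' e2 2
    refine (lintegral_mono h1).trans_eq ?_
    rw [lintegral_indicator_const measurableSet_Ico, volume_Ico,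
      ENNReal.ofReal_mul (sq_nonneg C)]
  · have h1 : ∀ s ∈ Icc (0 : ℝ) 1, ‖kn N A B a b r s‖ₑ ≤
        (Icc 0 b).indicator (fun _ => ENNReal.ofReal C) s := fun s hs => by
      rcases k r s hs with e | ⟨-, e1, e2⟩
      · simp [e]
      · rwa [indicator_of_mem e1]
    refine ((setLIntegral_mono' measurableSet_Icc h1).trans
      (setLIntegral_le_lintegral _ _)).trans_eq ?_
    rw [lintegral_indicator_const measurableSet_Icc, volume_Icc, sub_zero, ENNReal.ofReal_mul hC]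

theorem piece_bot {p C : ℝ} (h3 : 3 < p) (hC : 0 < C) : ∃ C' : ℝ, 0 ≤ C' ∧
    ∀ (ν R : ℝ) (N : ℝ → ℂ), 1 ≤ R → Sml C ν (2 * R) N →
      Bnd p (kn N R (2 * R) (-1) (R ^ 2)⁻¹) (C' * R ^ (-((p - 1) / 2))) := by
  refine ⟨C ^ (p - 2) * C ^ 2, by positivity, fun ν R N hR hN => ?_⟩
  have hR0 : 0 < R := one_pos.trans_le hR
  have hb : (R ^ 2)⁻¹ ≤ 1 := inv_le_one_of_one_le₀ (one_le_pow₀ hR)
  refine (pcb_gen (by linarith) hC.le (by positivity) (kr_kn hN hR0.le le_rfl hb)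
    fun r s h1 h2 hs => hN.b0 _ (mul_nonneg (hR0.le.trans h1) (sqrt_nonneg s)) ?_).mono ?_
  · exact (mul_le_of_le_one_right (hR0.le.trans h1) (sqrt_le_one.2 hs.2)).trans h2.le
  · have e1 : ((R ^ 2)⁻¹) ^ (p - 2) * R = R ^ (-2 * (p - 2) + 1) := by
      rw [rpow_add hR0, rpow_one, rpow_mul hR0.le, rpow_neg hR0.le, rpow_two]
    have e2 : R ^ (-2 * (p - 2) + 1) ≤ R ^ (-((p - 1) / 2)) :=
      rpow_le_rpow_of_exponent_le hR (by linarith)
    rw [mul_rpow hC.le (by positivity)]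
    refine le_of_eq_of_le ?_ (mul_le_mul_of_nonneg_left (e1.trans_le e2) (by positivity))
    ring

theorem kr_knJ (k : ℤ) (A B a b : ℝ) : Kr (kn (bJ k) A B a b) := by
  refine ⟨?_, 7, fun r s => ?_⟩
  · have h : Measurable fun z : ℝ × ℝ =>
        if A ≤ z.1 ∧ z.1 < B ∧ a < z.2 ∧ z.2 ≤ b then bJ k (z.1 * √z.2) else 0 :=
      Measurable.ite ((measurableSet_le measurable_const measurable_fst).inter
        ((measurableSet_lt measurable_fst measurable_const).inter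
          ((measurableSet_lt measurable_const measurable_snd).inter
            (measurableSet_le measurable_snd measurable_const))))
        ((continuous_bJ k).measurable.comp (by fun_prop)) measurable_const
    exact h
  · unfold kn
    split_ifs
    · exact norm_bJ_le _ _
    · simp

theorem piece_zero {p : ℝ} (h3 : 3 < p) (k : ℤ) : Bnd p (kn (bJ k) 0 1 (-1) 1) (7 ^ p) := by
  refine (pcb_gen (C := 7) (by linarith) (by norm_num) zero_le_one (kr_knJ k 0 1 (-1) 1)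
    fun r s _ _ _ => norm_bJ_le _ _).mono (le_of_eq ?_)
  rw [mul_one, sub_zero, mul_one, ← rpow_two, ← rpow_add (by norm_num), sub_add_cancel]

end Vale.Agent.P122
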