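import Vale.Agent.P122.Quad

/-!
QuadB: the `L^4` bound from a kernel bound.  Let `φ x = (Icc (-1) 1).indicator (fun x =>
ENNReal.ofReal |x| ^ (-a)) x` (infinite at `0`), `∫⁻ φ = ofReal (2 / (1 - a))` (a.e. equal to
`ofReal (|x| ^ (-a))`, `integral_rpow`, `intervalIntegrable_rpow'`).  The integrand of `tt_four` is at
most `ofReal D * E.indicator 1 s * φ (s - s') * φ (s + s' - τ)`.  Move the `τ` integral inside
(`lintegral_lintegral_swap`), translation invariance (`lintegral_sub_left_eq_self`).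
-/

open MeasureTheory Set Real Filter
open scoped FourierTransform ENNReal ComplexConjugate Topology

namespace Vale.Agent.P122

open Vale.Agent.P117 (Np pt rho)

theorem quadb_pt {x y a D : ℝ} {z : ℂ} (h0 : 0 < a) (hD : 0 < D)
    (h : ‖z‖ * |x * y| ^ a ≤ D) :
    ‖z‖ₑ ≤ ENNReal.ofReal D * ENNReal.ofReal |x| ^ (-a) * ENNReal.ofReal |y| ^ (-a) := by
  have t : ∀ u : ℝ, ENNReal.ofReal u ^ a ≠ ⊤ := fun u =>
    ENNReal.rpow_ne_top_of_nonneg h0.le ENNReal.ofReal_ne_top
  rw [ENNReal.rpow_neg, ENNReal.rpow_neg, mul_assoc,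
    ← ENNReal.mul_inv (Or.inr (t _)) (Or.inl (t _)), ← div_eq_mul_inv,
    ENNReal.le_div_iff_mul_le (Or.inr (by simpa using hD)) (Or.inr ENNReal.ofReal_ne_top),
    ← ENNReal.mul_rpow_of_nonneg _ _ h0.le, ← ENNReal.ofReal_mul (abs_nonneg _), ← abs_mul,
    ENNReal.ofReal_rpow_of_nonneg (abs_nonneg _) h0.le, ← ofReal_norm,
    ← ENNReal.ofReal_mul (norm_nonneg _)]
  exact ENNReal.ofReal_le_ofReal h

theorem quadb_int {a : ℝ} (h1 : a < 1) :
    ∫⁻ x, (Icc (-1 : ℝ) 1).indicator (fun x => ENNReal.ofReal |x| ^ (-a)) x ≤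
      ENNReal.ofReal (2 / (1 - a)) := by
  set ψ : ℝ → ℝ≥0∞ := (Ioc (0 : ℝ) 1).indicator fun x => ENNReal.ofReal (x ^ (-a)) with hψ
  have mψ : Measurable ψ := Measurable.indicator (by fun_prop) measurableSet_Ioc
  have hI : ∫⁻ x, ψ x = ENNReal.ofReal (1 / (1 - a)) := by
    have hi : IntegrableOn (fun x : ℝ => x ^ (-a)) (Ioc 0 1) :=
      (intervalIntegral.intervalIntegrable_rpow' (by linarith : -1 < -a)).1
    rw [hψ, lintegral_indicator measurableSet_Ioc, ← ofReal_integral_eq_lintegral_ofReal hi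
      ((ae_restrict_iff' measurableSet_Ioc).2 (ae_of_all _ fun x hx => rpow_nonneg hx.1.le _)),
      ← intervalIntegral.integral_of_le zero_le_one, integral_rpow (Or.inl (by linarith)),
      Real.one_rpow, Real.zero_rpow (by linarith), sub_zero, neg_add_eq_sub]
  have hle : ∀ᵐ x, (Icc (-1 : ℝ) 1).indicator (fun x => ENNReal.ofReal |x| ^ (-a)) x ≤
      ψ x + ψ (-x) := by
    filter_upwards [Measure.ae_ne volume (0 : ℝ)] with x hx
    by_cases hm : x ∈ Icc (-1 : ℝ) 1
    swap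
    · simp [hm]
    rw [indicator_of_mem hm, ENNReal.ofReal_rpow_of_pos (abs_pos.2 hx)]
    rcases lt_or_gt_of_ne hx with h | h
    · rw [hψ, indicator_of_mem (show -x ∈ Ioc (0 : ℝ) 1 from ⟨by linarith, by linarith [hm.1]⟩),
        abs_of_neg h]
      exact le_add_self
    · rw [hψ, indicator_of_mem (show x ∈ Ioc (0 : ℝ) 1 from ⟨h, hm.2⟩), abs_of_pos h]
      exact le_self_add
  refine (lintegral_mono_ae hle).trans (le_of_eq ?_)
  have hp : 0 ≤ 1 / (1 - a) := div_nonneg zero_le_one (by linarith)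
  rw [lintegral_add_left mψ, lintegral_neg_eq_self ψ, hI, ← ENNReal.ofReal_add hp hp]
  congr 1
  ring

theorem bnd_four {κ : ℝ → ℝ → ℂ} {A B a D : ℝ} (hκ : Kr κ)
    (hs : ∀ r s, r ∉ Icc A B → κ r s = 0) (h0 : 0 < a) (h1 : a < 1) (hD : 0 < D)
    (h : ∀ τ s s', ‖KK κ τ s s'‖ * |(s - s') * (s + s' - τ)| ^ a ≤ D) :
    Bnd 4 κ (D * (2 / (1 - a)) ^ 2) := by

  intro g E hg
  set φ : ℝ → ℝ≥0∞ := (Icc (-1 : ℝ) 1).indicator fun x => ENNReal.ofReal |x| ^ (-a) with hφ
  have mφ : Measurable φ := Measurable.indicator (by fun_prop) measurableSet_Icc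
  have mE : Measurable (E.indicator (1 : ℝ → ℝ≥0∞)) := measurable_one.indicator hg.mE
  have key : ∀ τ s s', ‖KK κ τ s s'‖ₑ *
      (E.indicator 1 s * E.indicator 1 (τ - s) * E.indicator 1 s' * E.indicator 1 (τ - s')) ≤
      ENNReal.ofReal D * E.indicator 1 s * φ (s - s') * φ (s + s' - τ) := fun τ s s' => by
    by_cases h2 : s ∈ E
    swap
    · simp [h2]
    by_cases h3 : τ - s ∈ E
    swap
    · simp [h3]
    by_cases h4 : s' ∈ E
    swap
    · simp [h4]
    have a2 := hg.sub h2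
    have a3 := hg.sub h3
    have a4 := hg.sub h4
    have b1 : s - s' ∈ Icc (-1 : ℝ) 1 := ⟨by linarith [a2.1, a4.2], by linarith [a2.2, a4.1]⟩
    have b2 : s + s' - τ ∈ Icc (-1 : ℝ) 1 := ⟨by linarith [a3.2, a4.1], by linarith [a3.1, a4.2]⟩
    rw [hφ, indicator_of_mem h2, indicator_of_mem h3, indicator_of_mem h4, indicator_of_mem b1,
      indicator_of_mem b2]
    have b3 : E.indicator (1 : ℝ → ℝ≥0∞) (τ - s') ≤ 1 := indicator_le_self' (by simp) _
    simp only [Pi.one_apply, one_mul, mul_one]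
    exact (mul_le_of_le_one_right' b3).trans (quadb_pt h0 hD (h τ s s'))
  refine (tt_four hκ hs hg).trans ((lintegral_mono fun τ => lintegral_mono fun s =>
    lintegral_mono fun s' => key τ s s').trans ?_)
  have m1 : Measurable fun z : (ℝ × ℝ) × ℝ =>
      ENNReal.ofReal D * E.indicator 1 z.1.2 * φ (z.1.2 - z.2) * φ (z.1.2 + z.2 - z.1.1) := by
    fun_prop
  rw [lintegral_lintegral_swap m1.lintegral_prod_right'.aemeasurable]
  have e : ∀ s, ∫⁻ τ, ∫⁻ s', ENNReal.ofReal D * E.indicator 1 s * φ (s - s') * φ (s + s' - τ) =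
      E.indicator 1 s * (ENNReal.ofReal D * (∫⁻ x, φ x) ^ 2) := fun s => by
    rw [lintegral_lintegral_swap (Measurable.aemeasurable (by fun_prop))]
    have e1 : ∀ s', ∫⁻ τ, ENNReal.ofReal D * E.indicator 1 s * φ (s - s') * φ (s + s' - τ) =
        ENNReal.ofReal D * E.indicator 1 s * (∫⁻ x, φ x) * φ (s - s') := fun s' => by
      rw [lintegral_const_mul _ (by fun_prop), lintegral_sub_left_eq_self φ (s + s')]
      ring
    simp_rw [e1]
    rw [lintegral_const_mul _ (by fun_prop), lintegral_sub_left_eq_self φ s]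
    ring
  simp_rw [e]
  rw [lintegral_mul_const _ mE, lintegral_indicator_one hg.mE, mul_comm,
    ENNReal.ofReal_mul hD.le, ENNReal.ofReal_pow (div_nonneg two_pos.le (by linarith))]
  gcongr
  exact quadb_int h1

end Vale.Agent.P122
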