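import Vale.Agent.P122.Ker
import Vale.Agent.P122.OpB
import Vale.Agent.P122.QuadB

/-!
PcM: a main piece.  Prove one lemma for a kernel `κ` with `Kr κ`, support in `[R, 2 R]`,
`‖κ‖ ^ 2 ≤ (R μ)⁻¹` and the bound of `kk_km`; apply it to `km` and to its conjugate
(`KK (conj κ) = conj (KK κ)`, `integral_conj`).  `bnd_two` with `A = μ⁻¹`.  Trivially
`‖KK‖ ≤ K0 = R⁻¹ μ⁻¹ ^ 2 ≤ R ^ 4 * K1`, `K1 = 192 μ / R ^ 2`.  With `ε = (p - 3) / 8`, `a = 1 - ε`: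
`‖KK‖ |Δ| ^ a = ‖KK‖ ^ ε (‖KK‖ |Δ|) ^ a ≤ K1 * R ^ (4 ε)`.  `bnd_four`, `bnd_mid`; the result is
`C μ ^ (p - 3) R ^ ((2 ε - 1) (p - 2))` and `(1 - 2 ε) (p - 2) ≥ (p - 1) / 2`.
-/

open MeasureTheory Set Real Filter
open scoped FourierTransform ENNReal ComplexConjugate Topology

namespace Vale.Agent.P122

open Vale.Agent.P117 (Np pt rho)

theorem pcm_mul {x y M : ℝ} (hx : x ^ 2 ≤ M) (hy : y ^ 2 ≤ M) : x * y ≤ M := by
  nlinarith [sq_nonneg (x - y)]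

theorem pcm_triv {κ : ℝ → ℝ → ℂ} {R M : ℝ} (hR : 0 < R)
    (hs : ∀ r s, r ∉ Icc R (2 * R) → κ r s = 0) (hn : ∀ r s, ‖κ r s‖ ^ 2 ≤ M) (τ s s' : ℝ) :
    ‖KK κ τ s s'‖ ≤ M ^ 2 * R := by
  have hM : 0 ≤ M := (sq_nonneg _).trans (hn 0 0)
  unfold KK
  rw [← setIntegral_eq_integral_of_forall_compl_eq_zero (s := Icc R (2 * R))
    (fun r hr => by rw [hs r s hr]; simp)]
  refine (norm_setIntegral_le_of_norm_le_const (C := M ^ 2) (by simp) fun r _ => ?_).trans ?_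
  · rw [norm_mul, Complex.norm_conj, norm_mul, norm_mul, sq]
    exact mul_le_mul (pcm_mul (hn _ _) (hn _ _)) (pcm_mul (hn _ _) (hn _ _)) (by positivity) hM
  · rw [Real.volume_real_Icc_of_le (by linarith)]
    exact le_of_eq (by ring)

theorem pcm_two {κ : ℝ → ℝ → ℂ} {R M : ℝ}
    (hs : ∀ r s, r ∉ Icc R (2 * R) → κ r s = 0) (hn : ∀ r s, ‖κ r s‖ ^ 2 ≤ M) (s : ℝ) :
    ∫⁻ r, ‖κ r s‖ₑ ^ (2 : ℝ) ≤ ENNReal.ofReal (M * R) := by
  have hM : 0 ≤ M := (sq_nonneg _).trans (hn 0 0)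
  have h1 : ∀ r, ‖κ r s‖ₑ ^ (2 : ℝ) ≤
      (Icc R (2 * R)).indicator (fun _ => ENNReal.ofReal M) r := by
    intro r
    by_cases hr : r ∈ Icc R (2 * R)
    · rw [indicator_of_mem hr, ← ofReal_norm,
        ENNReal.ofReal_rpow_of_nonneg (norm_nonneg _) (by norm_num)]
      refine ENNReal.ofReal_le_ofReal ?_
      rw [Real.rpow_two]
      exact hn r s
    · rw [indicator_of_notMem hr, hs r s hr]
      simp
  refine (lintegral_mono h1).trans ?_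
  rw [lintegral_indicator_const measurableSet_Icc, Real.volume_Icc, ← ENNReal.ofReal_mul hM]
  exact le_of_eq (by congr 1; ring)

theorem pcm_mix {x y K L ε : ℝ} (hx : 0 ≤ x) (hy : 0 ≤ y) (hK : 0 < K) (hL : 0 ≤ L) (h0 : 0 ≤ ε)
    (h1 : ε ≤ 1) (ha : x ≤ L * K) (hb : x * y ≤ K) : x * y ^ (1 - ε) ≤ K * L ^ ε := by
  have e1 : x * y ^ (1 - ε) = x ^ ε * (x * y) ^ (1 - ε) := by
    rw [Real.mul_rpow hx hy, ← mul_assoc, ← Real.rpow_add' hx (by norm_num)]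
    simp
  have e2 : K * L ^ ε = (L * K) ^ ε * K ^ (1 - ε) := by
    rw [Real.mul_rpow hL hK.le, mul_assoc, ← Real.rpow_add hK]
    simp [mul_comm]
  rw [e1, e2]
  exact mul_le_mul (Real.rpow_le_rpow hx ha h0)
    (Real.rpow_le_rpow (mul_nonneg hx hy) hb (by linarith)) (by positivity) (by positivity)

theorem pcm_gen {p : ℝ} (h3 : 3 < p) (h4 : p < 4) {κ : ℝ → ℝ → ℂ} {R μ : ℝ} (hR : 1 ≤ R)
    (hμ : R⁻¹ ≤ μ) (hμ1 : μ ≤ 1) (hκ : Kr κ) (hs : ∀ r s, r ∉ Icc R (2 * R) → κ r s = 0)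
    (hn : ∀ r s, ‖κ r s‖ ^ 2 ≤ (R * μ)⁻¹)
    (hk : ∀ τ s s', ‖KK κ τ s s'‖ * |(s - s') * (s + s' - τ)| ≤ 192 * μ / R ^ 2) :
    Bnd p κ ((192 * (2 / ((p - 3) / 8)) ^ 2) ^ ((p - 2) / 2) * R ^ (-((p - 1) / 2))) := by
  have hR0 : 0 < R := by linarith
  have hμ0 : 0 < μ := (inv_pos.2 hR0).trans_le hμ
  have hRμ : 1 ≤ R * μ := by
    have := mul_le_mul_of_nonneg_left hμ hR0.le
    rwa [mul_inv_cancel₀ hR0.ne'] at this
  obtain ⟨ε, hε⟩ : ∃ ε : ℝ, ε = (p - 3) / 8 := ⟨_, rfl⟩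
  rw [← hε]
  have hε0 : 0 < ε := by rw [hε]; linarith
  have hε1 : ε < 1 := by rw [hε]; linarith
  have b2 : Bnd 2 κ μ⁻¹ := bnd_two hκ fun s _ => by
    have := pcm_two hs hn s
    rwa [show (R * μ)⁻¹ * R = μ⁻¹ by field_simp] at this
  have hK : 0 < 192 * μ / R ^ 2 := by positivity
  have b4 := bnd_four (a := 1 - ε) (D := 192 * μ / R ^ 2 * (R ^ 4) ^ ε) hκ hs (by linarith)
    (by linarith) (by positivity) fun τ s s' => by
      refine pcm_mix (norm_nonneg _) (abs_nonneg _) hK (by positivity) hε0.le hε1.le ?_ (hk τ s s')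
      refine (pcm_triv hR0 hs hn τ s s').trans ?_
      have i1 : (R * μ)⁻¹ ≤ 1 := inv_le_one_of_one_le₀ hRμ
      have i2 : (R * μ)⁻¹ ^ 2 ≤ 1 := pow_le_one₀ (by positivity) i1
      have e : R ^ 4 * (192 * μ / R ^ 2) = 192 * (R * μ) * R := by field_simp
      rw [e]
      exact mul_le_mul_of_nonneg_right (by linarith) hR0.le
  rw [show 1 - (1 - ε) = ε by ring] at b4
  refine (bnd_mid hκ (by linarith) h4.le (by positivity) (by positivity) b2 b4).mono ?_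
  have e1 : 192 * μ / R ^ 2 * (R ^ 4) ^ ε * (2 / ε) ^ 2 =
      μ * (192 * (2 / ε) ^ 2) * R ^ (4 * ε - 2) := by
    rw [Real.rpow_sub hR0, Real.rpow_mul hR0.le, Real.rpow_two]
    have : R ^ (4 : ℝ) = R ^ 4 := by exact_mod_cast Real.rpow_natCast R 4
    rw [this]
    ring
  rw [e1, Real.mul_rpow (by positivity) (by positivity), Real.mul_rpow hμ0.le (by positivity),
    ← Real.rpow_mul hR0.le, Real.inv_rpow hμ0.le, ← Real.rpow_neg hμ0.le, ← mul_assoc, ← mul_assoc,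
    ← Real.rpow_add hμ0]
  have i1 : μ ^ (-((4 - p) / 2) + (p - 2) / 2) ≤ 1 := Real.rpow_le_one hμ0.le hμ1 (by linarith)
  have i2 : R ^ ((4 * ε - 2) * ((p - 2) / 2)) ≤ R ^ (-((p - 1) / 2)) :=
    Real.rpow_le_rpow_of_exponent_le hR (by rw [hε]; nlinarith)
  exact mul_le_mul (mul_le_of_le_one_left (by positivity) i1) i2 (by positivity) (by positivity)

theorem pcm_conj (κ : ℝ → ℝ → ℂ) (τ s s' : ℝ) :
    KK (fun r s => conj (κ r s)) τ s s' = conj (KK κ τ s s') := by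
  unfold KK
  rw [← integral_conj]
  simp only [map_mul]

theorem piece_main {p : ℝ} (h3 : 3 < p) (h4 : p < 4) : ∃ C : ℝ, 0 ≤ C ∧ ∀ ν R μ : ℝ, 0 ≤ ν →
    1 ≤ R → R⁻¹ ≤ μ → μ ≤ 1 → Bnd p (km ν R μ) (C * R ^ (-((p - 1) / 2))) ∧
      Bnd p (fun r s => conj (km ν R μ r s)) (C * R ^ (-((p - 1) / 2))) := by
  have h0 : 0 < p - 3 := by linarith
  refine ⟨(192 * (2 / ((p - 3) / 8)) ^ 2) ^ ((p - 2) / 2), by positivity,
    fun ν R μ hν hR hμ hμ1 => ?_⟩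
  have hR0 : 0 < R := by linarith
  have hμ0 : 0 < μ := (inv_pos.2 hR0).trans_le hμ
  refine ⟨pcm_gen h3 h4 hR hμ hμ1 (kr_km hR0 hμ0) (fun r s h => km_van s h) (norm_km hR0 hμ0)
    (kk_km hν hR0 hμ0), pcm_gen h3 h4 hR hμ hμ1 (kr_km hR0 hμ0).conj (fun r s h => ?_)
    (fun r s => ?_) fun τ s s' => ?_⟩
  · rw [km_van s h, map_zero]
  · rw [Complex.norm_conj]
    exact norm_km hR0 hμ0 r s
  · rw [pcm_conj, Complex.norm_conj]
    exact kk_km hν hR0 hμ0 τ s s'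

end Vale.Agent.P122
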