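import Vale.Agent.P122.Err
import Vale.Agent.P122.PcM
import Vale.Agent.P122.PcB

/-!
Shell: one dyadic shell, `R = 2 ^ n`.  Take `α`, `β` from `small` with `Y = 2 R`.  For `s ∈ [0, 1]`
the kernel equals (`Bnd.congr`) `α * ∑ j ∈ range (n + 1), km k R (2 ^ j)⁻¹ +
β * ∑ j ∈ range (n + 1), conj (km ..) + ∑ j ∈ range n, kn (er k α β) R (2 R) (σ j ^ 2) (4 * σ j ^ 2) +
kn (er k α β) R (2 R) (-1) (R ^ 2)⁻¹` with `σ j = (2 ^ (j + 1))⁻¹`.  `dyad1`, `dyad2` by induction on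
`n`.  On `Reg`, `8 ≤ ww = r * uu` (`Reg.eight`, `ww_mul`) gives `R⁻¹ ≤ uu`, and `uu ≤ √s ≤ 1`.
`Bnd.sum`, `Bnd.const_mul`, `Bnd.add`, `card ^ (p + 1) ≤ (n + 1) ^ 5`.
-/

open MeasureTheory Set Real Filter
open scoped FourierTransform ENNReal ComplexConjugate Topology

namespace Vale.Agent.P122

open Vale.Agent.P117 (Np pt rho)

theorem dyad1 (n : ℕ) {x : ℝ} (h0 : ((2 : ℝ) ^ n)⁻¹ ≤ x) (h1 : x < 2) (c : ℂ) :
    ∑ j ∈ Finset.range (n + 1),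
      (if ((2 : ℝ) ^ j)⁻¹ ≤ x ∧ x < 2 * ((2 : ℝ) ^ j)⁻¹ then c else 0) = c := by
  induction n with
  | zero =>
    rw [Finset.sum_range_one, if_pos ⟨h0, by simpa using h1⟩]
  | succ n ih =>
    have e : 2 * ((2 : ℝ) ^ (n + 1))⁻¹ = ((2 : ℝ) ^ n)⁻¹ := by
      rw [pow_succ]
      field_simp
    rw [Finset.sum_range_succ, e]
    by_cases h : ((2 : ℝ) ^ n)⁻¹ ≤ x
    · rw [ih h, if_neg fun h' => absurd h'.2 (not_lt.2 h), add_zero]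
    · rw [if_pos ⟨h0, not_le.1 h⟩, Finset.sum_eq_zero, zero_add]
      intro j hj
      refine if_neg fun h' => h (le_trans ?_ h'.1)
      exact inv_anti₀ (by positivity)
        (pow_le_pow_right₀ one_le_two (Nat.lt_succ_iff.1 (Finset.mem_range.1 hj)))

theorem dyad2 (n : ℕ) {s : ℝ} (h0 : 0 ≤ s) (h1 : s ≤ 1) (c : ℂ) :
    ∑ j ∈ Finset.range n, (if (((2 : ℝ) ^ (j + 1))⁻¹) ^ 2 < s ∧
      s ≤ 4 * (((2 : ℝ) ^ (j + 1))⁻¹) ^ 2 then c else 0) +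
      (if -1 < s ∧ s ≤ (((2 : ℝ) ^ n) ^ 2)⁻¹ then c else 0) = c := by
  have h2 : -1 < s := by linarith
  induction n with
  | zero =>
    rw [Finset.sum_range_zero, zero_add, if_pos ⟨h2, by simpa using h1⟩]
  | succ n ih =>
    have e : 4 * (((2 : ℝ) ^ (n + 1))⁻¹) ^ 2 = (((2 : ℝ) ^ n) ^ 2)⁻¹ := by
      rw [pow_succ 2 n]
      field_simp
      norm_num
    have e0 : 0 ≤ (((2 : ℝ) ^ (n + 1))⁻¹) ^ 2 := by positivity
    rw [Finset.sum_range_succ, add_assoc, ← inv_pow ((2 : ℝ) ^ (n + 1)) 2]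
    refine Eq.trans ?_ ih
    congr 1
    rw [← e]
    by_cases h : s ≤ (((2 : ℝ) ^ (n + 1))⁻¹) ^ 2
    · rw [if_neg fun h' => absurd h'.1 (not_lt.2 h), if_pos ⟨h2, h⟩, if_pos ⟨h2, by linarith⟩,
        zero_add]
    · rw [if_neg (fun h' : -1 < s ∧ s ≤ (((2 : ℝ) ^ (n + 1))⁻¹) ^ 2 => h h'.2), add_zero]
      simp only [not_le.1 h, h2, true_and]

open Classical in
theorem shell_km (ν : ℝ) (hν : 0 ≤ ν) (n : ℕ) {r s : ℝ} (hs : s ∈ Icc (0 : ℝ) 1)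
    (hr : 2 ^ n ≤ r ∧ r < 2 * 2 ^ n) :
    ∑ j ∈ Finset.range (n + 1), km ν (2 ^ n) (2 ^ j)⁻¹ r s =
      if Reg ν (r * √s) then mm ν (r * √s) else 0 := by
  have hR : (0 : ℝ) < 2 ^ n := by positivity
  by_cases h : Reg ν (r * √s)
  · have h8 := h.eight hν
    rw [ww_mul (hR.trans_le hr.1) hs.1] at h8
    have u0 : 0 ≤ uu ν r s := Real.sqrt_nonneg _
    have u1 : uu ν r s ≤ 1 := by
      refine Real.sqrt_le_iff.2 ⟨zero_le_one, ?_⟩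
      have : 0 ≤ ν ^ 2 / r ^ 2 := by positivity
      linarith [hs.2]
    have u2 : ((2 : ℝ) ^ n)⁻¹ ≤ uu ν r s := by
      rw [inv_le_iff_one_le_mul₀' hR]
      nlinarith [mul_le_mul_of_nonneg_right hr.2.le u0]
    rw [if_pos h]
    refine Eq.trans (Finset.sum_congr rfl fun j _ => ?_)
      (dyad1 n u2 (by linarith) (mm ν (r * √s)))
    simp only [km, Pc, hr.1, hr.2, h, true_and, and_true]
  · rw [if_neg h]
    exact Finset.sum_eq_zero fun j _ => if_neg fun h' => h h'.2.2.2.2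

theorem shell_eq (k n : ℕ) (α β : ℂ) (r : ℝ) {s : ℝ} (hs : s ∈ Icc (0 : ℝ) 1) :
    kn (bJ k) (2 ^ n) (2 * 2 ^ n) (-1) 1 r s =
      (α * ∑ j ∈ Finset.range (n + 1), km k (2 ^ n) (2 ^ j)⁻¹ r s +
        β * ∑ j ∈ Finset.range (n + 1), conj (km k (2 ^ n) (2 ^ j)⁻¹ r s)) +
      (∑ j ∈ Finset.range n, kn (er k α β) (2 ^ n) (2 * 2 ^ n) ((((2 : ℝ) ^ (j + 1))⁻¹) ^ 2)
        (4 * (((2 : ℝ) ^ (j + 1))⁻¹) ^ 2) r s +
        kn (er k α β) (2 ^ n) (2 * 2 ^ n) (-1) (((2 : ℝ) ^ n) ^ 2)⁻¹ r s) := by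
  rw [← map_sum]
  by_cases hr : (2 : ℝ) ^ n ≤ r ∧ r < 2 * 2 ^ n
  · have h2 : -1 < s := by linarith [hs.1]
    rw [shell_km k (Nat.cast_nonneg k) n hs hr]
    simp only [kn, hr.1, hr.2, true_and]
    rw [dyad2 n hs.1 hs.2, if_pos ⟨h2, hs.2⟩, er]
    split_ifs <;> simp
  · have e1 : ∀ N a b, kn N (2 ^ n) (2 * 2 ^ n) a b r s = 0 := fun N a b =>
      if_neg fun h => hr ⟨h.1, h.2.1⟩
    have e2 : ∀ μ, km k (2 ^ n) μ r s = 0 := fun μ => if_neg fun h => hr ⟨h.1, h.2.1⟩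
    simp [e1, e2]

theorem shell_card {p : ℝ} (h3 : 3 < p) (h4 : p < 4) {m n : ℕ} (h : m ≤ n + 1) :
    ((Finset.range m).card : ℝ) ^ (p + 1) ≤ ((n : ℝ) + 1) ^ 5 := by
  rw [Finset.card_range]
  have h1 : (m : ℝ) ≤ n + 1 := by exact_mod_cast h
  have h2 : (1 : ℝ) ≤ n + 1 := by linarith [Nat.cast_nonneg (α := ℝ) n]
  calc (m : ℝ) ^ (p + 1) ≤ ((n : ℝ) + 1) ^ (p + 1) :=
        Real.rpow_le_rpow (Nat.cast_nonneg m) h1 (by linarith)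
    _ ≤ ((n : ℝ) + 1) ^ ((5 : ℕ) : ℝ) :=
        Real.rpow_le_rpow_of_exponent_le h2 (by push_cast; linarith)
    _ = _ := Real.rpow_natCast _ 5

theorem shell {p : ℝ} (h3 : 3 < p) (h4 : p < 4) : ∃ C : ℝ, 0 ≤ C ∧ ∀ k n : ℕ,
    Bnd p (kn (bJ k) (2 ^ n) (2 * 2 ^ n) (-1) 1)
      (C * ((n : ℝ) + 1) ^ 5 * ((2 : ℝ) ^ n) ^ (-((p - 1) / 2))) := by
  obtain ⟨C0, hC0, H0⟩ := small
  obtain ⟨C1, hC1, H1⟩ := piece_main h3 h4
  obtain ⟨C2, hC2, H2⟩ := piece_err h3 hC0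
  obtain ⟨C3, hC3, H3⟩ := piece_bot h3 hC0
  have hp : 0 < p := by linarith
  refine ⟨2 ^ p * (2 ^ p * (C0 ^ p * C1 + C0 ^ p * C1) + 2 ^ p * (C2 + C3)), by positivity,
    fun k n => ?_⟩
  obtain ⟨α, β, hα, hβ, hS⟩ := H0 k (2 * 2 ^ n)
  have hR : (1 : ℝ) ≤ 2 ^ n := one_le_pow₀ one_le_two
  have hR0 : (0 : ℝ) < 2 ^ n := by positivity
  obtain ⟨b, hb⟩ : ∃ b : ℝ, b = ((2 : ℝ) ^ n) ^ (-((p - 1) / 2)) := ⟨_, rfl⟩
  have hb0 : 0 ≤ b := by rw [hb]; positivity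
  obtain ⟨m, hm⟩ : ∃ m : ℝ, m = ((n : ℝ) + 1) ^ 5 := ⟨_, rfl⟩
  have hm1 : 1 ≤ m := by
    rw [hm]
    exact one_le_pow₀ (by linarith [Nat.cast_nonneg (α := ℝ) n])
  have hm0 : 0 ≤ m := zero_le_one.trans hm1
  have hμ : ∀ j ∈ Finset.range (n + 1), Bnd p (km k (2 ^ n) (2 ^ j)⁻¹) (C1 * b) ∧
      Bnd p (fun r s => conj (km k (2 ^ n) (2 ^ j)⁻¹ r s)) (C1 * b) := fun j hj => by
    rw [hb]
    refine H1 k _ _ (Nat.cast_nonneg k) hR (inv_anti₀ (by positivity)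
      (pow_le_pow_right₀ one_le_two (Nat.lt_succ_iff.1 (Finset.mem_range.1 hj)))) ?_
    exact inv_le_one_of_one_le₀ (one_le_pow₀ one_le_two)
  have k1 : ∀ j ∈ Finset.range (n + 1), Kr (km k (2 ^ n) (2 ^ j)⁻¹) := fun j _ =>
    kr_km hR0 (by positivity)
  have k2 : ∀ j ∈ Finset.range (n + 1), Kr fun r s => conj (km k (2 ^ n) (2 ^ j)⁻¹ r s) :=
    fun j hj => (k1 j hj).conj
  have hσ : ∀ j : ℕ, 2 * ((2 : ℝ) ^ (j + 1))⁻¹ ≤ 1 := fun j => by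
    rw [← div_eq_mul_inv, div_le_one (by positivity), pow_succ]
    linarith [one_le_pow₀ (n := j) (one_le_two (α := ℝ))]
  have k3 : ∀ j ∈ Finset.range n, Kr (kn (er k α β) (2 ^ n) (2 * 2 ^ n)
      ((((2 : ℝ) ^ (j + 1))⁻¹) ^ 2) (4 * (((2 : ℝ) ^ (j + 1))⁻¹) ^ 2)) := fun j _ => by
    refine kr_kn hS hR0.le le_rfl ?_
    have h0 : 0 ≤ ((2 : ℝ) ^ (j + 1))⁻¹ := by positivity
    nlinarith [hσ j]
  have k4 : Kr (kn (er k α β) (2 ^ n) (2 * 2 ^ n) (-1) (((2 : ℝ) ^ n) ^ 2)⁻¹) :=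
    kr_kn hS hR0.le le_rfl (inv_le_one_of_one_le₀ (one_le_pow₀ hR))
  have c1 : ((Finset.range (n + 1)).card : ℝ) ^ (p + 1) * (C1 * b) ≤ m * (C1 * b) :=
    mul_le_mul_of_nonneg_right (hm ▸ shell_card h3 h4 le_rfl) (by positivity)
  have c2 : ((Finset.range n).card : ℝ) ^ (p + 1) * (C2 * b) ≤ m * (C2 * b) :=
    mul_le_mul_of_nonneg_right (hm ▸ shell_card h3 h4 n.le_succ) (by positivity)
  have b1 := ((Bnd.sum hp _ k1 fun j hj => (hμ j hj).1).mono c1).const_mul hp.le hα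
  have b2 := ((Bnd.sum hp _ k2 fun j hj => (hμ j hj).2).mono c1).const_mul hp.le hβ
  have b3 := (Bnd.sum (b := C2 * b) hp _ k3 fun j _ => by
    rw [hb]
    exact H2 k _ _ _ hR (by positivity) (hσ j) hS).mono c2
  have b4 : Bnd p (kn (er k α β) (2 ^ n) (2 * 2 ^ n) (-1) (((2 : ℝ) ^ n) ^ 2)⁻¹)
      (m * (C3 * b)) := by
    refine (H3 k _ _ hR hS).mono ?_
    rw [← hb]
    exact le_mul_of_one_le_left (by positivity) hm1
  have k5 := (Kr.sum _ k1).const_mul α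
  have k6 := (Kr.sum _ k2).const_mul β
  have b5 := Bnd.add hp.le k5 k6 b1 b2 (by positivity) (by positivity)
  have b6 := Bnd.add hp.le (Kr.sum _ k3) k4 b3 b4 (by positivity) (by positivity)
  have b7 := Bnd.add hp.le (k5.add k6) ((Kr.sum _ k3).add k4) b5 b6 (by positivity)
    (by positivity)
  refine (b7.congr fun r s hs => shell_eq k n α β r hs).mono (le_of_eq ?_)
  rw [← hb, ← hm]
  ring

end Vale.Agent.P122
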