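import Vale.Agent.P122.Base

/-!
VdC: first derivative test.  `vdc`: `ψ' * ex ψ` is the derivative of `-I * ex ψ` (`hasDerivAt_ex`),
integrate by parts with `H = H1 * H2` (`intervalIntegral.integral_mul_deriv_eq_deriv_mul` or FTC for
`H * (-I * ex ψ)`); boundary terms `2 B1 B2`; `|H'| ≤ B2 |H1'| + B1 |H2'|` and for a monotone `C^1`
function the derivative has one sign on the open interval, so `∫ |H1'| = |H1 b - H1 a| ≤ 2 B1`.
`vdc1`: `H1 = 1 / ψ'`, `H2 = 1`.  `ord_int`: `a = sInf S`, `b = sSup S`, `Ioo a b ⊆ S ⊆ Icc a b`,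
`setIntegral_congr_set`, `Ioo_ae_eq_Icc`; the closure of a preconnected set is preconnected.
-/

open MeasureTheory Set Real Filter
open scoped FourierTransform ENNReal ComplexConjugate Topology

namespace Vale.Agent.P122

open Vale.Agent.P117 (Np pt rho)

theorem vdc_var {a b B : ℝ} {H : ℝ → ℝ} (hab : a ≤ b) (h : ∀ x ∈ Icc a b, ContDiffAt ℝ 1 H x)
    (m : MonotoneOn H (Icc a b) ∨ AntitoneOn H (Icc a b)) (hb : ∀ x ∈ Icc a b, |H x| ≤ B) :
    (∀ x ∈ Icc a b, HasDerivAt H (deriv H x) x) ∧ ContinuousOn (deriv H) (Icc a b) ∧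
      ∫ x in a..b, |deriv H x| ≤ 2 * B := by
  have h1 : ∀ x ∈ Icc a b, HasDerivAt H (deriv H x) x := fun x hx =>
    ((h x hx).differentiableAt one_ne_zero).hasDerivAt
  have h2 : ContinuousOn (deriv H) (Icc a b) := fun x hx =>
    (((h x hx).continuousAt_fderiv one_ne_zero).clm_apply continuousAt_const).continuousWithinAt
  refine ⟨h1, h2, ?_⟩
  have a1 := abs_le.1 (hb a ⟨le_rfl, hab⟩)
  have a2 := abs_le.1 (hb b ⟨hab, le_rfl⟩)
  rcases hab.eq_or_lt with rfl | hl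
  · rw [intervalIntegral.integral_same]
    linarith
  have h3 : ∀ x ∈ Icc a b, derivWithin H (Icc a b) x = deriv H x := fun x hx =>
    (h1 x hx).hasDerivWithinAt.derivWithin (uniqueDiffOn_Icc hl x hx)
  rw [← uIcc_of_le hab] at h1 h2 h3 m
  have h4 := intervalIntegral.integral_eq_sub_of_hasDerivAt h1 h2.intervalIntegrable
  rcases m with m | m
  · rw [intervalIntegral.integral_congr fun x hx => abs_of_nonneg (h3 x hx ▸ m.derivWithin_nonneg),
      h4]
    linarith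
  · rw [intervalIntegral.integral_congr fun x hx => abs_of_nonpos (h3 x hx ▸ m.derivWithin_nonpos),
      intervalIntegral.integral_neg, h4]
    linarith

theorem vdc {a b B1 B2 : ℝ} {ψ ψ' H1 H2 : ℝ → ℝ} (hab : a ≤ b)
    (hψ : ∀ x ∈ Icc a b, HasDerivAt ψ (ψ' x) x) (hc : ContinuousOn ψ' (Icc a b))
    (h1 : ∀ x ∈ Icc a b, ContDiffAt ℝ 1 H1 x) (h2 : ∀ x ∈ Icc a b, ContDiffAt ℝ 1 H2 x)
    (m1 : MonotoneOn H1 (Icc a b) ∨ AntitoneOn H1 (Icc a b))
    (m2 : MonotoneOn H2 (Icc a b) ∨ AntitoneOn H2 (Icc a b))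
    (b1 : ∀ x ∈ Icc a b, |H1 x| ≤ B1) (b2 : ∀ x ∈ Icc a b, |H2 x| ≤ B2) :
    ‖∫ x in a..b, ((H1 x * H2 x * ψ' x : ℝ) : ℂ) * ex (ψ x)‖ ≤ 6 * B1 * B2 := by
  obtain ⟨d1, c1, v1⟩ := vdc_var hab h1 m1 b1
  obtain ⟨d2, c2, v2⟩ := vdc_var hab h2 m2 b2
  have k1 : ContinuousOn H1 (Icc a b) := fun x hx => (d1 x hx).continuousAt.continuousWithinAt
  have k2 : ContinuousOn H2 (Icc a b) := fun x hx => (d2 x hx).continuousAt.continuousWithinAt
  have k3 : ContinuousOn ψ (Icc a b) := fun x hx => (hψ x hx).continuousAt.continuousWithinAt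
  have p1 := (abs_nonneg _).trans (b1 a ⟨le_rfl, hab⟩)
  have p2 := (abs_nonneg _).trans (b2 a ⟨le_rfl, hab⟩)
  have n1 : ∀ (r x : ℝ), ‖(r : ℂ) * (-Complex.I * ex x)‖ = |r| := fun r x => by simp [norm_ex]
  have n2 : ∀ x ∈ Icc a b, ‖((H1 x * H2 x : ℝ) : ℂ) * (-Complex.I * ex (ψ x))‖ ≤ B1 * B2 :=
    fun x hx => by
      rw [n1, abs_mul]
      exact mul_le_mul (b1 x hx) (b2 x hx) (abs_nonneg _) p1
  have n3 := n2 a ⟨le_rfl, hab⟩
  have n4 := n2 b ⟨hab, le_rfl⟩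
  rw [← uIcc_of_le hab] at hψ hc d1 d2 c1 c2 k1 k2 k3
  have e := intervalIntegral.integral_mul_deriv_eq_deriv_mul
    (u := fun x => ((H1 x * H2 x : ℝ) : ℂ)) (v := fun x => -Complex.I * ex (ψ x))
    (v' := fun x => (ψ' x : ℂ) * ex (ψ x))
    (fun x hx => ((d1 x hx).fun_mul (d2 x hx)).ofReal_comp)
    (fun x hx => ((hasDerivAt_ex (hψ x hx)).const_mul (-Complex.I)).congr_deriv
      (by linear_combination (-(ψ' x : ℂ) * ex (ψ x)) * Complex.I_sq))
    (Complex.continuous_ofReal.comp_continuousOn ((c1.mul k2).add (k1.mul c2))).intervalIntegrable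
    ((Complex.continuous_ofReal.comp_continuousOn hc).mul
      (continuous_ex.comp_continuousOn k3)).intervalIntegrable
  have n5 : ‖∫ x in a..b, ((deriv H1 x * H2 x + H1 x * deriv H2 x : ℝ) : ℂ) *
      (-Complex.I * ex (ψ x))‖ ≤ ∫ x in a..b, (B2 * |deriv H1 x| + B1 * |deriv H2 x|) := by
    refine intervalIntegral.norm_integral_le_of_norm_le hab (Eventually.of_forall fun x hx => ?_)
      ((continuousOn_const.mul c1.abs).add (continuousOn_const.mul c2.abs)).intervalIntegrable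
    rw [n1, mul_comm B2]
    refine (abs_add_le _ _).trans ?_
    rw [abs_mul, abs_mul]
    gcongr
    exacts [b2 x (Ioc_subset_Icc_self hx), b1 x (Ioc_subset_Icc_self hx)]
  rw [intervalIntegral.integral_add (c1.abs.intervalIntegrable.const_mul _)
    (c2.abs.intervalIntegrable.const_mul _), intervalIntegral.integral_const_mul,
    intervalIntegral.integral_const_mul] at n5
  simp only [Complex.ofReal_mul _ (ψ' _), mul_assoc _ (ψ' _ : ℂ)]
  rw [e]
  refine (norm_sub_le _ _).trans ((add_le_add ((norm_sub_le _ _).trans (add_le_add n4 n3))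
    n5).trans ?_)
  nlinarith [mul_le_mul_of_nonneg_left v1 p2, mul_le_mul_of_nonneg_left v2 p1]

theorem vdc1 {a b lam : ℝ} {ψ ψ' : ℝ → ℝ} (hab : a ≤ b) (hl : 0 < lam)
    (hψ : ∀ x ∈ Icc a b, HasDerivAt ψ (ψ' x) x) (h1 : ∀ x ∈ Icc a b, ContDiffAt ℝ 1 ψ' x)
    (m : MonotoneOn ψ' (Icc a b) ∨ AntitoneOn ψ' (Icc a b))
    (hs : (∀ x ∈ Icc a b, lam ≤ ψ' x) ∨ ∀ x ∈ Icc a b, ψ' x ≤ -lam) :
    ‖∫ x in a..b, ex (ψ x)‖ ≤ 6 / lam := by
  have h0 : ∀ x ∈ Icc a b, lam ≤ |ψ' x| := fun x hx =>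
    hs.elim (fun h => (h x hx).trans (le_abs_self _)) fun h => by
      linarith [h x hx, neg_abs_le (ψ' x)]
  have h2 : ∀ x ∈ Icc a b, ψ' x ≠ 0 := fun x hx => abs_pos.1 (hl.trans_le (h0 x hx))
  have h3 : ∀ x ∈ Icc a b, ∀ y ∈ Icc a b, ψ' x ≤ ψ' y → (ψ' y)⁻¹ ≤ (ψ' x)⁻¹ :=
    fun x hx y hy h => hs.elim (fun k => inv_anti₀ (hl.trans_le (k x hx)) h) fun k =>
      (inv_le_inv_of_neg (by linarith [k y hy]) (by linarith [k x hx])).2 h
  have := vdc (H1 := fun x => (ψ' x)⁻¹) (H2 := fun _ => 1) (B1 := lam⁻¹) (B2 := 1) hab hψ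
    (fun x hx => (h1 x hx).continuousAt.continuousWithinAt)
    (fun x hx => (h1 x hx).inv (h2 x hx)) (fun _ _ => contDiffAt_const)
    (m.elim (fun m => Or.inr fun x hx y hy h => h3 x hx y hy (m hx hy h))
      fun m => Or.inl fun x hx y hy h => h3 y hy x hx (m hx hy h))
    (Or.inl monotoneOn_const) (fun x hx => by rw [abs_inv]; exact inv_anti₀ hl (h0 x hx))
    (fun _ _ => abs_one.le)
  rw [mul_one, ← div_eq_mul_inv] at this
  refine le_trans (le_of_eq (congrArg _ (intervalIntegral.integral_congr fun x hx => ?_))) this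
  rw [uIcc_of_le hab] at hx
  simp [h2 x hx]

theorem ord_int {S : Set ℝ} {A B : ℝ} (hS : S.OrdConnected) (hne : S.Nonempty)
    (hb : S ⊆ Icc A B) : ∃ a b, a ≤ b ∧ Icc a b ⊆ closure S ∧
      ∀ f : ℝ → ℂ, ∫ x in S, f x = ∫ x in a..b, f x := by
  have h1 : BddBelow S := bddBelow_Icc.mono hb
  have h2 : BddAbove S := bddAbove_Icc.mono hb
  have h3 := csInf_le_csSup hne h1 h2
  refine ⟨sInf S, sSup S, h3, hS.isPreconnected.closure.Icc_subset (csInf_mem_closure hne h1)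
    (csSup_mem_closure hne h2), fun f => ?_⟩
  rw [intervalIntegral.integral_of_le h3, ← integral_Icc_eq_integral_Ioc]
  exact setIntegral_congr_set ((subset_Icc_csInf_csSup h1 h2).eventuallyLE.antisymm
    (Ioo_ae_eq_Icc.symm.le.trans
      (IsConnected.Ioo_csInf_csSup_subset ⟨hne, hS.isPreconnected⟩ h1 h2).eventuallyLE))

end Vale.Agent.P122
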