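import Vale.Agent.P122.VdC
import Vale.Agent.P122.BesA
import Vale.Agent.P122.BesS

/-!
BesB: size of the Bessel integral.  Always `bJ_half` and `vdc1` with `ψ' θ = y * cos θ - k`, which is
antitone on `[0, π]` (`Real.antitoneOn_cos`).  `bJ_lt`: `ψ' ≤ -(k - y)`.
`bJ_tr` (`C = 88`): let `L ^ 3 = y`.  If `k < y` then `(y - k) y ≤ ww ^ 2` and `ww < 2 L ^ 2`, so
always `y - k ≤ 4 L`.  With `δ = 5 / L`: if `π ≤ δ` use `norm_bJ_le`; otherwise `[0, δ]` costs `δ`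
and on `[δ, π]` `ψ' ≤ 4 L - y (2 / π ^ 2) δ ^ 2 ≤ -L` (`Real.cos_quadratic_upper_bound`,
`Real.pi_lt_d2`), hence `‖bJ‖ * L ≤ 22`.  `bJ_far` (`C = 52`): `δ = 1 / √y`, split `[0, π]` at
`π / 2 - δ` and `π / 2 + δ`; `y * sin δ ≥ (2 / π) √y` (`Real.mul_le_sin`), `|k| ≤ √y / 10`
eventually, so `|ψ'| ≥ √y / 2` on the outer intervals.
-/

open MeasureTheory Set Real Filter
open scoped FourierTransform ENNReal ComplexConjugate Topology

namespace Vale.Agent.P122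

open Vale.Agent.P117 (Np pt rho)

theorem besb_seg (k y : ℝ) (hy : 0 ≤ y) {a b lam : ℝ} (h0 : 0 ≤ a) (hab : a ≤ b) (hb : b ≤ π)
    (hl : 0 < lam) (hs : lam ≤ y * cos b - k ∨ y * cos a - k ≤ -lam) :
    ‖∫ θ in a..b, ex (y * sin θ - k * θ)‖ ≤ 6 / lam := by
  have hm : AntitoneOn (fun θ => y * cos θ - k) (Icc a b) := fun s hs t ht hst => by
    have := Real.antitoneOn_cos ⟨h0.trans hs.1, hs.2.trans hb⟩ ⟨h0.trans ht.1, ht.2.trans hb⟩ hst
    show y * cos t - k ≤ y * cos s - k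
    gcongr
  refine vdc1 (ψ' := fun θ => y * cos θ - k) hab hl (fun x _ => ?_) (fun x _ => by fun_prop)
    (Or.inr hm) (hs.imp (fun h x hx => h.trans (hm hx ⟨hab, le_rfl⟩ hx.2))
      fun h x hx => (hm ⟨le_rfl, hab⟩ hx hx.1).trans h)
  exact HasDerivAt.congr_deriv
    (((Real.hasDerivAt_sin x).const_mul y).sub ((hasDerivAt_id x).const_mul k)) (by simp)

theorem besb_triv (k y : ℝ) {a b : ℝ} (hab : a ≤ b) :
    ‖∫ θ in a..b, ex (y * sin θ - k * θ)‖ ≤ b - a := by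
  have := intervalIntegral.norm_integral_le_of_norm_le_const (a := a) (b := b) (C := 1)
    (f := fun θ => ex (y * sin θ - k * θ)) fun x _ => (norm_ex _).le
  rwa [one_mul, abs_of_nonneg (by linarith)] at this

theorem besb_add (k y a b c : ℝ) : ‖∫ θ in a..c, ex (y * sin θ - k * θ)‖ ≤
    ‖∫ θ in a..b, ex (y * sin θ - k * θ)‖ + ‖∫ θ in b..c, ex (y * sin θ - k * θ)‖ := by
  have hc : Continuous fun θ => ex (y * sin θ - k * θ) := continuous_ex.comp (by fun_prop)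
  rw [← intervalIntegral.integral_add_adjacent_intervals (hc.intervalIntegrable a b)
    (hc.intervalIntegrable b c)]
  exact norm_add_le _ _

theorem besb_cube (k : ℕ) {L : ℝ} (hL : 0 < L) (h : L ^ 3 - k ≤ 4 * L) :
    ‖bJ k (L ^ 3)‖ * L ≤ 22 := by
  have hπ := Real.pi_gt_three
  by_cases h1 : π ≤ 5 / L
  · rw [le_div_iff₀ hL] at h1
    have := norm_bJ_le k (L ^ 3)
    have := norm_nonneg (bJ k (L ^ 3))
    nlinarith
  push Not at h1
  have h2 := bJ_half k (L ^ 3)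
  have h3 := besb_add k (L ^ 3) 0 (5 / L) π
  have h4 := besb_triv k (L ^ 3) (show 0 ≤ 5 / L by positivity)
  have h5 := besb_seg k (L ^ 3) (by positivity) (show 0 ≤ 5 / L by positivity) h1.le le_rfl hL
    (Or.inr (by
      have h6 := Real.cos_le_one_sub_mul_cos_sq (x := 5 / L)
        (by rw [abs_of_nonneg (by positivity)]; exact h1.le)
      have h7 : 1 / 5 ≤ 2 / π ^ 2 := by
        rw [div_le_div_iff₀ (by norm_num) (by positivity)]
        nlinarith [Real.pi_lt_d2]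
      have h8 : L ^ 3 * (5 / L) ^ 2 = 25 * L := by field_simp; norm_num
      have h9 : L ^ 3 * cos (5 / L) ≤ L ^ 3 * (1 - 1 / 5 * (5 / L) ^ 2) :=
        mul_le_mul_of_nonneg_left (h6.trans (by gcongr)) (by positivity)
      nlinarith))
  simp only [Int.cast_natCast] at h2
  have h6 : ‖bJ k (L ^ 3)‖ ≤ 22 / L := by
    have : 22 / L = 2 * (5 / L + 6 / L) := by ring
    linarith
  rwa [le_div_iff₀ hL] at h6

theorem bJ_lt (k : ℕ) {y : ℝ} (h0 : 0 ≤ y) (hy : y < k) : ‖bJ k y‖ * (k - y) ≤ 12 := by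
  have h1 := bJ_half k y
  have h2 := besb_seg k y h0 le_rfl Real.pi_pos.le le_rfl (sub_pos.2 hy) (Or.inr (by simp))
  simp only [Int.cast_natCast] at h1
  rw [← le_div_iff₀ (sub_pos.2 hy)]
  have : 12 / (k - y) = 2 * (6 / (k - y)) := by ring
  linarith

theorem bJ_tr : ∃ C : ℝ, ∀ (k : ℕ) (y : ℝ), 0 ≤ y → ¬ Reg k y →
    ‖bJ k y‖ ^ 3 * y ≤ C ^ 3 ∧ ‖bJ k y‖ * |y - k| ≤ C := by
  refine ⟨88, fun k y h0 hr => ?_⟩
  have hk : (0 : ℝ) ≤ k := Nat.cast_nonneg k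
  have hn := norm_nonneg (bJ k y)
  have hlt : y < k → ‖bJ k y‖ * |y - k| ≤ 88 := fun h => by
    rw [abs_of_neg (by linarith), neg_sub]
    linarith [bJ_lt k h0 h]
  rcases h0.eq_or_lt with rfl | hy
  · refine ⟨by norm_num, ?_⟩
    rcases hk.eq_or_lt with h | h
    · rw [← h]
      norm_num
    · exact hlt h
  obtain ⟨L, hL, rfl⟩ : ∃ L : ℝ, 0 < L ∧ y = L ^ 3 :=
    ⟨y ^ ((3 : ℕ) : ℝ)⁻¹, by positivity, (Real.rpow_inv_natCast_pow h0 (by norm_num)).symm⟩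
  have h4 : L ^ 3 - k ≤ 4 * L := by
    by_contra hc
    push Not at hc
    have h1 : (k : ℝ) < L ^ 3 := by linarith
    refine hr ⟨h1, ?_⟩
    have h2 : (2 * L ^ 2) ^ 2 ≤ (L ^ 3) ^ 2 - (k : ℝ) ^ 2 := by nlinarith
    have h3 : 2 * L ^ 2 ≤ ww k (L ^ 3) := Real.le_sqrt_of_sq_le h2
    calc 8 * (L ^ 3) ^ 2 = (2 * L ^ 2) ^ 3 := by ring
      _ ≤ _ := by gcongr
  have h5 := besb_cube k hL h4
  refine ⟨?_, ?_⟩
  · rw [← mul_pow]
    exact pow_le_pow_left₀ (by positivity) (by linarith) 3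
  · rcases lt_or_ge (L ^ 3) k with h | h
    · exact hlt h
    · rw [abs_of_nonneg (by linarith)]
      nlinarith

theorem bJ_far : ∃ C : ℝ, ∀ k : ℤ, ∀ᶠ y in atTop, ‖bJ k y‖ * √y ≤ C := by
  refine ⟨52, fun k => ?_⟩
  filter_upwards [Real.tendsto_sqrt_atTop.eventually_ge_atTop (10 * |(k : ℝ)| + 1),
    eventually_ge_atTop 0] with y hy h0
  have hπ := Real.pi_gt_three
  have hk := abs_nonneg (k : ℝ)
  obtain ⟨v, hv⟩ : ∃ v, v = √y := ⟨_, rfl⟩
  have hyv : y = v ^ 2 := by rw [hv, Real.sq_sqrt h0]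
  rw [← hv] at hy ⊢
  have hv0 : 0 < v := by linarith
  have hd0 : 0 < 1 / v := by positivity
  have hd1 : 1 / v ≤ 1 := by
    rw [div_le_one hv0]
    linarith
  have hs : 3 / 5 * v ≤ y * sin (1 / v) := by
    have h1 := Real.mul_le_sin hd0.le (by linarith)
    have h2 : 3 / 5 ≤ 2 / π := by
      rw [div_le_div_iff₀ (by norm_num) (by positivity)]
      linarith [Real.pi_lt_d2]
    calc 3 / 5 * v = y * (3 / 5 * (1 / v)) := by rw [hyv]; field_simp
      _ ≤ y * sin (1 / v) := mul_le_mul_of_nonneg_left (le_trans (by gcongr) h1) h0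
  have h1 := bJ_half k y
  have h2 := besb_add k y 0 (π / 2 - 1 / v) π
  have h3 := besb_add k y (π / 2 - 1 / v) (π / 2 + 1 / v) π
  have h4 := besb_triv k y (show π / 2 - 1 / v ≤ π / 2 + 1 / v by linarith)
  have h5 := besb_seg k y h0 (lam := v / 2) le_rfl (show 0 ≤ π / 2 - 1 / v by linarith)
    (by linarith) (by positivity) (Or.inl (by
      rw [Real.cos_pi_div_two_sub]
      linarith [le_abs_self (k : ℝ)]))
  have h6 := besb_seg k y h0 (lam := v / 2) (show 0 ≤ π / 2 + 1 / v by linarith)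
    (show π / 2 + 1 / v ≤ π by linarith) le_rfl (by positivity) (Or.inr (by
      rw [add_comm, Real.cos_add_pi_div_two]
      linarith [neg_abs_le (k : ℝ)]))
  rw [← le_div_iff₀ hv0]
  have e1 : 6 / (v / 2) = 12 * (1 / v) := by field_simp; norm_num
  have e2 : 52 / v = 52 * (1 / v) := by ring
  linarith

end Vale.Agent.P122
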