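import Vale.Agent.P122.Base

/-!
Gron: a Gronwall lemma.  Let `S` be the maximum of `E = ‖W1‖ + ‖W2‖` on `[a, Y]`
(`IsCompact.exists_isMaxOn`).  On `[x, Y]` compare `‖Wi t - Wi x‖` with `S / 2 * (Γ x - Γ t)`
(`image_norm_le_of_norm_deriv_right_le_deriv_boundary`).  At the maximum point this gives
`S ≤ E Y + S / 2`.
-/

open MeasureTheory Set Real Filter
open scoped FourierTransform ENNReal ComplexConjugate Topology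

namespace Vale.Agent.P122

open Vale.Agent.P117 (Np pt rho)

theorem gron_one {x Y S : ℝ} {W V : ℝ → ℂ} {Γ Γ' : ℝ → ℝ} (hx : x ≤ Y)
    (hW : ∀ t ∈ Icc x Y, HasDerivAt W (V t) t) (hΓ : ∀ t ∈ Icc x Y, HasDerivAt Γ (Γ' t) t)
    (h : ∀ t ∈ Icc x Y, ‖V t‖ ≤ S * -Γ' t) : ‖W x - W Y‖ ≤ S * (Γ x - Γ Y) := by
  have hf : ∀ t ∈ Icc x Y, HasDerivAt (fun t => W t - W x) (V t) t := fun t ht =>
    (hW t ht).sub_const _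
  have hB : ∀ t ∈ Icc x Y, HasDerivAt (fun t => S * (Γ x - Γ t)) (S * -Γ' t) t := fun t ht =>
    ((hΓ t ht).const_sub _).const_mul S
  rw [norm_sub_rev]
  exact image_norm_le_of_norm_deriv_right_le_deriv_boundary'
    (f := fun t => W t - W x) (B := fun t => S * (Γ x - Γ t))
    (fun t ht => (hf t ht).continuousAt.continuousWithinAt)
    (fun t ht => (hf t (Ico_subset_Icc_self ht)).hasDerivWithinAt) (by simp)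
    (fun t ht => (hB t ht).continuousAt.continuousWithinAt)
    (fun t ht => (hB t (Ico_subset_Icc_self ht)).hasDerivWithinAt)
    (fun t ht => h t (Ico_subset_Icc_self ht)) (right_mem_Icc.2 hx)

theorem gron {a Y : ℝ} {W1 W2 V1 V2 : ℝ → ℂ} {Γ Γ' : ℝ → ℝ}
    (hW1 : ∀ x ∈ Icc a Y, HasDerivAt W1 (V1 x) x) (hW2 : ∀ x ∈ Icc a Y, HasDerivAt W2 (V2 x) x)
    (hΓ : ∀ x ∈ Icc a Y, HasDerivAt Γ (Γ' x) x)
    (h0 : ∀ x ∈ Icc a Y, 0 ≤ Γ x ∧ Γ x ≤ 1 / 2 ∧ Γ' x ≤ 0)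
    (h1 : ∀ x ∈ Icc a Y, ‖V1 x‖ ≤ -Γ' x * (‖W1 x‖ + ‖W2 x‖) / 2)
    (h2 : ∀ x ∈ Icc a Y, ‖V2 x‖ ≤ -Γ' x * (‖W1 x‖ + ‖W2 x‖) / 2) :
    ∀ x ∈ Icc a Y, ‖W1 x - W1 Y‖ ≤ Γ x * (‖W1 Y‖ + ‖W2 Y‖) ∧
      ‖W2 x - W2 Y‖ ≤ Γ x * (‖W1 Y‖ + ‖W2 Y‖) := by
  intro x hx
  have hY : Y ∈ Icc a Y := right_mem_Icc.2 (hx.1.trans hx.2)
  obtain ⟨m, hm, hmax⟩ := isCompact_Icc.exists_isMaxOn ⟨x, hx⟩
    (f := fun t => ‖W1 t‖ + ‖W2 t‖) fun t ht =>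
      ((hW1 t ht).continuousAt.norm.add (hW2 t ht).continuousAt.norm).continuousWithinAt
  have hS : 0 ≤ (‖W1 m‖ + ‖W2 m‖) / 2 := by positivity
  have key : ∀ {W V : ℝ → ℂ}, (∀ t ∈ Icc a Y, HasDerivAt W (V t) t) →
      (∀ t ∈ Icc a Y, ‖V t‖ ≤ -Γ' t * (‖W1 t‖ + ‖W2 t‖) / 2) → ∀ t ∈ Icc a Y,
      ‖W t - W Y‖ ≤ (‖W1 m‖ + ‖W2 m‖) / 2 * Γ t := fun {W V} hW h t ht => by
    have hs : Icc t Y ⊆ Icc a Y := Icc_subset_Icc_left ht.1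
    refine (gron_one (S := (‖W1 m‖ + ‖W2 m‖) / 2) ht.2 (fun u hu => hW u (hs hu))
      (fun u hu => hΓ u (hs hu)) fun u hu => (h u (hs hu)).trans ?_).trans
      (mul_le_mul_of_nonneg_left (sub_le_self _ (h0 Y hY).1) hS)
    have h3 : ‖W1 u‖ + ‖W2 u‖ ≤ ‖W1 m‖ + ‖W2 m‖ := hmax (hs hu)
    have h4 := (h0 u (hs hu)).2.2
    nlinarith
  have h3 : (‖W1 m‖ + ‖W2 m‖) / 2 ≤ ‖W1 Y‖ + ‖W2 Y‖ := by
    have k1 := (norm_sub_norm_le _ _).trans (key hW1 h1 m hm)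
    have k2 := (norm_sub_norm_le _ _).trans (key hW2 h2 m hm)
    have k3 := mul_le_mul_of_nonneg_left (h0 m hm).2.1 hS
    linarith
  have h4 := mul_le_mul_of_nonneg_right h3 (h0 x hx).1
  rw [mul_comm (Γ x)]
  exact ⟨(key hW1 h1 x hx).trans h4, (key hW2 h2 x hx).trans h4⟩

end Vale.Agent.P122
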