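import Vale.Agent.P122.Op

/-!
IntA: level sets.  `g 0 = g` where `‖g‖ ≤ 1`, `g (j + 1) = g` where `2 ^ j < ‖g‖ ≤ 2 ^ (j + 1)`;
`Dat (g j / 2 ^ j) (E j)` with `E 0 = Icc 0 1`, `E (j + 1) = {2 ^ j < ‖g‖}`,
`volume (E j) ≤ ofReal (2 ^ p * (2 ^ (-p)) ^ j)` (`P117.marc_cheb` type bound, `mul_meas_ge_le_lintegral`).
`g` is integrable (`‖g‖ ≤ 1 + ‖g‖ ^ p` on `[0, 1]`), `TT κ g z = ∑' j, TT κ (g j) z`
(`TT_eq`, `hasSum_integral_of_summable_norm` or `tendsto_integral_of_dominated_convergence` for the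
partial sums).  With `θ = 2 ^ (-(p - q) / (2 q)) < 1`: `‖∑' a j‖ₑ ≤ (∑' θ ^ j) * ⨆ j, ‖a j‖ₑ / θ ^ j`,
so `‖∑' a j‖ₑ ^ q ≤ (∑' θ ^ j) ^ q * ∑' (‖a j‖ₑ / θ ^ j) ^ q`; geometric series with ratio
`2 ^ (-(p - q) / 2)`.
-/

open MeasureTheory Set Real Filter
open scoped FourierTransform ENNReal ComplexConjugate Topology

namespace Vale.Agent.P122

open Vale.Agent.P117 (Np pt rho)

theorem inta_add (x y : ℝ) : (2 : ℝ≥0∞) ^ (x + y) = 2 ^ x * 2 ^ y :=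
  ENNReal.rpow_add x y (by simp) (by simp)

theorem inta_pow (x : ℝ) (j : ℕ) : ((2 : ℝ≥0∞) ^ x) ^ j = 2 ^ (x * j) := by
  rw [← ENNReal.rpow_natCast, ← ENNReal.rpow_mul]

theorem inta_geo {x : ℝ} (hx : x < 0) : ∑' j : ℕ, ((2 : ℝ≥0∞) ^ x) ^ j ≠ ⊤ := by
  rw [ENNReal.tsum_geometric]
  exact ENNReal.inv_ne_top.2 (tsub_pos_iff_lt.2
    (ENNReal.rpow_lt_one_of_one_lt_of_neg (by norm_num) hx)).ne'

theorem inta_sum (θ b : ℕ → ℝ≥0∞) {q : ℝ} (hq : 0 < q) :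
    (∑' j, θ j * b j) ^ q ≤ (∑' j, θ j) ^ q * ∑' j, b j ^ q := by
  have h1 : ∀ j, b j ≤ (∑' j, b j ^ q) ^ q⁻¹ := fun j => by
    rw [ENNReal.le_rpow_inv_iff hq]
    exact ENNReal.le_tsum (f := fun j => b j ^ q) j
  have h2 : ∑' j, θ j * b j ≤ (∑' j, θ j) * (∑' j, b j ^ q) ^ q⁻¹ := by
    rw [← ENNReal.tsum_mul_right]
    exact ENNReal.tsum_le_tsum fun j => mul_le_mul_right (h1 j) _
  refine (ENNReal.rpow_le_rpow h2 hq.le).trans (le_of_eq ?_)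
  rw [ENNReal.mul_rpow_of_nonneg _ _ hq.le, ENNReal.rpow_inv_rpow hq.ne']

/-- The level sets. -/
def inta_D (g : ℝ → ℂ) : ℕ → Set ℝ := disjointed fun j : ℕ => {s | ‖g s‖ ≤ 2 ^ j}

/-- The normalised pieces. -/
noncomputable def inta_g (g : ℝ → ℂ) (j : ℕ) : ℝ → ℂ := (inta_D g j).indicator fun s => g s / 2 ^ j

theorem inta_meas {g : ℝ → ℂ} (hg : Measurable g) (j : ℕ) : MeasurableSet (inta_D g j) :=
  MeasurableSet.disjointed (fun _ => measurableSet_le hg.norm measurable_const) j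

theorem inta_dat {g : ℝ → ℂ} (hg : Measurable g) (h0 : ∀ s, s ∉ Icc (0 : ℝ) 1 → g s = 0) (j : ℕ) :
    Dat (inta_g g j) (Icc 0 1 ∩ inta_D g j) := by
  refine ⟨(hg.div_const _).indicator (inta_meas hg j), measurableSet_Icc.inter (inta_meas hg j),
    inter_subset_left, fun s => ?_, fun s hs => ?_⟩
  · by_cases h : s ∈ inta_D g j
    · have h1 : ‖g s‖ ≤ 2 ^ j := disjointed_subset (fun j : ℕ => {s | ‖g s‖ ≤ 2 ^ j}) j h
      rw [inta_g, indicator_of_mem h, norm_div, norm_pow, Complex.norm_two,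
        div_le_one (by positivity)]
      exact h1
    · rw [inta_g, indicator_of_notMem h, norm_zero]
      exact zero_le_one
  · by_cases h : s ∈ inta_D g j
    · rw [inta_g, indicator_of_mem h, h0 s fun h' => hs ⟨h', h⟩, zero_div]
    · rw [inta_g, indicator_of_notMem h]

theorem inta_vol {g : ℝ → ℂ} (hg : Measurable g) {p : ℝ} (hp : 0 ≤ p) (h1 : Np volume p g ≤ 1)
    (j : ℕ) : volume (Icc 0 1 ∩ inta_D g j) ≤ (2 : ℝ≥0∞) ^ (p - p * j) := by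
  rcases j with _ | j
  · refine (measure_mono inter_subset_left).trans ?_
    rw [Real.volume_Icc, sub_zero, ENNReal.ofReal_one, Nat.cast_zero, mul_zero, sub_zero]
    simpa using ENNReal.rpow_le_rpow_of_exponent_le (x := 2) (by norm_num) hp
  · have hs : Icc 0 1 ∩ inta_D g (j + 1) ⊆ {s | (2 : ℝ≥0∞) ^ (p * j) ≤ ‖g s‖ₑ ^ p} := by
      intro s hs
      have h2 := hs.2
      rw [inta_D, disjointed_eq_inter_compl] at h2
      have h3 : ¬‖g s‖ ≤ 2 ^ j := mem_iInter₂.1 h2.2 j (Nat.lt_succ_self j)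
      show (2 : ℝ≥0∞) ^ (p * j) ≤ ‖g s‖ₑ ^ p
      rw [mul_comm, ENNReal.rpow_mul, ENNReal.rpow_natCast]
      refine ENNReal.rpow_le_rpow ?_ hp
      rw [← ofReal_norm]
      refine le_trans (le_of_eq ?_) (ENNReal.ofReal_le_ofReal (not_le.1 h3).le)
      rw [ENNReal.ofReal_pow (by norm_num), ENNReal.ofReal_ofNat]
    have h4 := (mul_meas_ge_le_lintegral (μ := volume) (hg.enorm.pow_const p)
      ((2 : ℝ≥0∞) ^ (p * j))).trans h1
    have h5 := mul_le_mul_right h4 ((2 : ℝ≥0∞) ^ (-(p * j)))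
    rw [← mul_assoc, ← inta_add, neg_add_cancel, ENNReal.rpow_zero, one_mul, mul_one] at h5
    refine ((measure_mono hs).trans h5).trans (le_of_eq ?_)
    congr 1
    push_cast
    ring

theorem inta_int {g : ℝ → ℂ} (hg : Measurable g) (h0 : ∀ s, s ∉ Icc (0 : ℝ) 1 → g s = 0) {p : ℝ}
    (hp : 1 ≤ p) (h1 : Np volume p g ≤ 1) : Integrable g := by
  refine ⟨hg.aestronglyMeasurable, ?_⟩
  have h2 : ∀ s, ‖g s‖ₑ ≤ (Icc (0 : ℝ) 1).indicator 1 s + ‖g s‖ₑ ^ p := fun s => by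
    by_cases h : s ∈ Icc (0 : ℝ) 1
    · rw [indicator_of_mem h, Pi.one_apply]
      rcases le_total ‖g s‖ₑ 1 with k | k
      · exact k.trans le_self_add
      · exact (ENNReal.le_rpow_self_of_one_le k hp).trans le_add_self
    · rw [h0 s h, enorm_zero]
      exact bot_le
  refine (lintegral_mono h2).trans_lt ?_
  rw [lintegral_add_left (measurable_one.indicator measurableSet_Icc),
    lintegral_indicator_one measurableSet_Icc]
  exact ENNReal.add_lt_top.2 ⟨measure_Icc_lt_top, h1.trans_lt ENNReal.one_lt_top⟩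

theorem inta_le {κ : ℝ → ℝ → ℂ} (hκ : Kr κ) {g : ℝ → ℂ} (hg : Measurable g) (hi : Integrable g)
    (z : ℝ × ℝ) : ‖TT κ g z‖ₑ ≤ ∑' j : ℕ, 2 ^ j * ‖TT κ (inta_g g j) z‖ₑ := by
  have hF : Integrable fun s => ex (2 * π * (s * z.2)) * (κ z.1 s * g s) := by
    refine (hκ.int hi z.1).mono ?_ (Eventually.of_forall fun s => ?_)
    · exact (continuous_ex.comp (by fun_prop)).aestronglyMeasurable.mul
        (hκ.int hi z.1).aestronglyMeasurable
    · rw [norm_mul, norm_ex, one_mul]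
  have hU : ⋃ j, inta_D g j = univ := by
    rw [inta_D, iUnion_disjointed]
    refine eq_univ_of_forall fun s => ?_
    obtain ⟨j, hj⟩ := pow_unbounded_of_one_lt ‖g s‖ (one_lt_two (α := ℝ))
    exact mem_iUnion.2 ⟨j, hj.le⟩
  have h1 := hasSum_integral_iUnion (inta_meas hg) (disjoint_disjointed _)
    (hF.integrableOn (s := ⋃ j, inta_D g j))
  rw [hU, Measure.restrict_univ, ← TT_eq] at h1
  rw [← h1.tsum_eq]
  refine enorm_tsum_le_tsum_enorm.trans (ENNReal.tsum_le_tsum fun j => le_of_eq ?_)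
  have h2 : ∫ s in inta_D g j, ex (2 * π * (s * z.2)) * (κ z.1 s * g s) =
      2 ^ j * TT κ (inta_g g j) z := by
    rw [TT_eq, ← integral_const_mul, ← integral_indicator (inta_meas hg j)]
    refine integral_congr_ae (Eventually.of_forall fun s => ?_)
    by_cases h : s ∈ inta_D g j
    · simp only [inta_g, indicator_of_mem h]
      field_simp
    · simp only [inta_g, indicator_of_notMem h, mul_zero]
  have h3 : ‖(2 : ℂ)‖ₑ = 2 := by
    rw [← ofReal_norm, Complex.norm_two, ENNReal.ofReal_ofNat]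
  rw [h2, enorm_mul, enorm_pow, h3]

theorem interp_one {q p : ℝ} (C0 : ℝ) (hq : 0 < q) (hp : q < p) (hp1 : 1 ≤ p) : ∃ C : ℝ,
    ∀ (κ : ℝ → ℝ → ℂ) (w : ℝ × ℝ → ℝ≥0∞), Measurable w → Kr κ →
      (∀ g E, Dat g E → ∫⁻ z, w z * ‖TT κ g z‖ₑ ^ q ≤ ENNReal.ofReal C0 * volume E) →
      ∀ g : ℝ → ℂ, Measurable g → (∀ s, s ∉ Icc (0 : ℝ) 1 → g s = 0) → Np volume p g ≤ 1 →
        ∫⁻ z, w z * ‖TT κ g z‖ₑ ^ q ≤ ENNReal.ofReal C := by
  have hc : -((p - q) / (2 * q)) < 0 := neg_lt_zero.2 (div_pos (sub_pos.2 hp) (by positivity))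
  have hd : -((p - q) / 2) < 0 := by linarith
  have hK : (∑' j : ℕ, ((2 : ℝ≥0∞) ^ (-((p - q) / (2 * q)))) ^ j) ^ q *
      ((ENNReal.ofReal C0 * 2 ^ p) * ∑' j : ℕ, ((2 : ℝ≥0∞) ^ (-((p - q) / 2))) ^ j) ≠ ⊤ :=
    ENNReal.mul_ne_top (ENNReal.rpow_ne_top_of_nonneg hq.le (inta_geo hc))
      (ENNReal.mul_ne_top (ENNReal.mul_ne_top ENNReal.ofReal_ne_top
        (ENNReal.rpow_ne_top_of_nonneg (by linarith) (by simp))) (inta_geo hd))
  refine ⟨_, fun κ w hw hκ H g hg h0 h1 => le_trans ?_ (ENNReal.ofReal_toReal hK).ge⟩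
  have hi := inta_int hg h0 hp1 h1
  have hm : ∀ j, Measurable fun z => w z * ‖TT κ (inta_g g j) z‖ₑ ^ q := fun j =>
    hw.mul ((measurable_TT hκ.meas (inta_dat hg h0 j).meas).enorm.pow_const q)
  have hpt : ∀ z, w z * ‖TT κ g z‖ₑ ^ q ≤
      (∑' j : ℕ, ((2 : ℝ≥0∞) ^ (-((p - q) / (2 * q)))) ^ j) ^ q *
        ∑' j : ℕ, (2 : ℝ≥0∞) ^ ((p + q) / 2 * j) * (w z * ‖TT κ (inta_g g j) z‖ₑ ^ q) := by
    intro z
    have e1 : ∀ j : ℕ, (2 : ℝ≥0∞) ^ j * ‖TT κ (inta_g g j) z‖ₑ =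
        ((2 : ℝ≥0∞) ^ (-((p - q) / (2 * q)))) ^ j *
          ((2 : ℝ≥0∞) ^ ((p + q) / (2 * q) * j) * ‖TT κ (inta_g g j) z‖ₑ) := fun j => by
      rw [inta_pow, ← mul_assoc, ← inta_add, ← ENNReal.rpow_natCast]
      congr 2
      field_simp
      ring
    have e2 : ∀ j : ℕ, ((2 : ℝ≥0∞) ^ ((p + q) / (2 * q) * j) * ‖TT κ (inta_g g j) z‖ₑ) ^ q =
        (2 : ℝ≥0∞) ^ ((p + q) / 2 * j) * ‖TT κ (inta_g g j) z‖ₑ ^ q := fun j => by
      rw [ENNReal.mul_rpow_of_nonneg _ _ hq.le, ← ENNReal.rpow_mul]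
      congr 2
      field_simp
    have k1 := inta_le hκ hg hi z
    simp only [e1] at k1
    have k2 := (ENNReal.rpow_le_rpow k1 hq.le).trans (inta_sum _ _ hq)
    simp only [e2] at k2
    refine (mul_le_mul_right k2 (w z)).trans (le_of_eq ?_)
    rw [mul_left_comm, ← ENNReal.tsum_mul_left]
    congr 1
    exact tsum_congr fun j => mul_left_comm _ _ _
  refine (lintegral_mono hpt).trans ?_
  rw [lintegral_const_mul' _ _ (ENNReal.rpow_ne_top_of_nonneg hq.le (inta_geo hc)),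
    lintegral_tsum fun j => ((hm j).const_mul _).aemeasurable]
  refine mul_le_mul_right ?_ _
  rw [← ENNReal.tsum_mul_left]
  refine ENNReal.tsum_le_tsum fun j => ?_
  rw [lintegral_const_mul _ (hm j)]
  refine (mul_le_mul_right ((H _ _ (inta_dat hg h0 j)).trans
    (mul_le_mul_right (inta_vol hg (by linarith) h1 j) _)) _).trans (le_of_eq ?_)
  rw [mul_left_comm, mul_assoc, inta_pow, ← inta_add, ← inta_add]
  congr 2
  ring

end Vale.Agent.P122
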