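import Vale.Agent.P122.Shell

/-!
Restr: the restricted estimate.  For `k ≥ 0`: pointwise in `z`, `ofReal z.1 * ‖TT (kJ k) g z‖ₑ ^ p` is
at most `‖TT κ0 g z‖ₑ ^ p + ∑' n, ofReal (2 * 2 ^ n) * ‖TT (κ n) g z‖ₑ ^ p` with the kernels of
`piece_zero` and `shell` (cases `z.1 ≤ 0`, `z.1 < 1`, `exists_nat_pow_near`; the functions of `s`
under `𝓕⁻` are equal, use `Dat.van`, `Dat.sub`, `ENNReal.le_tsum`).  `lintegral_tsum`,
`measurable_TT`, `ENNReal.ofReal_tsum_of_nonneg`, `summable_pow_mul_geometric_of_norm_lt_one` with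
ratio `2 ^ (-(p - 3) / 2)`.  For `k < 0` use `bJ_neg` and `P117.inv_const_mul`.
-/

open MeasureTheory Set Real Filter
open scoped FourierTransform ENNReal ComplexConjugate Topology

namespace Vale.Agent.P122

open Vale.Agent.P117 (Np pt rho)

theorem restr_TT {k : ℤ} {g : ℝ → ℂ} {E : Set ℝ} (hg : Dat g E) {A B : ℝ} {z : ℝ × ℝ}
    (hA : A ≤ z.1) (hB : z.1 < B) : TT (kJ k) g z = TT (kn (bJ k) A B (-1) 1) g z := by
  have e : (fun s => kJ k z.1 s * g s) = fun s => kn (bJ k) A B (-1) 1 z.1 s * g s := by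
    funext s
    by_cases hs : s ∈ E
    · have h1 := hg.sub hs
      rw [kn, if_pos ⟨hA, hB, by linarith [h1.1], h1.2⟩, kJ]
    · rw [hg.van s hs, mul_zero, mul_zero]
  rw [TT, TT, e]

theorem restr_pt {p : ℝ} (k : ℤ) {g : ℝ → ℂ} {E : Set ℝ} (hg : Dat g E) (z : ℝ × ℝ) :
    ENNReal.ofReal z.1 * ‖TT (kJ k) g z‖ₑ ^ p ≤ ‖TT (kn (bJ k) 0 1 (-1) 1) g z‖ₑ ^ p +
      ∑' n : ℕ, ENNReal.ofReal (2 * 2 ^ n) *
        ‖TT (kn (bJ k) (2 ^ n) (2 * 2 ^ n) (-1) 1) g z‖ₑ ^ p := by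
  rcases le_or_gt z.1 0 with h0 | h0
  · rw [ENNReal.ofReal_eq_zero.2 h0, zero_mul]
    exact zero_le
  rcases lt_or_ge z.1 1 with h1 | h1
  · refine le_add_right ?_
    rw [← restr_TT hg h0.le h1]
    exact mul_le_of_le_one_left' (ENNReal.ofReal_le_one.2 h1.le)
  · obtain ⟨n, h2, h3⟩ := exists_nat_pow_near h1 (one_lt_two (α := ℝ))
    rw [pow_succ, mul_comm] at h3
    refine le_add_left (le_trans ?_ (ENNReal.le_tsum n))
    rw [← restr_TT hg h2 h3]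
    exact mul_le_mul_left (ENNReal.ofReal_le_ofReal h3.le) _

theorem restr_summable {p : ℝ} (h3 : 3 < p) (C : ℝ) : Summable fun n : ℕ =>
    2 * 2 ^ n * (C * ((n : ℝ) + 1) ^ 5 * ((2 : ℝ) ^ n) ^ (-((p - 1) / 2))) := by
  obtain ⟨q, hq⟩ : ∃ q : ℝ, q = 2 * (2 : ℝ) ^ (-((p - 1) / 2)) := ⟨_, rfl⟩
  have h0 : 0 < q := by rw [hq]; positivity
  have h1 : q < 1 := by
    have e : q = (2 : ℝ) ^ (1 + -((p - 1) / 2)) := by
      rw [hq, Real.rpow_add two_pos, Real.rpow_one]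
    rw [e]
    exact Real.rpow_lt_one_of_one_lt_of_neg one_lt_two (by linarith)
  have h2 := (summable_nat_add_iff 1).2 (summable_pow_mul_geometric_of_norm_lt_one 5
    (r := q) (by rwa [Real.norm_eq_abs, abs_of_pos h0]))
  refine (h2.mul_left (2 * C / q)).congr fun n => ?_
  have e : q ^ n = 2 ^ n * ((2 : ℝ) ^ n) ^ (-((p - 1) / 2)) := by
    rw [hq, mul_pow, ← Real.rpow_natCast ((2 : ℝ) ^ (-((p - 1) / 2))), ← Real.rpow_mul two_pos.le,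
      mul_comm (-((p - 1) / 2)), Real.rpow_mul two_pos.le, Real.rpow_natCast]
  rw [pow_succ q, e]
  push_cast
  field_simp

theorem restr_nat {p : ℝ} (h3 : 3 < p) (h4 : p < 4) : ∃ C : ℝ, ∀ (k : ℕ) (g : ℝ → ℂ) (E : Set ℝ),
    Dat g E → ∫⁻ z, ENNReal.ofReal z.1 * ‖TT (kJ k) g z‖ₑ ^ p ≤ ENNReal.ofReal C * volume E := by
  obtain ⟨C, hC, hs⟩ := shell h3 h4
  have hb : ∀ n : ℕ, 0 ≤ 2 * 2 ^ n * (C * ((n : ℝ) + 1) ^ 5 * ((2 : ℝ) ^ n) ^ (-((p - 1) / 2))) :=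
    fun n => by positivity
  refine ⟨7 ^ p + ∑' n : ℕ,
    2 * 2 ^ n * (C * ((n : ℝ) + 1) ^ 5 * ((2 : ℝ) ^ n) ^ (-((p - 1) / 2))), fun k g E hg => ?_⟩
  have hm : ∀ A B : ℝ, Measurable fun z => ‖TT (kn (bJ k) A B (-1) 1) g z‖ₑ ^ p := fun A B =>
    (measurable_TT (kr_knJ k A B (-1) 1).meas hg.meas).enorm.pow_const p
  refine (lintegral_mono fun z => restr_pt k hg z).trans ?_
  rw [lintegral_add_left (hm 0 1), lintegral_tsum fun n => ((hm _ _).const_mul _).aemeasurable,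
    ENNReal.ofReal_add (by positivity) (tsum_nonneg hb), add_mul,
    ENNReal.ofReal_tsum_of_nonneg hb (restr_summable h3 C), ← ENNReal.tsum_mul_right]
  refine add_le_add (piece_zero h3 k g E hg) (ENNReal.tsum_le_tsum fun n => ?_)
  rw [lintegral_const_mul _ (hm _ _), ENNReal.ofReal_mul (p := 2 * 2 ^ n) (by positivity),
    mul_assoc]
  exact mul_le_mul_right (hs k n g E hg) _

theorem restricted {p : ℝ} (h3 : 3 < p) (h4 : p < 4) : ∃ C : ℝ, ∀ (k : ℤ) (g : ℝ → ℂ) (E : Set ℝ),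
    Dat g E → ∫⁻ z, ENNReal.ofReal z.1 * ‖TT (kJ k) g z‖ₑ ^ p ≤ ENNReal.ofReal C * volume E :=by
  obtain ⟨C, hC⟩ := restr_nat h3 h4
  refine ⟨C, fun k g E hg => ?_⟩
  obtain ⟨n, rfl | rfl⟩ := Int.eq_nat_or_neg k
  · exact hC n g E hg
  · obtain ⟨c, hc, h⟩ := bJ_neg (n : ℤ)
    refine le_of_eq_of_le (lintegral_congr fun z => ?_) (hC n g E hg)
    have e : TT (kJ (-(n : ℤ))) g z = c * TT (kJ n) g z := by
      rw [TT, TT, ← Vale.Agent.P117.inv_const_mul]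
      simp only [kJ, h, mul_assoc]
    rw [e, enorm_mul, ← ofReal_norm c, hc, ENNReal.ofReal_one, one_mul]

end Vale.Agent.P122
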