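import Vale.Agent.P122.IntA
import Vale.Agent.P122.Restr
import Vale.Agent.P122.BesA

/-!
IntB: the strong estimate.  `interp`: if `Np volume p g ≤ 1` then `∫⁻ ‖g‖ₑ ≤ 2`, so `‖TT κ g z‖ ≤ 2 B`
and `x ^ p = x ^ (p - q) * x ^ q`.  Homogeneity: cases `Np g = ⊤` (`0 < C`), `Np g = 0` (`g = 0` a.e.,
`TT κ g = 0`), otherwise divide `g` by `(Np g).toReal ^ (1 / p)` (`P117.inv_const_mul`,
`P117.Np_const_mul`).  `core`: `q = min ((p + 3) / 2) (7 / 2)`, `restricted`, `B = 7`.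
-/

open MeasureTheory Set Real Filter
open scoped FourierTransform ENNReal ComplexConjugate Topology

namespace Vale.Agent.P122

open Vale.Agent.P117 (Np pt rho)

theorem intb_sup {κ : ℝ → ℝ → ℂ} {B p : ℝ} (hB : ∀ r s, ‖κ r s‖ ≤ B) {g : ℝ → ℂ}
    (h0 : ∀ s, s ∉ Icc (0 : ℝ) 1 → g s = 0) (hp : 1 ≤ p) (h1 : Np volume p g ≤ 1) (z : ℝ × ℝ) :
    ‖TT κ g z‖ₑ ≤ ENNReal.ofReal B * 2 := by
  have h2 : ∀ s, ‖g s‖ₑ ≤ (Icc (0 : ℝ) 1).indicator 1 s + ‖g s‖ₑ ^ p := fun s => by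
    by_cases h : s ∈ Icc (0 : ℝ) 1
    · rw [indicator_of_mem h, Pi.one_apply]
      rcases le_total ‖g s‖ₑ 1 with k | k
      · exact k.trans le_self_add
      · exact (ENNReal.le_rpow_self_of_one_le k hp).trans le_add_self
    · rw [h0 s h, enorm_zero]
      exact bot_le
  have h3 : ∫⁻ s, ‖g s‖ₑ ≤ 2 := by
    refine (lintegral_mono h2).trans ?_
    rw [lintegral_add_left (measurable_one.indicator measurableSet_Icc),
      lintegral_indicator_one measurableSet_Icc, Real.volume_Icc, sub_zero, ENNReal.ofReal_one,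
      ← one_add_one_eq_two]
    exact add_le_add le_rfl h1
  rw [TT_eq]
  refine (enorm_integral_le_lintegral_enorm _).trans (le_trans (lintegral_mono
    (g := fun s => ENNReal.ofReal B * ‖g s‖ₑ) fun s => ?_) ?_)
  · simp only [enorm_mul]
    rw [← ofReal_norm_eq_enorm (ex _), norm_ex, ENNReal.ofReal_one, one_mul,
      ← ofReal_norm_eq_enorm (κ _ _)]
    exact mul_le_mul_left (ENNReal.ofReal_le_ofReal (hB _ _)) _
  · rw [lintegral_const_mul' _ _ ENNReal.ofReal_ne_top]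
    exact mul_le_mul_right h3 _

theorem intb_mul (κ : ℝ → ℝ → ℂ) (c : ℂ) (g : ℝ → ℂ) (z : ℝ × ℝ) :
    TT κ (fun s => c * g s) z = c * TT κ g z := by
  unfold TT
  rw [← P117.inv_const_mul]
  simp only [mul_left_comm c]

theorem interp {q p : ℝ} (B C0 : ℝ) (hq : 0 < q) (hp : q < p) (hp1 : 1 ≤ p) : ∃ C : ℝ, 0 < C ∧
    ∀ (κ : ℝ → ℝ → ℂ) (w : ℝ × ℝ → ℝ≥0∞), Measurable w → Measurable (Function.uncurry κ) →
      (∀ r s, ‖κ r s‖ ≤ B) →
      (∀ g E, Dat g E → ∫⁻ z, w z * ‖TT κ g z‖ₑ ^ q ≤ ENNReal.ofReal C0 * volume E) →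
      ∀ g : ℝ → ℂ, Measurable g → (∀ s, s ∉ Icc (0 : ℝ) 1 → g s = 0) →
        ∫⁻ z, w z * ‖TT κ g z‖ₑ ^ p ≤ ENNReal.ofReal C * Np volume p g := by
  obtain ⟨C1, h1⟩ := interp_one C0 hq hp hp1
  have hp0 : 0 < p := by linarith
  have hM : (ENNReal.ofReal B * 2) ^ (p - q) ≠ ⊤ :=
    ENNReal.rpow_ne_top_of_nonneg (by linarith)
      (ENNReal.mul_ne_top ENNReal.ofReal_ne_top ENNReal.ofNat_ne_top)
  set M := (ENNReal.ofReal B * 2) ^ (p - q) with hM'
  have hK : M * ENNReal.ofReal C1 ≠ ⊤ := ENNReal.mul_ne_top hM ENNReal.ofReal_ne_top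
  have hC : 0 < (M * ENNReal.ofReal C1).toReal + 1 := by positivity
  refine ⟨_, hC, fun κ w hw hκ hB h g hg h0 => ?_⟩
  have key : ∀ g : ℝ → ℂ, Measurable g → (∀ s, s ∉ Icc (0 : ℝ) 1 → g s = 0) →
      Np volume p g ≤ 1 → ∫⁻ z, w z * ‖TT κ g z‖ₑ ^ p ≤
        ENNReal.ofReal ((M * ENNReal.ofReal C1).toReal + 1) := fun g hg h0 hn => by
    calc _ ≤ ∫⁻ z, M * (w z * ‖TT κ g z‖ₑ ^ q) := lintegral_mono fun z => by
          have e : ‖TT κ g z‖ₑ ^ p = ‖TT κ g z‖ₑ ^ (p - q) * ‖TT κ g z‖ₑ ^ q := by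
            rw [← ENNReal.rpow_add_of_nonneg _ _ (by linarith) hq.le, sub_add_cancel]
          rw [e, mul_left_comm]
          exact mul_le_mul_left
            (ENNReal.rpow_le_rpow (intb_sup hB h0 hp1 hn z) (by linarith)) _
      _ ≤ M * ENNReal.ofReal C1 := by
          rw [lintegral_const_mul' _ _ hM]
          exact mul_le_mul_right (h1 κ w hw ⟨hκ, B, hB⟩ h g hg h0 hn) _
      _ ≤ _ := by
          conv_lhs => rw [← ENNReal.ofReal_toReal hK]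
          exact ENNReal.ofReal_le_ofReal (le_add_of_nonneg_right zero_le_one)
  by_cases hT : Np volume p g = ⊤
  · rw [hT, ENNReal.mul_top (ENNReal.ofReal_pos.2 hC).ne']
    exact le_top
  by_cases hZ : Np volume p g = 0
  · have a1 := (lintegral_eq_zero_iff (hg.enorm.pow_const p)).1 hZ
    have a2 : ∀ z, TT κ g z = 0 := fun z => by
      rw [TT_eq]
      refine (integral_congr_ae (a1.mono fun s hs => ?_)).trans (integral_zero ℝ ℂ)
      have a3 : g s = 0 := by simpa [hp0, hp0.not_gt] using hs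
      simp [a3]
    simp [a2, hp0]
  set N := Np volume p g with hN
  have hA : N ^ p⁻¹ ≠ ⊤ := ENNReal.rpow_ne_top_of_nonneg (inv_pos.2 hp0).le hT
  have hA0 : N ^ p⁻¹ ≠ 0 := (ENNReal.rpow_pos_of_nonneg (pos_iff_ne_zero.2 hZ) (inv_pos.2 hp0).le).ne'
  set a : ℂ := ((N ^ p⁻¹).toReal : ℂ) with ha
  have ha0 : a ≠ 0 := Complex.ofReal_ne_zero.2 (ENNReal.toReal_ne_zero.2 ⟨hA0, hA⟩)
  have ha1 : ‖a‖ₑ ^ p = N := by
    rw [← ofReal_norm_eq_enorm, ha, Complex.norm_real, Real.norm_of_nonneg ENNReal.toReal_nonneg,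
      ENNReal.ofReal_toReal hA, ENNReal.rpow_inv_rpow hp0.ne']
  have e : g = fun s => a * (a⁻¹ * g s) := funext fun s => by
    rw [← mul_assoc, mul_inv_cancel₀ ha0, one_mul]
  have e1 : N * 1 = N * Np volume p fun s => a⁻¹ * g s := by
    rw [mul_one]
    conv_rhs => rw [← ha1, ← P117.Np_const_mul hp0.le, ← e]
  have e2 := (ENNReal.mul_right_inj hZ hT).1 e1
  have h2 := key (fun s => a⁻¹ * g s) (hg.const_mul _) (fun s hs => by rw [h0 s hs, mul_zero]) e2.ge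
  have e3 : ∀ z, w z * ‖TT κ g z‖ₑ ^ p = N * (w z * ‖TT κ (fun s => a⁻¹ * g s) z‖ₑ ^ p) :=
    fun z => by
      conv_lhs => rw [e, intb_mul, enorm_mul, ENNReal.mul_rpow_of_nonneg _ _ hp0.le, ha1]
      rw [mul_left_comm]
  simp only [e3]
  rw [lintegral_const_mul' _ _ hT, mul_comm]
  exact mul_le_mul_left h2 _

theorem core {p : ℝ} (h3 : 3 < p) : ∃ C : ℝ, 0 < C ∧ ∀ (k : ℤ) (g : ℝ → ℂ), Measurable g →
    (∀ s, s ∉ Icc (0 : ℝ) 1 → g s = 0) →
      ∫⁻ z, ENNReal.ofReal z.1 * ‖TT (kJ k) g z‖ₑ ^ p ≤ ENNReal.ofReal C * Np volume p g := by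
  have h1 : 3 < min ((p + 3) / 2) (7 / 2) := lt_min (by linarith) (by norm_num)
  obtain ⟨C0, h0⟩ := restricted h1 ((min_le_right _ _).trans_lt (by norm_num))
  obtain ⟨C, hC, h⟩ := interp (q := min ((p + 3) / 2) (7 / 2)) (p := p) 7 C0 (by linarith)
    ((min_le_left _ _).trans_lt (by linarith)) (by linarith)
  refine ⟨C, hC, fun k g hg hv => h (kJ k) _ measurable_fst.ennreal_ofReal ?_
    (fun r s => norm_bJ_le k _) (h0 k) g hg hv⟩
  exact ((continuous_bJ k).comp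
    (continuous_fst.mul (Real.continuous_sqrt.comp continuous_snd))).measurable

end Vale.Agent.P122
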