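import Vale.Agent.P122.Pol
import Vale.Agent.P122.IntB

/-!
Main: assembly.  `Eqv` from the hypothesis at `u = (ρ, 0)` (`P117.rot_pt`, `rot_eq_rot`,
`par (ρ cos θ, ρ sin θ) = pt (ρ cos θ) (ρ sin θ) (ρ ^ 2)`).  `finite_sig` and `MemLp.integrable`.
`Np volume p (extOp f) = ∫⁻ x, G (2 π rho x, x 2)` with `G = ‖TT ..‖ₑ ^ p` (`ext_eq`),
`P117.lintegral_cyl` (`rho_rot`, `rho (pt r 0 z) = r`), scaling `r ↦ 2 π r`
(`Real.map_volume_mul_left` or `lintegral_comp_mul_left`), Tonelli, `core`, `gg_np`.  Finally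
`eLpNorm_eq_lintegral_rpow_enorm_toReal`, take `p`-th roots.
-/

open MeasureTheory Set Real Filter
open scoped FourierTransform ENNReal ComplexConjugate Topology

namespace Vale.Agent.P122

open Vale.Agent.P117 (Np pt rho)

theorem main_cyl {G : ℝ × ℝ → ℝ≥0∞} (hG : Measurable G) :
    ∫⁻ x : E3, G (2 * π * rho x, x 2) ≤ ∫⁻ z, ENNReal.ofReal z.1 * G z := by
  have hp : 0 < 2 * π := by positivity
  have hH : Measurable fun z : ℝ × ℝ => ENNReal.ofReal z.1 * G z :=
    measurable_fst.ennreal_ofReal.mul hG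
  have hc : Continuous fun x : E3 => (2 * π * rho x, x 2) := by
    unfold rho
    fun_prop
  rw [P117.lintegral_cyl (g := fun x : E3 => G (2 * π * rho x, x 2)) (hG.comp hc.measurable)
    (fun θ x => by rw [P117.rho_rot]; rfl), ← lintegral_const_mul' _ _ ENNReal.ofReal_ne_top,
    Measure.volume_eq_prod, lintegral_prod_symm' _ hH]
  refine lintegral_mono fun z => ?_
  have h1 := lintegral_map (μ := volume) (hH.comp (measurable_prodMk_right (y := z)))
    (measurable_const_mul (2 * π))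
  rw [Real.map_volume_mul_left hp.ne', lintegral_smul_measure, smul_eq_mul] at h1
  rw [← lintegral_const_mul' _ _ ENNReal.ofReal_ne_top]
  refine le_trans ((setLIntegral_mono' measurableSet_Ioi fun r hr => le_of_eq ?_).trans
    ((setLIntegral_le_lintegral _ _).trans_eq h1.symm)) (mul_le_of_le_one_left' ?_)
  · have e : rho (pt r 0 z) = r := by simpa using P117.rho_pt (le_of_lt hr) 0 z
    simp only [e, P117.pt_two, Function.comp_apply, ENNReal.ofReal_mul hp.le]
    ring
  · rw [ENNReal.ofReal_le_one, abs_of_pos (inv_pos.2 hp)]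
    exact inv_le_one_of_one_le₀ (by linarith [two_le_pi])

theorem main {p : ℝ} (h3 : 3 < p) : ∃ C : NNReal, ∀ (k : ℤ) (f : E3 → ℂ), Measurable f →
    MemLp f (ENNReal.ofReal p) sig →
    (∀ (θ : ℝ) (u : ℝ × ℝ), u.1 ^ 2 + u.2 ^ 2 ≤ 1 →
      f (rot θ (par u)) = Complex.exp (k * θ * Complex.I) * f (par u)) →
    eLpNorm (extOp f) (ENNReal.ofReal p) volume ≤ C * eLpNorm f (ENNReal.ofReal p) sig := by
  obtain ⟨C, hC, H⟩ := core h3
  have hp : 0 < p := by linarith
  refine ⟨((C * 2 ^ p) ^ (1 / p)).toNNReal, fun k f hf hm he => ?_⟩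
  have hE : Eqv k f := fun θ ρ h0 h1 => by
    have h2 := he θ (ρ, 0) (by simp only; nlinarith)
    have e1 : par (ρ, 0) = pt ρ 0 (ρ ^ 2) := by simp [par, pt]
    have e2 : par (ρ * cos θ, ρ * sin θ) = pt (ρ * cos θ) (ρ * sin θ) (ρ ^ 2) := by
      rw [par, show (ρ * cos θ) ^ 2 + (ρ * sin θ) ^ 2 = ρ ^ 2 by
        linear_combination ρ ^ 2 * cos_sq_add_sin_sq θ, pt]
    rw [e1, rot_eq_rot, P117.rot_pt] at h2
    rw [e2, h2, ex]
    simp
  have := finite_sig
  have hi : Integrable f sig := hm.integrable (ENNReal.one_le_ofReal.2 (by linarith))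
  have hk : Measurable (Function.uncurry (kJ (-k))) :=
    ((continuous_bJ (-k)).comp (f := fun z : ℝ × ℝ => z.1 * √z.2) (by fun_prop)).measurable
  have h1 : Np volume p (extOp f) ≤ ENNReal.ofReal (C * 2 ^ p) * Np sig p f := by
    have h2 := (main_cyl ((measurable_TT hk (measurable_gg hf)).enorm.pow_const p)).trans
      (H (-k) _ (measurable_gg hf) fun s hs => indicator_of_notMem hs _)
    rw [ENNReal.ofReal_mul hC.le, mul_assoc]
    refine le_trans (le_of_eq (lintegral_congr fun x => ?_))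
      (h2.trans (mul_le_mul_right (gg_np hp hf hE) _))
    simp only [← ofReal_norm, ext_eq hf hi hE]
  have h0 : ENNReal.ofReal p ≠ 0 := (ENNReal.ofReal_pos.2 hp).ne'
  rw [eLpNorm_eq_lintegral_rpow_enorm_toReal h0 ENNReal.ofReal_ne_top,
    eLpNorm_eq_lintegral_rpow_enorm_toReal h0 ENNReal.ofReal_ne_top, ENNReal.toReal_ofReal hp.le]
  refine (ENNReal.rpow_le_rpow h1 (by positivity)).trans_eq ?_
  rw [ENNReal.mul_rpow_of_nonneg _ _ (by positivity),
    ENNReal.ofReal_rpow_of_nonneg (by positivity) (by positivity)]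
  rfl

end Vale.Agent.P122
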