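import Vale.Agent.P122.Sig
import Vale.Agent.P122.BesS
import Vale.Agent.P122.Op

/-!
Pol: the extension operator in cylindrical coordinates.  Write `x 0 = r cos α`, `x 1 = r sin α` with
`r = rho x` (`Complex.arg`, or `polarCoord`), take `c` from `circ k α`.  `integral_sig`,
`integrable_sig` (the exponential has norm one), `P117.integral_polar`; for `ρ > 0` the inner
integral is the indicator of `ρ ≤ 1` times
`ρ √(1 + 4 ρ ^ 2) f (pt ρ 0 (ρ ^ 2)) ex (2 π ρ ^ 2 x 2) * c * bJ (-k) (2 π r ρ)` (`Eqv`,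
`P117.inner_e3`, `cos_sub`).  Substitute `s = ρ ^ 2` (`integral_image_eq_integral_abs_deriv_smul` on
`Ioc 0 1`, no integrability needed) and compare with `TT_eq`.
-/

open MeasureTheory Set Real Filter
open scoped FourierTransform ENNReal ComplexConjugate Topology

namespace Vale.Agent.P122

open Vale.Agent.P117 (Np pt rho)

theorem pol_arg (x : E3) : ∃ α, x 0 = rho x * cos α ∧ x 1 = rho x * sin α := by
  have e : ‖(⟨x 0, x 1⟩ : ℂ)‖ = rho x := Complex.norm_eq_sqrt_sq_add_sq _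
  refine ⟨Complex.arg ⟨x 0, x 1⟩, ?_, ?_⟩
  · rw [← e, Complex.norm_mul_cos_arg]
  · rw [← e, Complex.norm_mul_sin_arg]

theorem pol_image : (fun ρ : ℝ => ρ ^ 2) '' Ioc 0 1 = Ioc 0 1 := by
  refine Subset.antisymm ?_ fun s hs => ⟨√s, ⟨sqrt_pos.2 hs.1, sqrt_le_one.2 hs.2⟩, sq_sqrt hs.1.le⟩
  rintro _ ⟨ρ, h, rfl⟩
  exact ⟨pow_pos h.1 2, pow_le_one₀ h.1.le h.2⟩

theorem pol_TT (k : ℤ) (f : E3 → ℂ) (r t : ℝ) : TT (kJ k) (gg f) (r, t) =
    ∫ ρ in Ioc (0 : ℝ) 1, ((ρ * √(1 + 4 * ρ ^ 2) : ℝ) : ℂ) * f (pt ρ 0 (ρ ^ 2)) *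
      ex (2 * π * (ρ ^ 2 * t)) * bJ k (r * ρ) := by
  have e : (fun s => ex (2 * π * (s * t)) * (kJ k r s * gg f s)) = (Icc (0 : ℝ) 1).indicator
      fun s => ex (2 * π * (s * t)) * (kJ k r s *
        (f (pt (√s) 0 s) * ((√(1 + 4 * s) / 2 : ℝ) : ℂ))) := by
    funext s
    by_cases hs : s ∈ Icc (0 : ℝ) 1
    · rw [gg, indicator_of_mem hs, indicator_of_mem hs]
    · rw [gg, indicator_of_notMem hs, indicator_of_notMem hs, mul_zero, mul_zero]
  have h := integral_image_eq_integral_abs_deriv_smul (s := Ioc (0 : ℝ) 1) (f := fun ρ => ρ ^ 2)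
    (f' := fun ρ => 2 * ρ) measurableSet_Ioc
    (fun ρ _ => by simpa using (hasDerivAt_pow 2 ρ).hasDerivWithinAt)
    (fun a ha b hb h => (pow_left_inj₀ ha.1.le hb.1.le two_ne_zero).1 h)
    fun s => ex (2 * π * (s * t)) * (kJ k r s * (f (pt (√s) 0 s) * ((√(1 + 4 * s) / 2 : ℝ) : ℂ)))
  rw [pol_image] at h
  rw [TT_eq, e, integral_indicator measurableSet_Icc, integral_Icc_eq_integral_Ioc, h]
  refine setIntegral_congr_fun measurableSet_Ioc fun ρ hρ => ?_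
  rw [kJ, sqrt_sq hρ.1.le, abs_of_nonneg (mul_nonneg zero_le_two hρ.1.le), Complex.real_smul]
  push_cast
  ring

open scoped RealInnerProductSpace in
theorem ext_eq {k : ℤ} {f : E3 → ℂ} (hf : Measurable f) (hi : Integrable f sig) (he : Eqv k f)
    (x : E3) : ‖extOp f x‖ = ‖TT (kJ (-k)) (gg f) (2 * π * rho x, x 2)‖ := by
  obtain ⟨α, h0, h1⟩ := pol_arg x
  obtain ⟨c, hc, hcirc⟩ := circ k α
  have hm : Measurable fun ξ : E3 => f ξ * ex (2 * π * ⟪x, ξ⟫) :=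
    hf.mul (continuous_ex.comp (by fun_prop)).measurable
  have hF : Integrable (fun ξ : E3 => f ξ * ex (2 * π * ⟪x, ξ⟫)) sig :=
    hi.norm.mono' hm.aestronglyMeasurable (ae_of_all _ fun ξ => by rw [norm_mul, norm_ex, mul_one])
  have e : extOp f x = ∫ ξ, f ξ * ex (2 * π * ⟪x, ξ⟫) ∂sig := rfl
  have e1 : ∀ z : ℂ, ‖c * z‖ = ‖z‖ := fun z => by rw [norm_mul, hc, one_mul]
  refine Eq.trans (congrArg norm ?_) (e1 _)
  rw [e, integral_sig hm, P117.integral_polar (integrable_sig hm hF), pol_TT,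
    ← integral_const_mul, ← Ioi_inter_Iic, ← setIntegral_indicator measurableSet_Iic]
  refine setIntegral_congr_fun measurableSet_Ioi fun ρ hρ => ?_
  have hρ0 : 0 < ρ := hρ
  have e2 : ∀ θ, (ρ * cos θ) ^ 2 + (ρ * sin θ) ^ 2 = ρ ^ 2 := fun θ => by
    linear_combination ρ ^ 2 * cos_sq_add_sin_sq θ
  simp only
  by_cases h : ρ ≤ 1
  · have e3 : ∀ θ, 2 * π * ⟪x, par (ρ * cos θ, ρ * sin θ)⟫ =
        2 * π * (ρ ^ 2 * x 2) + 2 * π * rho x * ρ * cos (θ - α) := fun θ => by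
      have e4 : ⟪x, par (ρ * cos θ, ρ * sin θ)⟫ =
          x 0 * (ρ * cos θ) + x 1 * (ρ * sin θ) + x 2 * ((ρ * cos θ) ^ 2 + (ρ * sin θ) ^ 2) :=
        P117.inner_e3 _ _
      rw [e4, e2, cos_sub]
      linear_combination 2 * π * ρ * cos θ * h0 + 2 * π * ρ * sin θ * h1
    rw [indicator_of_mem (mem_Iic.2 h), mul_left_comm, ← hcirc,
      ← intervalIntegral.integral_const_mul]
    refine intervalIntegral.integral_congr fun θ _ => ?_
    have h2 : (ρ * cos θ, ρ * sin θ) ∈ disc := by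
      change (ρ * cos θ) ^ 2 + (ρ * sin θ) ^ 2 ≤ 1
      rw [e2]
      exact pow_le_one₀ hρ0.le h
    rw [indicator_of_mem h2]
    simp only
    rw [e2, e3, ex_add, he θ ρ hρ0.le h]
    push_cast
    ring
  · rw [indicator_of_notMem fun h' => h (mem_Iic.1 h')]
    refine (intervalIntegral.integral_congr fun θ _ => ?_).trans intervalIntegral.integral_zero
    have h2 : (ρ * cos θ, ρ * sin θ) ∉ disc := fun h' => by
      change (ρ * cos θ) ^ 2 + (ρ * sin θ) ^ 2 ≤ 1 at h'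
      rw [e2] at h'
      exact h ((pow_le_one_iff_of_nonneg hρ0.le two_ne_zero).1 h')
    rw [indicator_of_notMem h2, mul_zero]

end Vale.Agent.P122
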