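import Vale.Agent.P122.Base

/-!
Sig: the surface measure.  `par` is continuous; `lintegral_map`, `lintegral_withDensity_eq_lintegral_mul`,
`integral_map`, `integral_withDensity_eq_integral_toReal_smul` (or `..._smul` with `Real.toNNReal`),
`integrable_map_measure`, `integrable_withDensity_iff_integrable_smul`.  `gg_np`: `lintegral_sig`,
drop the density (it is at least one), `lintegral_comp_polarCoord_symm`; by `Eqv` and `norm_ex` the
integrand does not depend on the angle; substitute `s = ρ ^ 2` on `(0, 1]`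
(`lintegral_image_eq_lintegral_abs_deriv_mul`); `‖gg f s‖ ≤ 2 * ‖f (pt (√s) 0 s)‖` and `1 ≤ π`.
-/

open MeasureTheory Set Real Filter
open scoped FourierTransform ENNReal ComplexConjugate Topology

namespace Vale.Agent.P122

open Vale.Agent.P117 (Np pt rho)

theorem measurable_par : Measurable par := by
  have : Continuous par := by
    unfold par
    fun_prop
  exact this.measurable

theorem sig_disc : MeasurableSet disc :=
  (isClosed_le (by fun_prop) continuous_const).measurableSet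

theorem sig_dens : Measurable fun u : ℝ × ℝ => ENNReal.ofReal √(1 + 4 * (u.1 ^ 2 + u.2 ^ 2)) := by
  fun_prop

theorem lintegral_sig {F : E3 → ℝ≥0∞} (hF : Measurable F) : ∫⁻ ξ, F ξ ∂sig =
    ∫⁻ u in disc, ENNReal.ofReal √(1 + 4 * (u.1 ^ 2 + u.2 ^ 2)) * F (par u) := by
  rw [sig, lintegral_map hF measurable_par,
    lintegral_withDensity_eq_lintegral_mul _ sig_dens (g := fun u => F (par u))
      (hF.comp measurable_par)]
  rfl

theorem finite_sig : IsFiniteMeasure sig := by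
  refine ⟨?_⟩
  rw [← lintegral_one, lintegral_sig measurable_const]
  have h1 : disc ⊆ Icc (-1, -1) (1, 1) := fun u hu => by
    have h : u.1 ^ 2 + u.2 ^ 2 ≤ 1 := hu
    refine ⟨⟨?_, ?_⟩, ?_, ?_⟩ <;> simp only <;> nlinarith [sq_nonneg u.1, sq_nonneg u.2]
  calc ∫⁻ u in disc, ENNReal.ofReal √(1 + 4 * (u.1 ^ 2 + u.2 ^ 2)) * 1
      ≤ ∫⁻ _ in disc, ENNReal.ofReal √5 := by
        refine setLIntegral_mono' sig_disc fun u hu => ?_
        have h : u.1 ^ 2 + u.2 ^ 2 ≤ 1 := hu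
        rw [mul_one]
        exact ENNReal.ofReal_le_ofReal (Real.sqrt_le_sqrt (by linarith))
    _ < ⊤ := by
        rw [setLIntegral_const]
        exact ENNReal.mul_lt_top ENNReal.ofReal_lt_top
          ((measure_mono h1).trans_lt isCompact_Icc.measure_lt_top)

theorem integral_sig {F : E3 → ℂ} (hF : Measurable F) : ∫ ξ, F ξ ∂sig =
    ∫ u, disc.indicator (fun u => ((√(1 + 4 * (u.1 ^ 2 + u.2 ^ 2)) : ℝ) : ℂ) * F (par u)) u := by
  rw [sig, integral_map measurable_par.aemeasurable hF.aestronglyMeasurable,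
    integral_withDensity_eq_integral_toReal_smul sig_dens
      (Eventually.of_forall fun _ => ENNReal.ofReal_lt_top), integral_indicator sig_disc]
  refine integral_congr_ae (Eventually.of_forall fun u => ?_)
  simp only [ENNReal.toReal_ofReal (Real.sqrt_nonneg _), Complex.real_smul]

theorem integrable_sig {F : E3 → ℂ} (hF : Measurable F) (h : Integrable F sig) : Integrable
    (disc.indicator fun u => ((√(1 + 4 * (u.1 ^ 2 + u.2 ^ 2)) : ℝ) : ℂ) * F (par u)) := by
  rw [sig, integrable_map_measure hF.aestronglyMeasurable measurable_par.aemeasurable,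
    integrable_withDensity_iff_integrable_smul' sig_dens
      (Eventually.of_forall fun _ => ENNReal.ofReal_lt_top)] at h
  rw [integrable_indicator_iff sig_disc]
  refine h.congr (Eventually.of_forall fun u => ?_)
  simp only [ENNReal.toReal_ofReal (Real.sqrt_nonneg _), Complex.real_smul, Function.comp]

theorem measurable_gg {f : E3 → ℂ} (hf : Measurable f) : Measurable (gg f) := by
  have h1 : Continuous fun s : ℝ => pt (√s) 0 s := by
    unfold pt
    fun_prop
  have h2 : Continuous fun s : ℝ => ((√(1 + 4 * s) / 2 : ℝ) : ℂ) := by fun_prop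
  exact ((hf.comp h1.measurable).mul h2.measurable).indicator measurableSet_Icc

theorem sig_left {f : E3 → ℂ} {p : ℝ} (hp : 0 < p) : Np volume p (gg f) ≤ ENNReal.ofReal (2 ^ p) *
    ∫⁻ ρ in Ioc (0 : ℝ) 1, ENNReal.ofReal |2 * ρ| * ‖f (pt ρ 0 (ρ ^ 2))‖ₑ ^ p := by
  have e : (fun ρ : ℝ => ρ ^ 2) '' Ioc 0 1 = Ioc 0 1 := by
    ext s
    refine ⟨?_, fun h => ⟨√s, ⟨Real.sqrt_pos.2 h.1, Real.sqrt_le_one.2 h.2⟩, Real.sq_sqrt h.1.le⟩⟩
    rintro ⟨ρ, h, rfl⟩
    exact ⟨pow_pos h.1 2, pow_le_one₀ h.1.le h.2⟩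
  have h1 := lintegral_image_eq_lintegral_abs_deriv_mul (s := Ioc (0 : ℝ) 1)
    (f := fun ρ : ℝ => ρ ^ 2) (f' := fun ρ => 2 * ρ) measurableSet_Ioc
    (fun x _ => by simpa using (hasDerivAt_pow 2 x).hasDerivWithinAt)
    (fun x hx y hy h => (pow_left_inj₀ hx.1.le hy.1.le two_ne_zero).1 h)
    fun s => ‖f (pt (√s) 0 s)‖ₑ ^ p
  have h2 : ∫⁻ ρ in Ioc (0 : ℝ) 1, ENNReal.ofReal |2 * ρ| * ‖f (pt (√(ρ ^ 2)) 0 (ρ ^ 2))‖ₑ ^ p =
      ∫⁻ ρ in Ioc (0 : ℝ) 1, ENNReal.ofReal |2 * ρ| * ‖f (pt ρ 0 (ρ ^ 2))‖ₑ ^ p :=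
    setLIntegral_congr_fun measurableSet_Ioc fun ρ hρ => by simp only [Real.sqrt_sq hρ.1.le]
  rw [← h2, ← h1, e, ← lintegral_const_mul' _ _ ENNReal.ofReal_ne_top,
    setLIntegral_congr Ioc_ae_eq_Icc, ← lintegral_indicator measurableSet_Icc]
  refine lintegral_mono fun s => ?_
  by_cases hs : s ∈ Icc (0 : ℝ) 1
  · rw [indicator_of_mem hs, gg, indicator_of_mem hs, ← ENNReal.ofReal_rpow_of_nonneg zero_le_two hp.le,
      ← ENNReal.mul_rpow_of_nonneg _ _ hp.le, enorm_mul, mul_comm]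
    refine ENNReal.rpow_le_rpow (mul_le_mul_left ?_ _) hp.le
    rw [← ofReal_norm, Complex.norm_real, Real.norm_of_nonneg (by positivity)]
    have : √(1 + 4 * s) ≤ 4 := Real.sqrt_le_iff.2 ⟨by norm_num, by linarith [hs.2]⟩
    exact ENNReal.ofReal_le_ofReal (by linarith)
  · rw [gg, indicator_of_notMem hs, enorm_zero, ENNReal.zero_rpow_of_pos hp]
    exact zero_le

theorem gg_np {k : ℤ} {f : E3 → ℂ} {p : ℝ} (hp : 0 < p) (hf : Measurable f) (he : Eqv k f) :
    Np volume p (gg f) ≤ ENNReal.ofReal (2 ^ p) * Np sig p f := by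
  refine (sig_left hp).trans (mul_le_mul_right ?_ _)
  have h1 : Continuous fun ρ : ℝ => pt ρ 0 (ρ ^ 2) := by
    unfold pt
    fun_prop
  have hH : Measurable fun ρ : ℝ => ENNReal.ofReal ρ * ‖f (pt ρ 0 (ρ ^ 2))‖ₑ ^ p :=
    ENNReal.measurable_ofReal.mul ((hf.comp h1.measurable).enorm.pow_const p)
  rw [Np, lintegral_sig (hf.enorm.pow_const p)]
  calc ∫⁻ ρ in Ioc (0 : ℝ) 1, ENNReal.ofReal |2 * ρ| * ‖f (pt ρ 0 (ρ ^ 2))‖ₑ ^ p
      ≤ ∫⁻ ρ in Ioc (0 : ℝ) 1, ∫⁻ _ in Ioo (-π) π,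
          ENNReal.ofReal ρ * ‖f (pt ρ 0 (ρ ^ 2))‖ₑ ^ p := by
        refine setLIntegral_mono' measurableSet_Ioc fun ρ hρ => ?_
        rw [setLIntegral_const, Real.volume_Ioo, mul_right_comm, ← ENNReal.ofReal_mul hρ.1.le,
          abs_of_pos (by linarith [hρ.1])]
        exact mul_le_mul_left (ENNReal.ofReal_le_ofReal (by nlinarith [Real.pi_gt_three, hρ.1])) _
    _ = ∫⁻ q in Ioc (0 : ℝ) 1 ×ˢ Ioo (-π) π,
          ENNReal.ofReal q.1 * ‖f (pt q.1 0 (q.1 ^ 2))‖ₑ ^ p := by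
        rw [Measure.volume_eq_prod, ← Measure.prod_restrict]
        exact (lintegral_prod _ (hH.comp measurable_fst).aemeasurable).symm
    _ ≤ ∫⁻ q in polarCoord.target, ENNReal.ofReal q.1 •
          disc.indicator (fun u => ‖f (par u)‖ₑ ^ p) (polarCoord.symm q) := by
        refine le_trans (le_of_eq ?_) (lintegral_mono_set (s := Ioc (0 : ℝ) 1 ×ˢ Ioo (-π) π)
          fun q hq => ⟨hq.1.1, hq.2⟩)
        refine setLIntegral_congr_fun (measurableSet_Ioc.prod measurableSet_Ioo) fun q hq => ?_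
        have hm : polarCoord.symm q ∈ disc := by
          change (q.1 * cos q.2) ^ 2 + (q.1 * sin q.2) ^ 2 ≤ 1
          nlinarith [sin_sq_add_cos_sq q.2, pow_le_one₀ (n := 2) hq.1.1.le hq.1.2]
        have h2 : ‖f (par (polarCoord.symm q))‖ₑ = ‖f (pt q.1 0 (q.1 ^ 2))‖ₑ := by
          rw [polarCoord_symm_apply, he _ _ hq.1.1.le hq.1.2, enorm_mul, ← ofReal_norm,
            norm_ex, ENNReal.ofReal_one, one_mul]
        simp only [indicator_of_mem hm, h2, smul_eq_mul]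
    _ = ∫⁻ u in disc, ‖f (par u)‖ₑ ^ p := by
        rw [lintegral_comp_polarCoord_symm, lintegral_indicator sig_disc]
    _ ≤ _ := by
        refine lintegral_mono fun u => le_mul_of_one_le_left' ?_
        exact ENNReal.one_le_ofReal.2 (Real.one_le_sqrt.2 (by nlinarith [sq_nonneg u.1, sq_nonneg u.2]))

end Vale.Agent.P122
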