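import Mathlib

/-! Definitions used in the statement for P122. -/

open MeasureTheory Real
open scoped RealInnerProductSpace

noncomputable section

namespace Vale.Agent.P122

/-- Euclidean three-space. -/
abbrev E3 := EuclideanSpace ℝ (Fin 3)

/-- Rotation by the angle `θ` about the third coordinate axis. -/
def rot (θ : ℝ) (x : E3) : E3 :=
  !₂[cos θ * x 0 - sin θ * x 1, sin θ * x 0 + cos θ * x 1, x 2]

/-- The parametrisation of the paraboloid. -/
def par (u : ℝ × ℝ) : E3 := !₂[u.1, u.2, u.1 ^ 2 + u.2 ^ 2]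

/-- The surface measure of the paraboloid over the closed unit disc. -/
def sig : Measure E3 :=
  ((volume.restrict {u : ℝ × ℝ | u.1 ^ 2 + u.2 ^ 2 ≤ 1}).withDensity fun u =>
    ENNReal.ofReal √(1 + 4 * (u.1 ^ 2 + u.2 ^ 2))).map par

/-- The Fourier extension operator. -/
def extOp (f : E3 → ℂ) (x : E3) : ℂ :=
  ∫ ξ, f ξ * Complex.exp (((2 * π * ⟪x, ξ⟫ : ℝ) : ℂ) * Complex.I) ∂sig

end Vale.Agent.P122
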