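import Vale.Agent.P122.Gron
import Vale.Agent.P122.WkbA
import Vale.Agent.P122.BesB

/-!
Wkb: uniform asymptotics.  `J = bJ k`, `m = mm k`, `W1 = J * (ld * m) - m * (y * dJ k y)`,
`W2 = J * conj (ld * m) - conj m * (y * dJ k y)`.  By `hasDerivAt_bJ`, `bJ_ode`, `hasDerivAt_mm`,
`hasDerivAt_ld` (and `HasDerivAt.star` for the conjugates) `W1' = qq * m * J / y`,
`W2' = qq * conj m * J / y`.  `conj m * W1 - m * W2 = 2 I J` because `m * conj m = 1 / ww` and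
`ld - conj ld = 2 I ww`.  So `‖Wi'‖ ≤ qq / (ww y) * (‖W1‖ + ‖W2‖) / 2`.  Choose `Y' ≥ max Y (2 k + 8)`
where `bJ_far` holds for `k - 1`, `k`, `k + 1`; there `y / 2 ≤ ww ≤ y` and `‖Wi Y'‖ ≤ 4 C`.
`α = -W2 Y' / (2 I)`, `β = W1 Y' / (2 I)`.  For `y ≤ Y` with `Reg k y` use `gron` on `[y, Y']` with
`Γ = 5 / 4 * (y ^ 2 / ww ^ 3) ≤ 5 / 32` (`Reg.mono`, `hasDerivAt_gam`, `choose`).
-/

open MeasureTheory Set Real Filter
open scoped FourierTransform ENNReal ComplexConjugate Topology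

namespace Vale.Agent.P122

open Vale.Agent.P117 (Np pt rho)

/-- first Wronskian -/
noncomputable def wkb_W1 (k : ℕ) (y : ℝ) : ℂ :=
  bJ k y * (ld k y * mm k y) - mm k y * ((y : ℂ) * dJ k y)

/-- second Wronskian -/
noncomputable def wkb_W2 (k : ℕ) (y : ℝ) : ℂ :=
  bJ k y * conj (ld k y * mm k y) - conj (mm k y) * ((y : ℂ) * dJ k y)

theorem wkb_conj {f : ℝ → ℂ} {f' : ℂ} {x : ℝ} (h : HasDerivAt f f' x) :
    HasDerivAt (fun x => conj (f x)) (conj f') x := h.star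

theorem wkb_d1 {k : ℕ} {y : ℝ} (h : (k : ℝ) < y) :
    HasDerivAt (wkb_W1 k) (((qq k y / y : ℝ) : ℂ) * mm k y * bJ k y) y := by
  have k0 : (0 : ℝ) ≤ k := Nat.cast_nonneg k
  have y0 : y ≠ 0 := (k0.trans_lt h).ne'
  have yc : (y : ℂ) ≠ 0 := by exact_mod_cast y0
  have h1 := ((hasDerivAt_bJ k y).mul (hasDerivAt_ld k0 h)).sub
    ((hasDerivAt_mm k0 h).mul (bJ_ode k y0))
  refine h1.congr_deriv ?_
  rw [ww_sq k0 h]
  push_cast
  field_simp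
  ring

theorem wkb_d2 {k : ℕ} {y : ℝ} (h : (k : ℝ) < y) :
    HasDerivAt (wkb_W2 k) (((qq k y / y : ℝ) : ℂ) * conj (mm k y) * bJ k y) y := by
  have k0 : (0 : ℝ) ≤ k := Nat.cast_nonneg k
  have y0 : y ≠ 0 := (k0.trans_lt h).ne'
  have yc : (y : ℂ) ≠ 0 := by exact_mod_cast y0
  have h1 := ((hasDerivAt_bJ k y).mul (wkb_conj (hasDerivAt_ld k0 h))).sub
    ((wkb_conj (hasDerivAt_mm k0 h)).mul (bJ_ode k y0))
  refine h1.congr_deriv ?_
  rw [ww_sq k0 h]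
  simp only [map_mul, map_div₀, Complex.conj_ofReal]
  push_cast
  field_simp
  ring

theorem wkb_id {k : ℕ} {y : ℝ} (h : (k : ℝ) < y) :
    conj (mm k y) * wkb_W1 k y - mm k y * wkb_W2 k y = 2 * Complex.I * bJ k y := by
  have k0 : (0 : ℝ) ≤ k := Nat.cast_nonneg k
  have w0 := ww_pos k0 h
  have h1 : mm k y * conj (mm k y) * (ww k y : ℂ) = 1 := by
    rw [Complex.mul_conj', norm_mm, ← Complex.ofReal_pow, ← Complex.ofReal_mul, inv_pow,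
      sq_sqrt w0.le, inv_mul_cancel₀ w0.ne', Complex.ofReal_one]
  have h2 : ld k y - conj (ld k y) = 2 * Complex.I * (ww k y : ℂ) := by
    simp only [ld, map_sub, map_mul, Complex.conj_ofReal, Complex.conj_I]
    ring
  simp only [wkb_W1, wkb_W2, map_mul]
  linear_combination bJ k y * (mm k y * conj (mm k y)) * h2 + 2 * Complex.I * bJ k y * h1

theorem wkb_J {k : ℕ} {y : ℝ} (h : (k : ℝ) < y) :
    ‖bJ k y‖ ≤ (√(ww k y))⁻¹ * (‖wkb_W1 k y‖ + ‖wkb_W2 k y‖) / 2 := by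
  have h1 := norm_sub_le (conj (mm k y) * wkb_W1 k y) (mm k y * wkb_W2 k y)
  rw [wkb_id h] at h1
  simp only [norm_mul, RCLike.norm_conj, norm_mm, Complex.norm_I, Complex.norm_ofNat] at h1
  linarith

theorem wkb_V {k : ℕ} {y G : ℝ} {c : ℂ} (h : (k : ℝ) < y) (hc : ‖c‖ = (√(ww k y))⁻¹)
    (hq : 0 ≤ qq k y) (hG : qq k y / (ww k y * y) ≤ -G) :
    ‖((qq k y / y : ℝ) : ℂ) * c * bJ k y‖ ≤ -G * (‖wkb_W1 k y‖ + ‖wkb_W2 k y‖) / 2 := by
  have k0 : (0 : ℝ) ≤ k := Nat.cast_nonneg k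
  have y0 : 0 < y := k0.trans_lt h
  have w0 := ww_pos k0 h
  have s0 := sqrt_pos.2 w0
  rw [norm_mul, norm_mul, hc, Complex.norm_real, Real.norm_of_nonneg (by positivity)]
  refine (mul_le_mul_of_nonneg_left (wkb_J h) (by positivity)).trans ?_
  have e : qq k y / y * (√(ww k y))⁻¹ * ((√(ww k y))⁻¹ * (‖wkb_W1 k y‖ + ‖wkb_W2 k y‖) / 2) =
      qq k y / (√(ww k y) ^ 2 * y) * (‖wkb_W1 k y‖ + ‖wkb_W2 k y‖) / 2 := by
    field_simp
  rw [e, sq_sqrt w0.le]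
  gcongr

theorem wkb_far {k : ℕ} {y C : ℝ} {c l : ℂ} (h : 2 * (k : ℝ) + 8 ≤ y)
    (hc : ‖c‖ = (√(ww k y))⁻¹) (hl : ‖l‖ = ‖ld k y‖) (h0 : ‖bJ k y‖ * √y ≤ C)
    (h1 : ‖bJ (k - 1) y‖ * √y ≤ C) (h2 : ‖bJ (k + 1) y‖ * √y ≤ C) :
    ‖bJ k y * (l * c) - c * ((y : ℂ) * dJ k y)‖ ≤ 4 * C := by
  have k0 : (0 : ℝ) ≤ k := Nat.cast_nonneg k
  have hk : (k : ℝ) < y := by linarith
  have y0 : 0 < y := by linarith
  have w0 := ww_pos k0 hk
  have w1 : ww k y ≤ y := ww_le y0.le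
  have w2 : y ≤ 2 * ww k y := by
    refine le_of_sq_le_sq ?_ (by positivity)
    rw [mul_pow, ww_sq k0 hk]
    nlinarith
  have hld : ‖ld k y‖ ≤ 2 * ww k y := by
    refine (norm_sub_le _ _).trans ?_
    rw [norm_mul, Complex.norm_I, mul_one, Complex.norm_real, Complex.norm_real,
      Real.norm_of_nonneg w0.le, Real.norm_of_nonneg (by positivity)]
    have : y ^ 2 / (2 * ww k y ^ 2) ≤ 2 := by
      rw [div_le_iff₀ (by positivity)]
      nlinarith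
    linarith
  have hd : ‖dJ k y‖ * √y ≤ C := by
    have : ‖dJ k y‖ ≤ (‖bJ (k - 1) y‖ + ‖bJ (k + 1) y‖) / 2 := by
      rw [dJ, norm_div, Complex.norm_ofNat]
      gcongr
      exact norm_sub_le _ _
    nlinarith [sqrt_nonneg y]
  have a0 := sqrt_pos.2 y0
  have b0 := sqrt_pos.2 w0
  have ab : √(ww k y) ≤ √y := sqrt_le_sqrt w1
  have ba : √y ≤ 2 * √(ww k y) := by
    refine le_of_sq_le_sq ?_ (by positivity)
    rw [mul_pow, sq_sqrt y0.le, sq_sqrt w0.le]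
    linarith
  refine (norm_sub_le _ _).trans ?_
  rw [norm_mul, norm_mul, norm_mul, norm_mul, hc, hl, Complex.norm_real, Real.norm_of_nonneg y0.le]
  have e1 : ‖ld k y‖ * (√(ww k y))⁻¹ ≤ 2 * √y := by
    rw [← div_eq_mul_inv, div_le_iff₀ b0]
    nlinarith [sq_sqrt w0.le]
  have e2 : (√(ww k y))⁻¹ * y ≤ 2 * √y := by
    rw [inv_mul_le_iff₀ b0]
    nlinarith [sq_sqrt y0.le]
  have f1 := mul_le_mul_of_nonneg_left e1 (norm_nonneg (bJ k y))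
  have f2 := mul_le_mul_of_nonneg_right e2 (norm_nonneg (dJ k y))
  nlinarith

theorem wkb : ∃ C : ℝ, ∀ (k : ℕ) (Y : ℝ), ∃ α β : ℂ, ‖α‖ ≤ C ∧ ‖β‖ ≤ C ∧
    ∀ y ≤ Y, Reg k y → ‖bJ k y - (α * mm k y + β * conj (mm k y))‖ ≤
      C * (y ^ 2 / ww k y ^ 3 * (√(ww k y))⁻¹) := by
  obtain ⟨C, hC⟩ := bJ_far
  refine ⟨10 * C, fun k Y => ?_⟩
  have k0 : (0 : ℝ) ≤ k := Nat.cast_nonneg k
  obtain ⟨Z, ⟨⟨z0, z1⟩, z2⟩, z3, z4⟩ := ((((hC k).and (hC (k - 1))).and (hC (k + 1))).and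
    ((eventually_ge_atTop Y).and (eventually_ge_atTop (2 * (k : ℝ) + 8)))).exists
  have C0 : 0 ≤ C := le_trans (by positivity) z0
  have b1 : ‖wkb_W1 k Z‖ ≤ 4 * C := wkb_far z4 (norm_mm _ _) rfl z0 z1 z2
  have b2 : ‖wkb_W2 k Z‖ ≤ 4 * C := by
    rw [wkb_W2, map_mul]
    exact wkb_far z4 (by rw [RCLike.norm_conj, norm_mm]) (RCLike.norm_conj _) z0 z1 z2
  have nI : ‖2 * Complex.I‖ = 2 := by simp
  have I0 : 2 * Complex.I ≠ 0 := by simp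
  refine ⟨-wkb_W2 k Z / (2 * Complex.I), wkb_W1 k Z / (2 * Complex.I), ?_, ?_, fun y hy hr => ?_⟩
  · rw [norm_div, norm_neg, nI]
    linarith
  · rw [norm_div, nI]
    linarith
  choose! G hG using fun x (h : (k : ℝ) < x) => hasDerivAt_gam k0 h
  have hx : ∀ x ∈ Icc y Z, Reg k x := fun x hx => hr.mono k0 hx.1
  have hq : ∀ x ∈ Icc y Z, 0 ≤ 5 / 4 * (x ^ 2 / ww k x ^ 3) ∧
      5 / 4 * (x ^ 2 / ww k x ^ 3) ≤ 1 / 2 ∧ G x ≤ 0 := fun x h => by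
    obtain ⟨r1, r2⟩ := hx x h
    have w0 := ww_pos k0 r1
    have x0 : 0 < x := k0.trans_lt r1
    obtain ⟨-, g1, g2⟩ := hG x r1
    refine ⟨by positivity, ?_, ?_⟩
    · have : x ^ 2 / ww k x ^ 3 ≤ 1 / 8 := by
        rw [div_le_iff₀ (by positivity)]
        linarith
      linarith
    · have : 0 ≤ qq k x / (ww k x * x) := by positivity
      linarith
  obtain ⟨g1, g2⟩ := gron (fun x h => wkb_d1 (hx x h).1) (fun x h => wkb_d2 (hx x h).1)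
    (fun x h => (hG x (hx x h).1).1) hq
    (fun x h => wkb_V (hx x h).1 (norm_mm _ _) (hG x (hx x h).1).2.1 (hG x (hx x h).1).2.2)
    (fun x h => wkb_V (hx x h).1 (by rw [RCLike.norm_conj, norm_mm]) (hG x (hx x h).1).2.1
      (hG x (hx x h).1).2.2) y ⟨le_rfl, hy.trans z3⟩
  have e : bJ k y - (-wkb_W2 k Z / (2 * Complex.I) * mm k y +
      wkb_W1 k Z / (2 * Complex.I) * conj (mm k y)) =
      (conj (mm k y) * (wkb_W1 k y - wkb_W1 k Z) - mm k y * (wkb_W2 k y - wkb_W2 k Z)) /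
        (2 * Complex.I) := by
    rw [eq_div_iff I0]
    field_simp
    linear_combination -wkb_id hr.1
  have p0 := (hq y ⟨le_rfl, hy.trans z3⟩).1
  have p1 := mul_le_mul_of_nonneg_left (add_le_add b1 b2) p0
  have s0 : 0 ≤ (√(ww k y))⁻¹ := by positivity
  rw [e, norm_div, nI]
  have h1 := norm_sub_le (conj (mm k y) * (wkb_W1 k y - wkb_W1 k Z))
    (mm k y * (wkb_W2 k y - wkb_W2 k Z))
  rw [norm_mul, norm_mul, RCLike.norm_conj, norm_mm] at h1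
  have f1 := mul_le_mul_of_nonneg_left (g1.trans p1) s0
  have f2 := mul_le_mul_of_nonneg_left (g2.trans p1) s0
  nlinarith

end Vale.Agent.P122
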